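import Vale.Agent.P240.R2.H472.Nrm

/-!
NL5 (b): `p = 2`. For `n` odd, a diagonal unitary matrix `diag(a)` is a coboundary modulo scalars:
`diag(a) (star u) = c u` with `u` unitary.
-/

set_option autoImplicit false

namespace Vale.Agent.P240.R2.H281

open Finset Matrix
open scoped Classical

universe u v

noncomputable section

section forms

variable {F : Type u} [Field F] [Fintype F]

/-- a nondegenerate diagonal plane represents `1` -/
lemma rep_one (h2 : (2 : F) ≠ 0) {a b : F} (ha : a ≠ 0) (hb : b ≠ 0) :
    ∃ x y : F, a * x ^ 2 + b * y ^ 2 = 1 := by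
  have hc : ringChar F ≠ 2 := by
    intro h
    apply h2
    have := ringChar.Nat.cast_ringChar (R := F)
    rw [h] at this
    exact_mod_cast this
  have h4 := FiniteField.odd_card_of_char_ne_two hc
  have d1 : (Polynomial.C a * Polynomial.X ^ 2 : Polynomial F).degree = 2 := by
    rw [Polynomial.degree_C_mul_X_pow 2 ha]
    rfl
  have d2 : (Polynomial.C b * Polynomial.X ^ 2 - Polynomial.C 1 : Polynomial F).degree = 2 := by
    rw [Polynomial.degree_sub_C, Polynomial.degree_C_mul_X_pow 2 hb]
    · rfl
    · rw [Polynomial.degree_C_mul_X_pow 2 hb]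
      norm_num
  obtain ⟨x, y, h⟩ := FiniteField.exists_root_sum_quadratic d1 d2 h4
  refine ⟨x, y, ?_⟩
  simp only [Polynomial.eval_mul, Polynomial.eval_C, Polynomial.eval_pow, Polynomial.eval_X,
    Polynomial.eval_sub] at h
  linear_combination h

variable {ι : Type v} [Fintype ι] [DecidableEq ι]

/-- the change of basis in the plane `i`, `j` -/
def st (d : ι → F) (i j : ι) (x y : F) : Matrix ι ι F := fun k l =>
  if l = i then (if k = i then x else if k = j then y else 0)
  else if l = j then (if k = i then -(d j * y) else if k = j then d i * x else 0)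
  else if k = l then 1 else 0

omit [Fintype F] in
/-- one step of the diagonalisation -/
lemma step {d : ι → F} {i j : ι} (hij : i ≠ j) {x y : F} (h : d i * x ^ 2 + d j * y ^ 2 = 1) :
    (st d i j x y)ᵀ * diagonal d * st d i j x y =
      diagonal (Function.update (Function.update d i 1) j (d i * d j)) := by
  have key : ∀ l m : ι, ((st d i j x y)ᵀ * diagonal d * st d i j x y) l m =
      if l = i then x * d i * st d i j x y i m + y * d j * st d i j x y j m
      else if l = j then -(d j * y) * d i * st d i j x y i m + d i * x * d j * st d i j x y j m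
      else d l * st d i j x y l m := by
    intro l m
    rw [Matrix.mul_apply]
    simp only [mul_diagonal, transpose_apply]
    by_cases hl : l = i
    · subst hl
      rw [if_pos rfl]
      have h1 : ∀ k : ι, st d l j x y k l * d k * st d l j x y k m =
          (if k = l then x * d l * st d l j x y l m else 0) +
          (if k = j then y * d j * st d l j x y j m else 0) := by
        intro k
        by_cases hk : k = l
        · subst hk
          simp [st, hij]
        · by_cases hk2 : k = j
          · subst hk2
            simp [st, hk]
          · simp [st, hk, hk2]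
      simp only [h1, Finset.sum_add_distrib, Finset.sum_ite_eq', Finset.mem_univ, if_true]
    · by_cases hl2 : l = j
      · subst hl2
        rw [if_neg hl, if_pos rfl]
        have h1 : ∀ k : ι, st d i l x y k l * d k * st d i l x y k m =
            (if k = i then -(d l * y) * d i * st d i l x y i m else 0) +
            (if k = l then d i * x * d l * st d i l x y l m else 0) := by
          intro k
          by_cases hk : k = i
          · subst hk
            simp [st, hij, Ne.symm hij]
          · by_cases hk2 : k = l
            · subst hk2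
              simp [st, hk]
            · simp [st, hk, hk2, hl]
        simp only [h1, Finset.sum_add_distrib, Finset.sum_ite_eq', Finset.mem_univ, if_true]
      · rw [if_neg hl, if_neg hl2]
        have h1 : ∀ k : ι, st d i j x y k l * d k * st d i j x y k m =
            (if k = l then d l * st d i j x y l m else 0) := by
          intro k
          by_cases hk : k = l
          · subst hk
            simp [st, hl, hl2]
          · simp [st, hk, hl, hl2]
        simp only [h1, Finset.sum_ite_eq', Finset.mem_univ, if_true]
  ext l m
  rw [key, diagonal_apply]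
  by_cases hl : l = i
  · subst hl
    rw [if_pos rfl]
    by_cases hm : m = l
    · subst hm
      rw [if_pos rfl, Function.update_of_ne hij, Function.update_self]
      simp only [st, if_true, if_neg (Ne.symm hij)]
      linear_combination h
    · by_cases hm2 : m = j
      · subst hm2
        rw [if_neg (Ne.symm hm)]
        simp only [st, if_true, if_neg hm]
        ring
      · rw [if_neg (Ne.symm hm)]
        simp only [st, if_neg hm, if_neg hm2, if_neg (Ne.symm hm), if_neg (Ne.symm hm2)]
        ring
  · by_cases hl2 : l = j
    · subst hl2
      rw [if_neg hl, if_pos rfl]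
      by_cases hm : m = i
      · subst hm
        rw [if_neg hl]
        simp only [st, if_true, if_neg hl]
        ring
      · by_cases hm2 : m = l
        · subst hm2
          rw [if_pos rfl, Function.update_self]
          simp only [st, if_true, if_neg hm]
          linear_combination (d i * d m) * h
        · rw [if_neg (Ne.symm hm2)]
          simp only [st, if_neg hm, if_neg hm2, if_neg (Ne.symm hm), if_neg (Ne.symm hm2)]
          ring
    · rw [if_neg hl, if_neg hl2]
      by_cases hm : m = i
      · subst hm
        rw [if_neg hl]
        simp only [st, if_true, if_neg hl, if_neg hl2]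
        ring
      · by_cases hm2 : m = j
        · subst hm2
          rw [if_neg hl2]
          simp only [st, if_true, if_neg hl, if_neg hl2, if_neg hm]
          ring
        · simp only [st, if_neg hm, if_neg hm2]
          by_cases hlm : l = m
          · subst hlm
            rw [if_pos rfl, if_pos rfl, Function.update_of_ne hl2, Function.update_of_ne hl, mul_one]
          · rw [if_neg hlm, if_neg hlm, mul_zero]

/-- a diagonal form with square discriminant has an orthonormal basis -/
theorem exists_orthonormal (h2 : (2 : F) ≠ 0) : ∀ (N : ℕ) (d : ι → F), (∀ i, d i ≠ 0) →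
    IsSquare (∏ i, d i) → (univ.filter fun i => d i ≠ 1).card = N →
    ∃ M : Matrix ι ι F, Mᵀ * diagonal d * M = 1 := by
  intro N
  induction N using Nat.strong_induction_on with
  | _ N ih =>
    intro d hd hs hN
    by_cases h : ∃ i j, i ≠ j ∧ d i ≠ 1 ∧ d j ≠ 1
    · obtain ⟨i, j, hij, hi, hj⟩ := h
      obtain ⟨x, y, hxy⟩ := rep_one h2 (hd i) (hd j)
      set d' := Function.update (Function.update d i 1) j (d i * d j) with hd'
      have e1 : ∀ k, k ≠ i → k ≠ j → d' k = d k := by
        intro k h1 h3
        rw [hd', Function.update_of_ne h3, Function.update_of_ne h1]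
      have e2 : d' i = 1 := by
        rw [hd', Function.update_of_ne hij, Function.update_self]
      have e3 : d' j = d i * d j := by rw [hd', Function.update_self]
      have hd'0 : ∀ k, d' k ≠ 0 := by
        intro k
        by_cases h1 : k = i
        · rw [h1, e2]; exact one_ne_zero
        · by_cases h3 : k = j
          · rw [h3, e3]; exact mul_ne_zero (hd i) (hd j)
          · rw [e1 k h1 h3]; exact hd k
      have hp : ∏ k, d' k = ∏ k, d k := by
        rw [← Finset.mul_prod_erase univ d' (Finset.mem_univ i),
          ← Finset.mul_prod_erase (univ.erase i) d' (Finset.mem_erase.mpr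
            ⟨Ne.symm hij, Finset.mem_univ j⟩),
          ← Finset.mul_prod_erase univ d (Finset.mem_univ i),
          ← Finset.mul_prod_erase (univ.erase i) d (Finset.mem_erase.mpr
            ⟨Ne.symm hij, Finset.mem_univ j⟩), e2, e3, one_mul, mul_assoc]
        congr 2
        refine Finset.prod_congr rfl fun k hk => ?_
        rw [Finset.mem_erase, Finset.mem_erase] at hk
        exact e1 k hk.2.1 hk.1
      have hlt : (univ.filter fun k => d' k ≠ 1).card < N := by
        rw [← hN]
        refine Finset.card_lt_card ?_
        rw [Finset.ssubset_iff_of_subset]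
        · refine ⟨i, by simpa using hi, by simp [e2]⟩
        · intro k hk
          simp only [mem_filter, mem_univ, true_and] at hk ⊢
          by_cases h1 : k = i
          · rw [h1]; exact hi
          · by_cases h3 : k = j
            · rw [h3]; exact hj
            · rwa [e1 k h1 h3] at hk
      obtain ⟨M, hM⟩ := ih _ hlt d' hd'0 (by rw [hp]; exact hs) rfl
      refine ⟨st d i j x y * M, ?_⟩
      have h5 := step hij hxy
      rw [← hd'] at h5
      rw [← hM, ← h5, transpose_mul]
      simp only [mul_assoc]
    · push Not at h
      by_cases h3 : ∃ i, d i ≠ 1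
      · obtain ⟨i, hi⟩ := h3
        have h4 : ∀ j, j ≠ i → d j = 1 := fun j hj => h i j (Ne.symm hj) hi
        have h5 : ∏ k, d k = d i := by
          rw [Fintype.prod_eq_single i (fun j hj => h4 j hj)]
        rw [h5] at hs
        obtain ⟨s, hs⟩ := hs
        have hs0 : s ≠ 0 := by
          rintro rfl
          exact hd i (by rw [hs, mul_zero])
        refine ⟨diagonal (Function.update 1 i s⁻¹), ?_⟩
        rw [diagonal_transpose, diagonal_mul_diagonal, diagonal_mul_diagonal, ← diagonal_one]
        congr 1
        funext k
        by_cases hk : k = i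
        · subst hk
          simp only [Function.update_self]
          rw [hs]
          field_simp
        · simp [Function.update_of_ne hk, h4 k hk]
      · push Not at h3
        refine ⟨1, ?_⟩
        have : d = 1 := funext h3
        rw [this]
        simp

end forms

section star

variable (K : Type u) [Field K] [StarRing K]

/-- the fixed field of the star -/
def fx : Subfield K where
  carrier := {x | star x = x}
  mul_mem' := by
    intro a b ha hb
    simp only [Set.mem_ofPred_eq] at ha hb ⊢
    rw [star_mul', ha, hb]
  one_mem' := star_one K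
  add_mem' := by
    intro a b ha hb
    simp only [Set.mem_ofPred_eq] at ha hb ⊢
    rw [star_add, ha, hb]
  zero_mem' := star_zero K
  neg_mem' := by
    intro a ha
    simp only [Set.mem_ofPred_eq] at ha ⊢
    rw [star_neg, ha]
  inv_mem' := by
    intro a ha
    simp only [Set.mem_ofPred_eq] at ha ⊢
    rw [star_inv₀, ha]

variable {K}

lemma mem_fx {x : K} : x ∈ fx K ↔ star x = x := Iff.rfl

/-- Hilbert 90 for the star -/
lemma hilb (hne : ∃ y : K, star y ≠ y) {a : K} (ha : a * star a = 1) :
    ∃ b : K, b ≠ 0 ∧ a * star b = b := by
  by_cases h : a = -1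
  · obtain ⟨y, hy⟩ := hne
    refine ⟨y - star y, sub_ne_zero.mpr (Ne.symm hy), ?_⟩
    rw [h, star_sub, star_star]
    ring
  · refine ⟨1 + a, ?_, ?_⟩
    · intro h0
      exact h (by linear_combination h0)
    · rw [star_add, star_one]
      linear_combination ha

variable [Fintype K]

lemma star_ne {q : ℕ} (hq : 2 ≤ q) (hK : Nat.card K = q ^ 2) (hs : ∀ x : K, star x = x ^ q) :
    ∃ y : K, star y ≠ y := by
  by_contra hc
  push Not at hc
  have h1 : (Polynomial.X ^ q - Polynomial.X : Polynomial K) ≠ 0 :=
    FiniteField.X_pow_card_sub_X_ne_zero K hq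
  have h3 : (univ : Finset K) ⊆ (Polynomial.X ^ q - Polynomial.X : Polynomial K).roots.toFinset := by
    intro x _
    rw [Multiset.mem_toFinset, Polynomial.mem_roots h1, Polynomial.IsRoot.def,
      Polynomial.eval_sub, Polynomial.eval_pow, Polynomial.eval_X, ← hs, hc, sub_self]
  have h4 := (Finset.card_le_card h3).trans (Multiset.toFinset_card_le _)
  have h5 := h4.trans (Polynomial.card_roots' _)
  rw [FiniteField.X_pow_card_sub_X_natDegree_eq K hq, Finset.card_univ,
    ← Nat.card_eq_fintype_card, hK] at h5
  nlinarith

/-- NL5 (b) -/
theorem h90_two {q : ℕ} (hq : Odd q) (hK : Nat.card K = q ^ 2) (hs : ∀ x : K, star x = x ^ q)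
    {n : ℕ} (hn : Odd n) (a : Fin n → K) (ha : ∀ i, a i * star (a i) = 1) :
    ∃ u ∈ Matrix.unitaryGroup (Fin n) K, ∃ c : K, c * star c = 1 ∧
      diagonal a * u.map star = c • u := by
  have hq2 : 2 ≤ q := by
    by_contra h
    have h1 : q = 1 := by
      obtain ⟨k, hk⟩ := hq
      omega
    rw [h1, one_pow, Nat.card_eq_fintype_card] at hK
    have := Fintype.one_lt_card (α := K)
    omega
  have h2 : (2 : K) ≠ 0 := by
    intro h
    have hodd : Odd (Nat.card K) := by rw [hK]; exact hq.pow
    have hch : ringChar K = 2 := by
      have h1 : ringChar K ∣ 2 := by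
        apply ringChar.dvd
        exact_mod_cast h
      rcases (Nat.dvd_prime Nat.prime_two).mp h1 with h1 | h1
      · exact absurd h1 (CharP.ringChar_ne_one)
      · exact h1
    have h3 := FiniteField.even_card_iff_char_two.mp hch
    rw [← Nat.card_eq_fintype_card] at h3
    rw [Nat.odd_iff] at hodd
    omega
  have hne := star_ne hq2 hK hs
  choose b hb0 hb using fun i => hilb hne (ha i)
  -- the values
  have hdf : ∀ i, b i * star (b i) ∈ fx K := by
    intro i
    rw [mem_fx, star_mul', star_star, mul_comm]
  let d : Fin n → fx K := fun i => ⟨b i * star (b i), hdf i⟩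
  have hd0 : ∀ i, d i ≠ 0 := by
    intro i h
    have h1 : b i * star (b i) = 0 := congrArg Subtype.val h
    rcases mul_eq_zero.mp h1 with h1 | h1
    · exact hb0 i h1
    · exact hb0 i (by rw [← star_star (b i), h1, star_zero])
  have h2' : (2 : fx K) ≠ 0 := by
    intro h
    apply h2
    have h3 := congrArg (fx K).subtype h
    rwa [map_ofNat, map_zero] at h3
  set D := ∏ i, d i with hD
  have hD0 : D ≠ 0 := Finset.prod_ne_zero_iff.mpr fun i _ => hd0 i
  obtain ⟨M, hM⟩ := exists_orthonormal (F := fx K) h2' _ (fun i => D⁻¹ * d i)
    (fun i => mul_ne_zero (inv_ne_zero hD0) (hd0 i)) (by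
      rw [Finset.prod_mul_distrib, ← hD, Finset.prod_const, Finset.card_univ, Fintype.card_fin]
      obtain ⟨k, rfl⟩ := hn
      refine ⟨D⁻¹ ^ k, ?_⟩
      rw [pow_succ, mul_assoc, inv_mul_cancel₀ hD0, mul_one]
      ring) rfl
  obtain ⟨s, hs1⟩ := H472.exists_norm (c := ((D⁻¹ : fx K) : K)) (q := q)
    (by rw [← Nat.card_eq_fintype_card]; exact hK) hs (by
      intro h
      exact inv_ne_zero hD0 (Subtype.ext h)) (D⁻¹).2
  have hs0 : s ≠ 0 := by
    rintro rfl
    rw [mul_zero] at hs1
    exact inv_ne_zero hD0 (Subtype.ext hs1.symm)
  have hss0 : star s ≠ 0 := fun h => hs0 (by rw [← star_star s, h, star_zero])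
  let N : Matrix (Fin n) (Fin n) K := M.map (fx K).subtype
  have hN : Nᵀ * diagonal (fun i => ((D⁻¹ * d i : fx K) : K)) * N = 1 := by
    have h1 := congrArg (fun A => (fx K).subtype.mapMatrix A) hM
    simp only [map_mul, map_one, RingHom.mapMatrix_apply] at h1
    rw [← h1]
    congr 2
    rw [diagonal_map (map_zero _)]
    rfl
  have hNs : N.map star = N := by
    ext i j
    simp only [N, map_apply, Subfield.coe_subtype]
    exact (M i j).2
  refine ⟨s • (diagonal b * N), ?_, star s / s, ?_, ?_⟩
  · rw [Matrix.mem_unitaryGroup_iff', star_eq_conjTranspose, conjTranspose_smul,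
      conjTranspose_mul, diagonal_conjTranspose]
    have h1 : Nᴴ = Nᵀ := by
      rw [conjTranspose, transpose_map, hNs]
    rw [h1, smul_mul_smul_comm, ← hN]
    have h3 : Nᵀ * diagonal (star b) * (diagonal b * N) =
        Nᵀ * diagonal (fun i => ((d i : fx K) : K)) * N := by
      rw [mul_assoc, ← mul_assoc (diagonal (star b)), diagonal_mul_diagonal, ← mul_assoc]
      congr 3
      funext i
      simp only [Pi.star_apply, d]
      ring
    rw [h3, hs1, ← smul_mul_assoc, ← mul_smul_comm]
    congr 2
    ext i j
    rw [Matrix.smul_apply, diagonal_apply, diagonal_apply]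
    by_cases h : i = j
    · rw [if_pos h, if_pos h]; rfl
    · rw [if_neg h, if_neg h, smul_zero]
  · rw [star_div₀, star_star]
    field_simp
  · ext i j
    rw [diagonal_mul, map_apply, Matrix.smul_apply, Matrix.smul_apply, Matrix.smul_apply,
      diagonal_mul, smul_eq_mul, smul_eq_mul, star_mul', star_mul']
    have h1 : star (N i j) = N i j := congrFun (congrFun hNs i) j
    rw [h1]
    have h3 := hb i
    field_simp
    linear_combination (N i j) * h3

end star

end

end Vale.Agent.P240.R2.H281
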