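import Vale.Agent.P240.R2.H387.TBig
import Vale.Agent.P240.R2.H296.StmtsB

/-!
`StmtB1`: Theorem 1 for the symmetric form over a field with `q ≥ 11` elements, `q` odd.
-/

set_option autoImplicit false

namespace Vale.Agent.P240.R2.H281

open Finset Matrix

universe u

/-- a field of odd order -/
lemma two_ne_of_odd {K : Type u} [Field K] [Fintype K] (h : Odd (Nat.card K)) : (2 : K) ≠ 0 := by
  intro h2
  have hch : ringChar K = 2 := by
    have h1 : ringChar K ∣ 2 := by
      apply ringChar.dvd
      exact_mod_cast h2
    rcases (Nat.dvd_prime Nat.prime_two).mp h1 with h1 | h1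
    · exact absurd h1 (CharP.ringChar_ne_one)
    · exact h1
  have h3 := FiniteField.even_card_iff_char_two.mp hch
  rw [← Nat.card_eq_fintype_card] at h3
  rw [Nat.odd_iff] at h
  omega

/-- B1 -/
theorem stmtB1 : AS.StmtB1.{u} := by
  intro K _ _ _ hs ho hq n hn
  exact H387.t_big_triv hs (two_ne_of_odd ho) hq hn

end Vale.Agent.P240.R2.H281
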