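import Vale.Agent.P240.R2.H401.EDefs
import Vale.Agent.P240.R2.H275.EvA
import Vale.Agent.P240.R2.H281.B1

/-!
The last three items of `StmtEC` (helper401's even orthogonal line): the product of two elements that
act with a field automorphism, the literal forms of the elements `e` and `t`.
-/

set_option autoImplicit false
set_option linter.all false

namespace Vale.Agent.P240.R2.H281EC

open Matrix Vale.Agent.P240.R2.AS Vale.Agent.P240.R2.H38 Vale.Agent.P240.K
open Vale.Agent.P240.R2.H938 (TD TC mem_TD)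
open Vale.Agent.P240.R2.H296.O (SOm)
open Vale.Agent.P240.R2.H401.E
open Vale.Agent.P240.R2.H275 (dij prod_dij diag_of5 gu_diag SOm_gmap diag_mem_iff uniqE map_refl_mat
  m1_ne)
open scoped Classical

universe u v w

noncomputable section

variable {K : Type u} [Field K] [Fintype K] [StarRing K] {m : ℕ} {G : Type v} [Group G]

omit [Fintype K] [StarRing K] in
lemma pm_one {a : K} (h : a ^ 2 = 1) : a = 1 ∨ a = -1 := by
  rw [pow_two] at h
  exact mul_self_eq_one_iff.1 h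

lemma two (hN : ENum K m) : (2 : K) ≠ 0 := H281.two_ne_of_odd hN.odd

lemma five (hN : ENum K m) : 5 < Fintype.card K := by
  have := hN.card
  rw [Nat.card_eq_fintype_card] at this
  omega

lemma evn (hN : ENum K m) : Even (m + 1) := hN.modd.add_one

/-- a field automorphism on `SOm` -/
def frO (σ : K ≃+* K) (hσ : ∀ a, σ (star a) = star (σ a)) (h : SOm K (m + 1)) : SOm K (m + 1) :=
  ⟨gmap σ hσ h.1, SOm_gmap σ hσ h.2⟩

lemma mx_frO (σ : K ≃+* K) (hσ : ∀ a, σ (star a) = star (σ a)) (h : SOm K (m + 1)) :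
    mx (frO σ hσ h) = (mx h).map σ := rfl

lemma acts_eq {ε : SOm K (m + 1) →* G} {x : G} {g : GU K (m + 1)} {σ : K ≃+* K}
    (h : ActsS ε x g σ) (k : SOm K (m + 1)) : x * ε k * x⁻¹ = ε (cjO g (frO σ h.1 k)) :=
  h.2 k _ (by rw [mx_cjO, mx_frO])

lemma acts_mul {ε : SOm K (m + 1) →* G} {x y : G} {g h : GU K (m + 1)} {σ τ : K ≃+* K}
    (hx : ActsS ε x g σ) (hy : ActsS ε y h τ) :
    ActsS ε (x * y) (g * gmap σ hx.1 h) (τ.trans σ) := by
  refine ⟨fun a => by simp [hx.1, hy.1], fun a b hab => ?_⟩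
  have h1 := acts_eq hy a
  have h2 := hx.2 (cjO h (frO τ hy.1 a)) b (by
    rw [mx_cjO, mx_frO, hab, gu_mul, gmap_coe, map_mul_mat, map_mul_mat, map_star_mat hx.1, star_mul]
    have h3 : (mx a).map (τ.trans σ) = ((mx a).map τ).map σ := by
      ext i j; simp
    rw [h3]
    simp only [mul_assoc])
  have h3 : x * y * ε a * (x * y)⁻¹ = x * (y * ε a * y⁻¹) * x⁻¹ := by group
  rw [h3, h1, h2]

/-- an element of order two acts with an involution of the field -/
lemma sig_two (hN : ENum K m) {ε : SOm K (m + 1) →* G}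
    (hker : ∀ g : SOm K (m + 1), ε g = 1 ↔ ∃ a : K, mx g =
      a • (1 : Matrix (Fin (m + 1)) (Fin (m + 1)) K)) {x : G} {g : GU K (m + 1)} {σ : K ≃+* K}
    (h : ActsS ε x g σ) (hx : x ^ 2 = 1) : (σ : RingAut K) ^ 2 = 1 := by
  have h1 := acts_mul h h
  rw [← pow_two, hx] at h1
  have h2 : ∀ k : SOm K (m + 1), ∃ a : K, (g * gmap σ h.1 g).1 * (mx k).map (σ.trans σ) *
      star (g * gmap σ h.1 g).1 = a • mx k := by
    intro k
    have h3 := (show ε k = (1 : G) * ε k * 1⁻¹ by group).trans (acts_eq h1 k)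
    obtain ⟨a, ha⟩ := (eps_eq hker).1 h3.symm
    exact ⟨a, by rw [mx_cjO, mx_frO] at ha; exact ha⟩
  obtain ⟨h3, -⟩ := uniqE hN.st (two hN) (five hN) (by have := hN.hm; omega) _ _ h2
  apply RingEquiv.ext
  intro a
  rw [pow_two]
  exact h3 a

/-- a diagonal element of `SOm` -/
def dSO (hN : ENum K m) (d : Fin (m + 1) → K) (h : ∀ i, d i ^ 2 = 1) (hp : ∏ i, d i = 1) :
    SOm K (m + 1) :=
  ⟨⟨diagonal d, by
    rw [mem_unitaryGroup_iff, star_eq_conjTranspose, diagonal_conjTranspose, diagonal_mul_diagonal,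
      ← diagonal_one]
    congr 1
    funext i
    rw [Pi.star_apply, hN.st, ← pow_two]
    exact h i⟩, (diag_mem_iff hN.st (two hN) (evn hN) rfl).2 hp⟩

lemma mx_dSO (hN : ENum K m) (d : Fin (m + 1) → K) (h : ∀ i, d i ^ 2 = 1) (hp : ∏ i, d i = 1) :
    mx (dSO hN d h hp) = diagonal d := rfl

lemma dSO_mem (hN : ENum K m) (ε : SOm K (m + 1) →* G) (d : Fin (m + 1) → K) (h : ∀ i, d i ^ 2 = 1)
    (hp : ∏ i, d i = 1) : ε (dSO hN d h hp) ∈ Ae ε 1 := by
  refine ⟨dSO hN d h hp, ⟨d, h, rfl⟩, ?_⟩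
  show ε (cjO 1 _) = _
  congr 1
  apply Subtype.ext
  show 1 * _ * 1⁻¹ = _
  group

/-- (C1) an element that commutes with `Ae` acts as a diagonal matrix with entries `±1` and a field
automorphism -/
theorem ec_one (hN : ENum K m) {L : Subgroup G} {ε : SOm K (m + 1) →* G} (hε : EHom L ε) {x : G}
    (hx : x ∈ Subgroup.normalizer (L : Set G)) (hx2 : x ^ 2 = 1)
    (hc : ∀ a ∈ Ae ε 1, x * a = a * x) :
    ∃ (g : GU K (m + 1)) (σ : K ≃+* K) (d : Fin (m + 1) → K), ActsS ε x g σ ∧ g.1 = diagonal d ∧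
      (∀ i, d i ^ 2 = 1) ∧ (σ : RingAut K) ^ 2 = 1 := by
  obtain ⟨g, σ, h⟩ := hε.sem 1 x hx hx2 hc
  have hm1 : (-1 : K) ≠ 1 := m1_ne (two hN)
  obtain ⟨-, d, hd⟩ := diag_of5 (by have := hN.hm; omega) hm1 g σ (by
    intro i j hij
    have hp : ∏ k, dij (-1 : K) i j k = 1 := prod_dij (by simp) hij
    have hsq : ∀ k, dij (-1 : K) i j k ^ 2 = 1 := by
      intro k
      unfold dij
      split_ifs
      · ring
      · rw [inv_neg, inv_one]; ring
      · ring
    have h1 := acts_eq h (dSO hN _ hsq hp)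
    rw [hc _ (dSO_mem hN ε _ hsq hp), mul_inv_cancel_right] at h1
    obtain ⟨a, ha⟩ := (eps_eq hε.ker).1 h1.symm
    exact ⟨a, by rw [mx_cjO, mx_frO, mx_dSO] at ha; exact ha⟩)
  refine ⟨g, σ, d, h, hd, fun i => ?_, sig_two hN hε.ker h hx2⟩
  have h1 := gu_diag hd i
  rw [hN.st] at h1
  rw [pow_two, h1]

/-- an element that acts linearly is in `Qe` -/
lemma Qe_of_acts {ε : SOm K (m + 1) →* G} {x : G} {g : GU K (m + 1)}
    (h : ActsS ε x g (RingEquiv.refl K)) : x ∈ Qe ε :=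
  ⟨g, fun k => h.2 k (cjO g k) (by rw [mx_cjO, map_refl_mat])⟩

lemma acts_of_Qe {ε : SOm K (m + 1) →* G} {x : G} (h : x ∈ Qe ε) :
    ∃ g : GU K (m + 1), ActsS ε x g (RingEquiv.refl K) := by
  obtain ⟨g, hg⟩ := h
  refine ⟨g, fun a => rfl, fun k k' hk => ?_⟩
  rw [hg k]
  congr 1
  apply mx_inj
  rw [mx_cjO, hk, map_refl_mat]

/-- an element of `Qe` normalizes `L` -/
lemma Qe_norm [Finite G] {L : Subgroup G} {ε : SOm K (m + 1) →* G} (hr : ε.range = L) {e : G}
    (he : e ∈ Qe ε) : e ∈ Subgroup.normalizer (L : Set G) := by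
  obtain ⟨g, hg⟩ := he
  rw [Subgroup.mem_normalizer_iff]
  intro l
  rw [← hr]
  constructor
  · rintro ⟨h, rfl⟩
    exact ⟨cjO g h, (hg h).symm⟩
  · rintro ⟨h, hh⟩
    refine ⟨cjO g⁻¹ h, ?_⟩
    have h1 := hg (cjO g⁻¹ h)
    rw [← cjO_mul, mul_inv_cancel, cjO_one, hh] at h1
    have h3 : e * ε (cjO g⁻¹ h) = e * l := mul_right_cancel h1
    exact mul_left_cancel h3

/-- an element that acts linearly acts without field automorphism -/
lemma refl_of_Qe (hN : ENum K m) {ε : SOm K (m + 1) →* G}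
    (hker : ∀ g : SOm K (m + 1), ε g = 1 ↔ ∃ a : K, mx g =
      a • (1 : Matrix (Fin (m + 1)) (Fin (m + 1)) K)) {x : G} (hx : x ∈ Qe ε) {g : GU K (m + 1)}
    {σ : K ≃+* K} (h : ActsS ε x g σ) : σ = RingEquiv.refl K := by
  obtain ⟨g', hg'⟩ := hx
  have h2 : ∀ k : SOm K (m + 1), ∃ a : K, (g'⁻¹ * g).1 * (mx k).map σ * star (g'⁻¹ * g).1 =
      a • mx k := by
    intro k
    have e1 := acts_eq h k
    rw [hg' k] at e1
    obtain ⟨a, ha⟩ := (eps_eq hker).1 e1.symm
    rw [mx_cjO, mx_frO, mx_cjO] at ha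
    refine ⟨a, ?_⟩
    rw [gu_mul, gu_inv, star_mul, star_star]
    calc star g'.1 * g.1 * (mx k).map σ * (star g.1 * g'.1)
        = star g'.1 * (g.1 * (mx k).map σ * star g.1) * g'.1 := by simp only [mul_assoc]
      _ = a • ((star g'.1 * g'.1) * mx k * (star g'.1 * g'.1)) := by
          rw [ha, mul_smul_comm, smul_mul_assoc]
          simp only [mul_assoc]
      _ = _ := by rw [star_gu, one_mul, mul_one]
  obtain ⟨e1, -⟩ := uniqE hN.st (two hN) (five hN) (by have := hN.hm; omega) _ _ h2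
  ext y
  exact e1 y

/-- (8) hF2 -/
theorem ec_hF2 (hN : ENum K m) [Finite G] {L : Subgroup G} {ε : SOm K (m + 1) →* G}
    (hε : EHom L ε) : ∀ t ∈ Subgroup.normalizer (L : Set G), ∀ x ∈ Subgroup.normalizer (L : Set G),
      t ^ 2 = 1 → x ^ 2 = 1 → t * x = x * t → (∀ a ∈ Ae ε 1, t * a = a * t) →
      (∀ a ∈ Ae ε 1, x * a = a * x) → t ∉ Qe ε → ∃ k : ℕ, x * t ^ k ∈ Qe ε := by
  intro t ht x hx ht2 hx2 htx hta hxa htQ
  obtain ⟨g, σ, d, h1, h2, h3, h4⟩ := ec_one hN hε ht ht2 hta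
  obtain ⟨g', σ', d', h1', h2', h3', h4'⟩ := ec_one hN hε hx hx2 hxa
  have hσ : (σ : RingAut K) ≠ 1 := by
    intro h
    apply htQ
    have h5 : σ = RingEquiv.refl K := h
    subst h5
    exact Qe_of_acts h1
  obtain ⟨k, hk, hk'⟩ := H401.aut_pow Nat.prime_two σ σ' h4 h4' hσ
  refine ⟨k, ?_⟩
  interval_cases k
  · rw [pow_zero] at hk'
    have h5 : σ' = RingEquiv.refl K := hk'
    subst h5
    rw [pow_zero, mul_one]
    exact Qe_of_acts h1'
  · rw [pow_one] at hk'
    have h6 : σ' = σ := hk'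
    rw [pow_one]
    have h5 := acts_mul h1' h1
    have h7 : σ.trans σ' = RingEquiv.refl K := by
      rw [h6]
      have h8 : (σ : RingAut K) * σ = 1 := by rw [← pow_two]; exact h4
      ext a
      have h9 := congrArg (fun f : RingAut K => f a) h8
      exact h9
    rw [h7] at h5
    exact Qe_of_acts h5

/-- multiplication by a diagonal element of `Ae` -/
lemma lit (hN : ENum K m) {ε : SOm K (m + 1) →* G} {x : G} {g : GU K (m + 1)}
    {σ : K ≃+* K} {d : Fin (m + 1) → K} (h : ActsS ε x g σ) (hg : g.1 = diagonal d)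
    (hd : ∀ i, d i ^ 2 = 1) :
    ∃ a ∈ Ae ε 1, a ∈ ε.range ∧ (ActsS ε (x * a) 1 σ ∨ ActsS ε (x * a) (sla K m) σ) := by
  have hd1 : ∀ i, d i = 1 ∨ d i = -1 := fun i => pm_one (hd i)
  have hσd : ∀ i, σ (d i) = d i := by
    intro i
    rcases hd1 i with h1 | h1
    · rw [h1, map_one]
    · rw [h1, map_neg, map_one]
  have hfix : ∀ (e : Fin (m + 1) → K) (he : ∀ i, e i ^ 2 = 1) (hp : ∏ i, e i = 1)
      (s : GU K (m + 1)), g.1 * diagonal e = s.1 → ActsS ε (x * ε (dSO hN e he hp)) s σ := by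
    intro e he hp s hs
    have h1 := acts_mul h (ActsS.of_mem ε (dSO hN e he hp))
    have h2 : g * gmap σ h.1 (dSO hN e he hp).1 = s := by
      apply Subtype.ext
      rw [gu_mul, gmap_coe]
      have h3 : ((dSO hN e he hp).1.1).map σ = diagonal e := by
        show (diagonal e).map σ = diagonal e
        rw [Matrix.diagonal_map (map_zero σ)]
        congr 1
        funext i
        rcases (pm_one (he i)) with h1 | h1
        · show σ (e i) = e i
          rw [h1, map_one]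
        · show σ (e i) = e i
          rw [h1, map_neg, map_one]
      rw [h3, hs]
    rw [h2] at h1
    exact h1
  by_cases hp : ∏ i, d i = 1
  · refine ⟨_, dSO_mem hN ε d hd hp, ⟨_, rfl⟩, Or.inl (hfix d hd hp 1 ?_)⟩
    rw [hg, diagonal_mul_diagonal]
    show _ = (1 : Matrix (Fin (m + 1)) (Fin (m + 1)) K)
    rw [← diagonal_one]
    congr 1
    funext i
    rw [← pow_two, hd]
  · have hp' : ∏ i, d i = -1 := by
      have h1 : (∏ i, d i) ^ 2 = 1 := by
        rw [← Finset.prod_pow]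
        exact Finset.prod_eq_one fun i _ => hd i
      exact (pm_one h1).resolve_left hp
    let e : Fin (m + 1) → K := fun i => d i * (if i = Fin.last m then -1 else 1)
    have he : ∀ i, e i ^ 2 = 1 := by
      intro i
      show (d i * (if i = Fin.last m then -1 else 1)) ^ 2 = 1
      rw [mul_pow, hd, one_mul]
      split_ifs <;> ring
    have hpe : ∏ i, e i = 1 := by
      show ∏ i, (d i * (if i = Fin.last m then -1 else 1)) = 1
      rw [Finset.prod_mul_distrib, hp', Finset.prod_ite_eq', if_pos (Finset.mem_univ _)]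
      ring
    refine ⟨_, dSO_mem hN ε e he hpe, ⟨_, rfl⟩, Or.inr (hfix e he hpe _ ?_)⟩
    rw [hg, diagonal_mul_diagonal, sla_coe]
    congr 1
    funext i
    show d i * (d i * _) = _
    rw [← mul_assoc, ← pow_two, hd, one_mul]

/-- (9) the literal form of `e` -/
theorem ec_lit_e (hN : ENum K m) [Finite G] {L : Subgroup G} {ε : SOm K (m + 1) →* G}
    (hε : EHom L ε) : ∀ e ∈ Qe ε, e ∉ L ⊔ Subgroup.centralizer (L : Set G) → e ^ 2 = 1 →
      (∀ a ∈ Ae ε 1, e * a = a * e) →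
      ∃ a ∈ Ae ε 1, ActsS ε (e * a) (sla K m) (RingEquiv.refl K) := by
  intro e he heL he2 hea
  obtain ⟨g, σ, d, h1, h2, h3, -⟩ := ec_one hN hε (Qe_norm hε.range he) he2 hea
  have h4 := refl_of_Qe hN hε.ker he h1
  subst h4
  obtain ⟨a, ha, haL, h5 | h5⟩ := lit hN h1 h2 h3
  · exfalso
    apply heL
    rw [hε.range] at haL
    have h6 : e * a ∈ Subgroup.centralizer (L : Set G) := by
      rw [Subgroup.mem_centralizer_iff]
      intro l hl
      rw [SetLike.mem_coe, ← hε.range] at hl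
      obtain ⟨k, rfl⟩ := hl
      have e1 := h5.2 k k (by
        have e2 : ((1 : GU K (m + 1)) : Matrix (Fin (m + 1)) (Fin (m + 1)) K) = 1 := rfl
        rw [map_refl_mat, e2, star_one, one_mul, mul_one])
      rw [mul_inv_eq_iff_eq_mul] at e1
      exact e1.symm
    have h7 : e = (e * a) * a⁻¹ := by group
    rw [h7]
    exact mul_mem (Subgroup.mem_sup_right h6) (Subgroup.mem_sup_left (inv_mem haL))
  · exact ⟨a, ha, h5⟩

/-- (10) the literal form of `t` -/
theorem ec_lit_t (hN : ENum K m) [Finite G] {L : Subgroup G} {ε : SOm K (m + 1) →* G}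
    (hε : EHom L ε) : ∀ t ∈ Subgroup.normalizer (L : Set G), t ∉ Qe ε → t ^ 2 = 1 →
      (∀ a ∈ Ae ε 1, t * a = a * t) →
      ∃ a ∈ Ae ε 1, ∃ σ : K ≃+* K, (σ : RingAut K) ^ 2 = 1 ∧ σ ≠ RingEquiv.refl K ∧
        (ActsS ε (t * a) 1 σ ∨ ActsS ε (t * a) (sla K m) σ) := by
  intro t ht htQ ht2 hta
  obtain ⟨g, σ, d, h1, h2, h3, h4⟩ := ec_one hN hε ht ht2 hta
  obtain ⟨a, ha, -, h5⟩ := lit hN h1 h2 h3
  refine ⟨a, ha, σ, h4, ?_, h5⟩
  rintro rfl
  exact htQ (Qe_of_acts h1)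

end

end Vale.Agent.P240.R2.H281EC
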