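import Vale.Agent.P240.R2.H387.TBig

/-!
The trivial star, `|K| ≥ 7` odd: four ordered pairs of orthogonal letters in each plane, and
`t (Fr K n) > 0`.
-/

set_option autoImplicit false

namespace Vale.Agent.P240.R2.H281

open Finset Matrix
open scoped Classical

universe u

noncomputable section

variable {K : Type u} [Field K] [Fintype K]

/-- at least eight points -/
theorem eight (h2 : (2 : K) ≠ 0) (hq : 7 ≤ Nat.card K) : 8 ≤ (circ K).card := by
  rw [Nat.card_eq_fintype_card] at hq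
  have h1 := card_circ h2
  have h3 := card_roots (K := K)
  have hc : ringChar K ≠ 2 := by
    intro h
    apply h2
    have := ringChar.Nat.cast_ringChar (R := K)
    rw [h] at this
    exact_mod_cast this
  have h4 := FiniteField.odd_card_of_char_ne_two hc
  rcases Nat.lt_or_ge (Fintype.card K) 9 with h | h
  · have h5 : Fintype.card K = 7 := by omega
    have h6 : (univ.filter fun t : K => 1 + t ^ 2 = 0).card = 0 := by
      rw [Finset.card_eq_zero, Finset.filter_eq_empty_iff]
      intro t _ ht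
      have h7 : IsSquare (-1 : K) := ⟨t, by linear_combination -ht⟩
      rw [FiniteField.isSquare_neg_one_iff, h5] at h7
      exact h7 rfl
    omega
  · omega

variable [StarRing K]

/-- four ordered pairs in each plane -/
theorem sixB_four (hs : ∀ a : K, star a = a) (h2 : (2 : K) ≠ 0) (hq : 7 ≤ Nat.card K) (n : ℕ) :
    H387.SixB K 4 n := by
  have hv : ∀ x : Fin n → K, star x = x := fun x => funext fun i => hs (x i)
  intro a b hab
  obtain ⟨x, hx, hax⟩ := a.2
  obtain ⟨y, hy, hby⟩ := b.2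
  have hxy : star x ⬝ᵥ y = 0 := dot_of_mul hx hy (by rw [← hax, ← hby]; exact hab)
  rw [hv] at hx hy hxy hax hby
  have h3 := card_prs hx hy hxy
  have h4 := eight h2 hq
  have h5 : 4 ≤ (prs K x y).card := by omega
  refine h5.trans ?_
  refine (Finset.card_le_card (t := (Finset.univ.filter (fun p : AS.Ln K n × AS.Ln K n =>
    p.1.1 * p.2.1 = 0 ∧ p.1.1 + p.2.1 = a.1 + b.1)).image fun x => (x.1.1, x.2.1)) ?_).trans
    Finset.card_image_le
  intro p hp
  obtain ⟨r, hr, rfl⟩ := Finset.mem_image.mp hp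
  rw [mem_circ] at hr
  have e1 : (r.1 • x + r.2 • y) ⬝ᵥ (r.1 • x + r.2 • y) = 1 := by
    rw [pr_dot hx hy hxy]; linear_combination hr
  have e2 : ((-r.2) • x + r.1 • y) ⬝ᵥ ((-r.2) • x + r.1 • y) = 1 := by
    rw [pr_dot hx hy hxy]; linear_combination hr
  have e3 : (r.1 • x + r.2 • y) ⬝ᵥ ((-r.2) • x + r.1 • y) = 0 := by
    rw [pr_dot hx hy hxy]; ring
  rw [Finset.mem_image]
  refine ⟨(⟨pr x y r, r.1 • x + r.2 • y, by rw [hv]; exact e1, by rw [hv]; rfl⟩,
    ⟨pr x y (-r.2, r.1), (-r.2) • x + r.1 • y, by rw [hv]; exact e2, by rw [hv]; rfl⟩), ?_, rfl⟩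
  rw [Finset.mem_filter]
  refine ⟨Finset.mem_univ _, ?_, ?_⟩
  · change pr x y r * pr x y (-r.2, r.1) = 0
    rw [pr, pr, vecMulVec_mul_vecMulVec, e3]
    simp
  · change pr x y r + pr x y (-r.2, r.1) = a.1 + b.1
    rw [hax, hby]
    ext i j
    simp only [pr, Matrix.add_apply, vecMulVec_apply, Pi.add_apply, Pi.smul_apply, smul_eq_mul]
    linear_combination (x i * x j + y i * y j) * hr

/-- `t > 0` for the trivial star, `|K| ≥ 7` odd -/
theorem t_pos_triv (hs : ∀ a : K, star a = a) (h2 : (2 : K) ≠ 0) (hq : 7 ≤ Nat.card K) {n : ℕ}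
    (hn : 2 ≤ n) : 0 < AS.t (AS.Fr K n) :=
  H387.t_pos_of hn fun N => sixB_four hs h2 hq N

end

end Vale.Agent.P240.R2.H281
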