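import Vale.Agent.P240.R2.H401.DDefs
import Vale.Agent.P240.R2.H296.EC2
import Vale.Agent.P240.R2.H281.B1

/-!
`StmtDC` (helper401's even orthogonal line, nonsquare discriminant): coordinates.
-/

set_option autoImplicit false
set_option linter.all false

namespace Vale.Agent.P240.R2.H281DC

open Matrix Vale.Agent.P240.R2.AS Vale.Agent.P240.R2.H38 Vale.Agent.P240.K
open Vale.Agent.P240.R2.H145.EO (B ac OD Big Ker B_single)
open Vale.Agent.P240.R2.H401.D
open Vale.Agent.P240.R2.H296.EC (sg sg_mul sg_one sg_neg_one sg_sq sg_surj sg_prod dsg dsg_castSucc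
  dsg_last dsg_sq dsg_prod dsg_mul)
open scoped Classical

universe u v w

noncomputable section

section gen
variable {K : Type u} [Field K] {n : ℕ} {a : Fin n → K} {G : Type v} [Group G]

lemma pm_one {c : K} (h : c ^ 2 = 1) : c = 1 ∨ c = -1 := by
  rw [pow_two] at h
  exact mul_self_eq_one_iff.1 h

lemma SD_le {g : GL (Fin n) K} (hg : g ∈ SD a) : g ∈ OD a := by
  obtain ⟨h, -, rfl⟩ := hg
  exact h.2

/-- two elements with the same image -/
lemma eps_eq {ε : SD a →* G}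
    (hker : ∀ g : SD a, ε g = 1 ↔ ∃ l : K, g.1.1 = l • (1 : Matrix (Fin n) (Fin n) K))
    {g h : SD a} : ε g = ε h ↔ ∃ l : K, g.1.1 = l • h.1.1 := by
  have h1 : ε g = ε h ↔ ε (g * h⁻¹) = 1 := by rw [map_mul, map_inv, mul_inv_eq_one]
  rw [h1, hker]
  constructor
  · rintro ⟨l, hl⟩
    refine ⟨l, ?_⟩
    have h2 : (g * h⁻¹).1.1 * h.1.1 = g.1.1 := by
      show ((g * h⁻¹) * h).1.1 = g.1.1
      rw [inv_mul_cancel_right]
    rw [← h2, hl, smul_mul_assoc, one_mul]
  · rintro ⟨l, hl⟩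
    refine ⟨l, ?_⟩
    have h2 : (g * h⁻¹).1.1 = g.1.1 * (h⁻¹).1.1 := rfl
    have h3 : h.1.1 * (h⁻¹).1.1 = 1 := by
      show (h * h⁻¹).1.1 = 1
      rw [mul_inv_cancel]
      rfl
    rw [h2, hl, smul_mul_assoc, h3]

/-- the matrix of an action is unique up to scalars -/
lemma uniq (hF : ∀ u ∈ OD a, (∀ k ∈ SD a, ∃ l : K, u.1 * k.1 = l • (k.1 * u.1)) →
      ∃ l : K, u.1 = l • (1 : Matrix (Fin n) (Fin n) K)) {ε : SD a →* G}
    (hker : ∀ g : SD a, ε g = 1 ↔ ∃ l : K, g.1.1 = l • (1 : Matrix (Fin n) (Fin n) K))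
    {g g' : ↥(OD a)} (h : ∀ k, ε (cjD g k) = ε (cjD g' k)) : ∃ l : K, g.1.1 = l • g'.1.1 := by
  obtain ⟨l, hl⟩ := hF (g'⁻¹ * g).1 (g'⁻¹ * g).2 (by
    intro k hk
    obtain ⟨l, hl⟩ := (eps_eq hker).1 (h ⟨k, hk⟩)
    refine ⟨l, ?_⟩
    have hl' : (g.1 * k * g.1⁻¹).1 = l • (g'.1 * k * g'.1⁻¹).1 := hl
    calc (g'.1⁻¹ * g.1).1 * k.1 = (g'.1⁻¹).1 * (g.1 * k * g.1⁻¹).1 * g.1.1 := by
          show (g'.1⁻¹ * g.1 * k).1 = (g'.1⁻¹ * (g.1 * k * g.1⁻¹) * g.1).1
          congr 1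
          group
      _ = l • ((g'.1⁻¹).1 * (g'.1 * k * g'.1⁻¹).1 * g.1.1) := by
          rw [hl', mul_smul_comm, smul_mul_assoc]
      _ = l • (k.1 * (g'.1⁻¹ * g.1).1) := by
          congr 1
          show (g'.1⁻¹ * (g'.1 * k * g'.1⁻¹) * g.1).1 = (k * (g'.1⁻¹ * g.1)).1
          congr 1
          group)
  refine ⟨l, ?_⟩
  have h1 : g.1.1 = g'.1.1 * (g'⁻¹ * g).1.1 := by
    show g.1.1 = (g'.1 * (g'.1⁻¹ * g.1)).1
    rw [mul_inv_cancel_left]
  rw [h1, hl, mul_smul_comm, mul_one]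

/-- an element that acts as an element of `SD` -/
lemma mem_sup {L : Subgroup G} {ε : SD a →* G} (hr : ε.range = L) {x : G} {g : ↥(OD a)}
    (hg : g.1 ∈ SD a) (h : ∀ k, x * ε k * x⁻¹ = ε (cjD g k)) :
    x ∈ L ⊔ Subgroup.centralizer (L : Set G) := by
  set s : SD a := ⟨g.1, hg⟩ with hs
  have h1 : ∀ k, cjD g k = s * k * s⁻¹ := fun k => Subtype.ext rfl
  have h2 : (ε s)⁻¹ * x ∈ Subgroup.centralizer (L : Set G) := by
    rw [Subgroup.mem_centralizer_iff]
    intro y hy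
    rw [SetLike.mem_coe, ← hr] at hy
    obtain ⟨k, rfl⟩ := hy
    have h3 := h k
    rw [h1, map_mul, map_mul, map_inv, mul_inv_eq_iff_eq_mul] at h3
    calc ε k * ((ε s)⁻¹ * x) = (ε s)⁻¹ * (ε s * ε k * (ε s)⁻¹ * x) := by group
      _ = (ε s)⁻¹ * (x * ε k) := by rw [← h3]
      _ = (ε s)⁻¹ * x * ε k := by group
  have h3 : x = ε s * ((ε s)⁻¹ * x) := by group
  rw [h3]
  refine mul_mem (Subgroup.mem_sup_left ?_) (Subgroup.mem_sup_right h2)
  rw [← hr]
  exact ⟨s, rfl⟩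

lemma comp_cjD (ε : SD a →* G) (u u' : ↥(OD a)) :
    (ε.comp (cjD u)).comp (cjD u') = ε.comp (cjD (u * u')) := by
  ext k
  show ε (cjD u (cjD u' k)) = ε (cjD (u * u') k)
  rw [cjD_mul]

lemma Ad_comp (ε : SD a →* G) (u u' : ↥(OD a)) : Ad (ε.comp (cjD u)) u' = Ad ε (u * u') := by
  unfold Ad
  rw [comp_cjD]

/-- change of coordinates -/
lemma DHom_comp {L : Subgroup G} {ε : SD a →* G} (h : DHom L ε) (u : ↥(OD a)) :
    DHom L (ε.comp (cjD u)) := by
  refine ⟨?_, fun g => ?_, fun u' x hx hx2 hc => ?_⟩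
  · rw [← h.range]
    ext y
    constructor
    · rintro ⟨k, rfl⟩
      exact ⟨cjD u k, rfl⟩
    · rintro ⟨k, rfl⟩
      refine ⟨cjD u⁻¹ k, ?_⟩
      show ε (cjD u (cjD u⁻¹ k)) = ε k
      rw [← cjD_mul, mul_inv_cancel, cjD_one]
  · show ε (cjD u g) = 1 ↔ _
    rw [h.ker]
    constructor
    · rintro ⟨l, hl⟩
      refine ⟨l, ?_⟩
      have hl' : (u.1 * g.1 * u.1⁻¹).1 = l • (1 : Matrix (Fin n) (Fin n) K) := hl
      have h1 : g.1.1 = (u.1⁻¹).1 * (u.1 * g.1 * u.1⁻¹).1 * u.1.1 := by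
        show g.1.1 = (u.1⁻¹ * (u.1 * g.1 * u.1⁻¹) * u.1).1
        congr 1
        group
      rw [h1, hl', mul_smul_comm, smul_mul_assoc, mul_one]
      congr 1
      show (u.1⁻¹ * u.1).1 = 1
      rw [inv_mul_cancel]
      rfl
    · rintro ⟨l, hl⟩
      refine ⟨l, ?_⟩
      show u.1.1 * g.1.1 * (u.1⁻¹).1 = _
      rw [hl, mul_smul_comm, smul_mul_assoc, mul_one]
      congr 1
      show (u.1 * u.1⁻¹).1 = 1
      rw [mul_inv_cancel]
      rfl
  · rw [Ad_comp] at hc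
    obtain ⟨g, ⟨c, hc1, hc2⟩, hg⟩ := h.lin (u * u') x hx hx2 hc
    refine ⟨u⁻¹ * g * u, ⟨c, hc1, ?_⟩, fun k => ?_⟩
    · rw [← hc2]
      congr 2
      group
    · show x * ε (cjD u k) * x⁻¹ = ε (cjD u (cjD (u⁻¹ * g * u) k))
      rw [hg, ← cjD_mul, ← cjD_mul]
      congr 2
      group

end gen

section std
variable {K : Type u} [Field K] [Fintype K] {m : ℕ} {d : K} {G : Type v} [Group G]

/-- a diagonal matrix with entries `±1` -/
def gd (c : Fin (m + 1) → K) (h : ∀ i, c i ^ 2 = 1) : GL (Fin (m + 1)) K :=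
  ⟨diagonal c, diagonal c, by
    rw [diagonal_mul_diagonal, ← diagonal_one]
    congr 1
    funext i
    rw [← pow_two, h], by
    rw [diagonal_mul_diagonal, ← diagonal_one]
    congr 1
    funext i
    rw [← pow_two, h]⟩

lemma gd_coe (c : Fin (m + 1) → K) (h : ∀ i, c i ^ 2 = 1) : (gd c h).1 = diagonal c := rfl

lemma two (hN : DNum K m d) : (2 : K) ≠ 0 := H281.two_ne_of_odd hN.odd

/-- the diagonal elements of `SD` -/
def sd (hF : StmtDF.{u}) (hN : DNum K m d) (c : Fin (m + 1) → K) (h : ∀ i, c i ^ 2 = 1)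
    (hp : ∏ i, c i = 1) : SD (fd m d) :=
  ⟨gd c h, ((hF K m d hN).2.1 c h (gd c h) rfl).2.2 hp⟩

lemma sd_coe (hF : StmtDF.{u}) (hN : DNum K m d) (c : Fin (m + 1) → K) (h : ∀ i, c i ^ 2 = 1)
    (hp : ∏ i, c i = 1) : (sd hF hN c h hp).1.1 = diagonal c := rfl

lemma sd_mem (hF : StmtDF.{u}) (hN : DNum K m d) (ε : SD (fd m d) →* G) (c : Fin (m + 1) → K)
    (h : ∀ i, c i ^ 2 = 1) (hp : ∏ i, c i = 1) : ε (sd hF hN c h hp) ∈ Ad ε 1 := by
  refine ⟨sd hF hN c h hp, ⟨c, h, rfl⟩, ?_⟩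
  show ε (cjD 1 _) = _
  rw [cjD_one]

/-- an element that commutes with `Ad` acts as a diagonal matrix with entries `±1` -/
theorem one {L : Subgroup G} {ε : SD (fd m d) →* G} (hε : DHom L ε) {x : G}
    (hx : x ∈ Subgroup.normalizer (L : Set G)) (hx2 : x ^ 2 = 1)
    (hc : ∀ a ∈ Ad ε 1, x * a = a * x) :
    ∃ (g : ↥(OD (fd m d))) (c : Fin (m + 1) → K), (∀ i, c i ^ 2 = 1) ∧ g.1.1 = diagonal c ∧
      ∀ h, x * ε h * x⁻¹ = ε (cjD g h) := by
  obtain ⟨g, ⟨c, h1, h2⟩, h3⟩ := hε.lin 1 x hx hx2 hc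
  refine ⟨g, c, h1, ?_, h3⟩
  rw [← h2]
  congr 2
  group

lemma prod_pm {c : Fin (m + 1) → K} (h : ∀ i, c i ^ 2 = 1) : ∏ i, c i = 1 ∨ ∏ i, c i = -1 := by
  apply pm_one
  rw [← Finset.prod_pow]
  exact Finset.prod_eq_one fun i _ => h i

/-- the homomorphism onto `Ad` -/
def hsg (hF : StmtDF.{u}) (hN : DNum K m d) (ε : SD (fd m d) →* G) (u : ↥(OD (fd m d))) :
    (Fin m → ℤˣ) →* G where
  toFun s := ε (cjD u (sd hF hN (dsg K s) (fun i => by rw [pow_two]; exact dsg_sq s i)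
    (dsg_prod s)))
  map_one' := by
    have h : sd hF hN (dsg K (1 : Fin m → ℤˣ)) (fun i => by rw [pow_two]; exact dsg_sq _ i)
        (dsg_prod _) = 1 := by
      apply Subtype.ext
      apply Units.ext
      show diagonal (dsg K 1) = 1
      rw [← diagonal_one]
      congr 1
      funext i
      refine Fin.lastCases ?_ (fun i => ?_) i
      · rw [dsg_last]
        simp [H296.EC.sg]
      · rw [dsg_castSucc]
        simp [H296.EC.sg]
    rw [h, map_one, map_one]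
  map_mul' s t := by
    have h : sd hF hN (dsg K (s * t)) (fun i => by rw [pow_two]; exact dsg_sq _ i) (dsg_prod _) =
        sd hF hN (dsg K s) (fun i => by rw [pow_two]; exact dsg_sq s i) (dsg_prod s) *
        sd hF hN (dsg K t) (fun i => by rw [pow_two]; exact dsg_sq t i) (dsg_prod t) := by
      apply Subtype.ext
      apply Units.ext
      show diagonal (dsg K (s * t)) = diagonal (dsg K s) * diagonal (dsg K t)
      rw [diagonal_mul_diagonal]
      congr 1
      funext i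
      exact dsg_mul s t i
    rw [h, map_mul, map_mul]

lemma hsg_range (hF : StmtDF.{u}) (hN : DNum K m d) (ε : SD (fd m d) →* G)
    (u : ↥(OD (fd m d))) : (hsg hF hN ε u).range = Ad ε u := by
  ext y
  constructor
  · rintro ⟨s, rfl⟩
    exact ⟨sd hF hN (dsg K s) (fun i => by rw [pow_two]; exact dsg_sq s i) (dsg_prod s),
      ⟨dsg K s, fun i => by rw [pow_two, dsg_sq], rfl⟩, rfl⟩
  · rintro ⟨g, ⟨c, hc, hg⟩, rfl⟩
    choose s hs' using fun i : Fin m => sg_surj (hc i.castSucc)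
    refine ⟨s, ?_⟩
    have h1 : ∏ i, c i = 1 := ((hF K m d hN).2.1 c hc g.1 hg).2.1 g.2
    rw [Fin.prod_univ_castSucc] at h1
    have h3 : c = dsg K s := by
      funext i
      refine Fin.lastCases ?_ (fun i => ?_) i
      · rw [dsg_last, sg_prod, Finset.prod_congr rfl fun i _ => hs' i]
        have h4 := hc (Fin.last m)
        rw [pow_two] at h4
        calc c (Fin.last m) = ((∏ i : Fin m, c i.castSucc) * c (Fin.last m)) * c (Fin.last m) := by
              rw [h1, one_mul]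
          _ = _ := by rw [mul_assoc, h4, mul_one]
      · rw [dsg_castSucc, hs']
    have h4 : g = sd hF hN (dsg K s) (fun i => by rw [pow_two]; exact dsg_sq s i)
        (dsg_prod s) := by
      apply Subtype.ext
      apply Units.ext
      show g.1.1 = diagonal (dsg K s)
      rw [← h3]
      exact hg
    rw [h4]
    rfl

lemma sg_inj' (h2 : (2 : K) ≠ 0) {y z : ℤˣ} (h : (sg y : K) = sg z) : y = z := by
  have h3 : (1 : K) ≠ -1 := by
    intro h
    apply h2
    linear_combination h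
  rcases Int.units_eq_one_or y with rfl | rfl <;> rcases Int.units_eq_one_or z with rfl | rfl
  · rfl
  · rw [sg_one, sg_neg_one] at h
    exact absurd h h3
  · rw [sg_one, sg_neg_one] at h
    exact absurd h.symm h3
  · rfl

lemma hsg_ker (hF : StmtDF.{u}) (hN : DNum K m d) {ε : SD (fd m d) →* G}
    (hker : ∀ g : SD (fd m d), ε g = 1 ↔ ∃ l : K, g.1.1 =
      l • (1 : Matrix (Fin (m + 1)) (Fin (m + 1)) K)) (u : ↥(OD (fd m d))) (s : Fin m → ℤˣ) :
    s ∈ (hsg hF hN ε u).ker ↔ ∃ z : ℤˣ, s = fun _ => z := by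
  have h2 := two hN
  have hm := hN.modd
  have e : s ∈ (hsg hF hN ε u).ker ↔
      ∃ a : K, diagonal (dsg K s) = a • (1 : Matrix (Fin (m + 1)) (Fin (m + 1)) K) := by
    rw [MonoidHom.mem_ker]
    show ε (cjD u (sd hF hN (dsg K s) (fun i => by rw [pow_two]; exact dsg_sq s i)
      (dsg_prod s))) = 1 ↔ _
    set D := sd hF hN (dsg K s) (fun i => by rw [pow_two]; exact dsg_sq s i) (dsg_prod s) with hD
    have e1 : ε (cjD u D) = 1 ↔ ε D = 1 := by
      rw [hker, hker]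
      constructor
      · rintro ⟨l, hl⟩
        refine ⟨l, ?_⟩
        have hl' : (u.1 * D.1 * u.1⁻¹).1 = l • (1 : Matrix (Fin (m + 1)) (Fin (m + 1)) K) := hl
        have h1 : D.1.1 = (u.1⁻¹).1 * (u.1 * D.1 * u.1⁻¹).1 * u.1.1 := by
          show D.1.1 = (u.1⁻¹ * (u.1 * D.1 * u.1⁻¹) * u.1).1
          congr 1
          group
        rw [h1, hl', mul_smul_comm, smul_mul_assoc, mul_one]
        congr 1
        show (u.1⁻¹ * u.1).1 = 1
        rw [inv_mul_cancel]
        rfl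
      · rintro ⟨l, hl⟩
        refine ⟨l, ?_⟩
        show u.1.1 * D.1.1 * (u.1⁻¹).1 = _
        rw [hl, mul_smul_comm, smul_mul_assoc, mul_one]
        congr 1
        show (u.1 * u.1⁻¹).1 = 1
        rw [mul_inv_cancel]
        rfl
    rw [e1, hker]
    exact Iff.rfl
  rw [e]
  have hent : ∀ a : K, diagonal (dsg K s) = a • (1 : Matrix (Fin (m + 1)) (Fin (m + 1)) K) ↔
      ∀ i, dsg K s i = a := by
    intro a
    rw [← diagonal_one, ← diagonal_smul]
    constructor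
    · intro h i
      have h1 := congrFun (diagonal_injective h) i
      rw [h1]
      simp
    · intro h
      congr 1
      funext i
      rw [h i]
      simp
  constructor
  · rintro ⟨a, ha⟩
    rw [hent] at ha
    obtain ⟨k, rfl⟩ := hm
    refine ⟨s ⟨0, by omega⟩, ?_⟩
    funext i
    apply sg_inj' (K := K) h2
    rw [← dsg_castSucc (K := K) s i, ← dsg_castSucc (K := K) s ⟨0, by omega⟩, ha, ha]
  · rintro ⟨z, rfl⟩
    refine ⟨sg z, (hent _).2 fun i => ?_⟩
    refine Fin.lastCases ?_ (fun i => ?_) i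
    · rw [dsg_last, Finset.prod_const, Finset.card_univ, Fintype.card_fin]
      congr 1
      obtain ⟨k, rfl⟩ := hm
      rw [pow_succ, pow_mul]
      have h1 : z ^ 2 = 1 := Int.units_sq z
      rw [h1, one_pow, one_mul]
    · rw [dsg_castSucc]

/-- the order of `Ad` -/
theorem card_Ad (hF : StmtDF.{u}) (hN : DNum K m d) {ε : SD (fd m d) →* G}
    (hker : ∀ g : SD (fd m d), ε g = 1 ↔ ∃ l : K, g.1.1 =
      l • (1 : Matrix (Fin (m + 1)) (Fin (m + 1)) K)) (u : ↥(OD (fd m d))) :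
    Nat.card (Ad ε u) = 2 ^ (m - 1) := by
  have hm0 : 0 < m := hN.modd.pos
  have h1 : Nat.card (Fin m → ℤˣ) = 2 ^ m := by
    rw [Nat.card_eq_fintype_card, Fintype.card_fun, Fintype.card_fin]
    rfl
  have h3 : Nat.card (hsg hF hN ε u).ker = 2 := by
    have e : ℤˣ ≃ (hsg hF hN ε u).ker := Equiv.ofBijective
      (fun z => ⟨fun _ => z, (hsg_ker hF hN hker u _).2 ⟨z, rfl⟩⟩) (by
        constructor
        · intro y z hyz
          exact congrFun (congrArg Subtype.val hyz) ⟨0, hm0⟩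
        · rintro ⟨s, hs'⟩
          obtain ⟨z, rfl⟩ := (hsg_ker hF hN hker u s).1 hs'
          exact ⟨z, rfl⟩)
    rw [← Nat.card_congr e, Nat.card_eq_fintype_card]
    rfl
  have h4 := Subgroup.card_mul_index (hsg hF hN ε u).ker
  rw [Subgroup.index_ker, hsg_range, h1, h3] at h4
  obtain ⟨k, rfl⟩ : ∃ k, m = k + 1 := ⟨m - 1, by omega⟩
  rw [pow_succ, mul_comm] at h4
  exact Nat.eq_of_mul_eq_mul_right two_pos h4

theorem Ad_ApS (hF : StmtDF.{u}) (hN : DNum K m d) {ε : SD (fd m d) →* G}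
    (hker : ∀ g : SD (fd m d), ε g = 1 ↔ ∃ l : K, g.1.1 =
      l • (1 : Matrix (Fin (m + 1)) (Fin (m + 1)) K)) (u : ↥(OD (fd m d))) : Ad ε u ∈ ApS 2 G := by
  have hm := hN.hm
  refine ⟨?_, ?_, ?_⟩
  · intro h
    have h1 := card_Ad hF hN hker u
    rw [h, Subgroup.card_bot] at h1
    have h3 : 2 ^ 1 ≤ 2 ^ (m - 1) := Nat.pow_le_pow_right two_pos (by omega)
    omega
  · intro x hx y hy
    rw [← hsg_range hF hN] at hx hy
    obtain ⟨s, rfl⟩ := hx
    obtain ⟨t, rfl⟩ := hy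
    rw [← map_mul, ← map_mul, mul_comm]
  · intro x hx
    rw [← hsg_range hF hN] at hx
    obtain ⟨s, rfl⟩ := hx
    rw [← map_pow]
    have h1 : s ^ 2 = 1 := by
      funext i
      exact Int.units_sq (s i)
    rw [h1, map_one]

end std

/-- (DC) -/
theorem stmtDC_of (hF : StmtDF.{u}) : StmtDC.{u, v} := by
  intro K _ _ m d hN G _ _ L ε hε
  have hm := hN.hm
  obtain ⟨-, hdg, -, huq⟩ := hF K m d hN
  have hinner : ∀ {x : G} {g : ↥(OD (fd m d))} {c : Fin (m + 1) → K}, (∀ i, c i ^ 2 = 1) →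
      g.1.1 = diagonal c → ∏ i, c i = 1 → (∀ h, x * ε h * x⁻¹ = ε (cjD g h)) →
      x ∈ L ⊔ Subgroup.centralizer (L : Set G) := by
    intro x g c hc hg hp hx
    exact mem_sup hε.range ((hdg c hc g.1 hg).2.2 hp) hx
  refine ⟨fun u => ⟨DHom_comp hε u, Ad_comp ε u⟩,
    fun u => ⟨?_, Ad_ApS hF hN hε.ker u, card_Ad hF hN hε.ker u⟩, ?_, ?_, ?_, ?_⟩
  · rw [← hε.range]
    rintro _ ⟨g, -, rfl⟩
    exact ⟨cjD u g, rfl⟩
  · rw [eq_bot_iff]
    rintro y ⟨hy, hyc⟩
    rw [← hε.range] at hy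
    obtain ⟨s, rfl⟩ := hy
    rw [Subgroup.mem_bot, hε.ker]
    refine huq s.1 (SD_le s.2) fun k hk => ?_
    have hyc' : ε s ∈ Subgroup.centralizer (L : Set G) := hyc
    rw [Subgroup.mem_centralizer_iff] at hyc'
    have h1 := hyc' (ε ⟨k, hk⟩) (by rw [SetLike.mem_coe, ← hε.range]; exact ⟨_, rfl⟩)
    rw [← map_mul, ← map_mul] at h1
    obtain ⟨l, hl⟩ := (eps_eq hε.ker).1 h1.symm
    exact ⟨l, hl⟩
  · intro l hl hl2 hlc
    obtain ⟨g, c, h1, h2, h3⟩ := one hε (Subgroup.le_normalizer hl) hl2 hlc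
    have hl' := hl
    rw [← hε.range] at hl'
    obtain ⟨s, rfl⟩ := hl'
    set s' : ↥(OD (fd m d)) := ⟨s.1, SD_le s.2⟩ with hs'
    obtain ⟨r, hr⟩ := uniq huq hε.ker (g := s') (g' := g) (fun k => by
      have h4 := h3 k
      rw [← map_inv, ← map_mul, ← map_mul] at h4
      rw [← h4]
      congr 1)
    have hr' : s.1.1 = r • diagonal c := by rw [← h2]; exact hr
    have hr2 : (r * c 0) ^ 2 = 1 := by
      have h5 := SD_le s.2 (Pi.single 0 1) (Pi.single 0 1)
      have h6 : ac s.1 (Pi.single 0 1) = Pi.single 0 (r * c 0) := by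
        unfold ac
        rw [hr', smul_mulVec, diagonal_mulVec_single, ← Pi.single_smul, smul_eq_mul, mul_one]
      have h7 : (0 : Fin (m + 1)) ≠ Fin.last m := by
        intro h
        have := congrArg Fin.val h
        simp at this
        omega
      have h8 : fd m d 0 = 1 := by
        unfold fd
        rw [if_neg h7]
      rw [h6, B_single, B_single, Pi.single_eq_same, Pi.single_eq_same, h8] at h5
      linear_combination h5
    have hrr : r ^ 2 = 1 := by
      rw [mul_pow, h1, mul_one] at hr2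
      exact hr2
    refine ⟨s, ⟨fun i => r * c i, fun i => by rw [mul_pow, hrr, h1, one_mul], ?_⟩, ?_⟩
    · rw [hr', ← diagonal_smul]
      congr 1
    · show ε (cjD 1 s) = ε s
      rw [cjD_one]
  · intro e he x hx he2 hx2 hex hea hxa heM
    obtain ⟨g, c, h1, h2, h3⟩ := one hε he he2 hea
    obtain ⟨g', c', h1', h2', h3'⟩ := one hε hx hx2 hxa
    have hp : ∏ i, c i = -1 := (prod_pm h1).resolve_left fun h => heM (hinner h1 h2 h h3)
    rcases prod_pm h1' with hp' | hp'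
    · exact ⟨0, by rw [pow_zero, mul_one]; exact hinner h1' h2' hp' h3'⟩
    · refine ⟨1, ?_⟩
      rw [pow_one]
      refine hinner (g := g' * g) (c := fun i => c' i * c i)
        (fun i => by rw [mul_pow, h1', h1, one_mul]) ?_ ?_ ?_
      · show g'.1.1 * g.1.1 = _
        rw [h2', h2, diagonal_mul_diagonal]
      · rw [Finset.prod_mul_distrib, hp, hp']
        ring
      · intro h
        rw [cjD_mul, ← h3', ← h3]
        group
  · intro e he heM he2 hea
    obtain ⟨g, c, h1, h2, h3⟩ := one hε he he2 hea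
    have hp : ∏ i, c i = -1 := (prod_pm h1).resolve_left fun h => heM (hinner h1 h2 h h3)
    let b : Fin (m + 1) → K := fun i => c i * (if i = Fin.last m then -1 else 1)
    have hb : ∀ i, b i ^ 2 = 1 := by
      intro i
      show (c i * (if i = Fin.last m then -1 else 1)) ^ 2 = 1
      rw [mul_pow, h1, one_mul]
      split_ifs <;> ring
    have hpb : ∏ i, b i = 1 := by
      show ∏ i, (c i * (if i = Fin.last m then -1 else 1)) = 1
      rw [Finset.prod_mul_distrib, hp, Finset.prod_ite_eq', if_pos (Finset.mem_univ _)]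
      ring
    refine ⟨_, sd_mem hF hN ε b hb hpb, fun s hs h => ?_⟩
    have h4 : (g.1 * (sd hF hN b hb hpb).1) = s.1 := by
      apply Units.ext
      show g.1.1 * diagonal b = s.1.1
      rw [h2, hs, diagonal_mul_diagonal]
      congr 1
      funext i
      show c i * (c i * _) = _
      rw [← mul_assoc, ← pow_two, h1, one_mul]
    have h5 : cjD s h = cjD g (sd hF hN b hb hpb * h * (sd hF hN b hb hpb)⁻¹) := by
      apply Subtype.ext
      show s.1 * h.1 * s.1⁻¹ = g.1 * ((sd hF hN b hb hpb).1 * h.1 * (sd hF hN b hb hpb).1⁻¹) * g.1⁻¹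
      rw [← h4]
      group
    rw [h5, ← h3, map_mul, map_mul, map_inv]
    group

end

end Vale.Agent.P240.R2.H281DC
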