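import Vale.Agent.P240.R2.H986.EDefs
import Vale.Agent.P240.R2.H387.M2a
import Vale.Agent.P240.R2.H281.H90b
import Vale.Agent.P240.R2.H281.T4
import Vale.Agent.P240.R2.H281.B1

/-!
`StmtEL`: the frames of the symmetric space of the vectors fixed by `x ↦ Da α (star x)` whose last
line is the only one of nonsquare value: at least four pairs in the inner planes, at least two in the
last one.
-/

set_option autoImplicit false
set_option linter.unusedSectionVars false

namespace Vale.Agent.P240.R2.H281EL

open Finset Matrix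
open Vale.Agent.P240.R2.AS (Ln Fr Orth mem_Fr)
open Vale.Agent.P240.R2.H387 (hf pr hf_def hf_star hf_add_right hf_add_left hf_smul_right
  hf_smul_left pr_apply pr_mulVec pr_mul_eq_zero pr_smul hf_symm_zero)
open Vale.Agent.P240.R2.H986.E
open Vale.Agent.P240.R2.H281 (fx hilb star_ne circ mem_circ eight two_ne_of_odd)
open scoped Classical

universe u

noncomputable section

section circle
variable {F : Type u} [Field F] [Fintype F]

/-- the points of `s² + N t² = 1` -/
def cN (N : F) : Finset (F × F) := univ.filter fun p => p.1 ^ 2 + N * p.2 ^ 2 = 1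

lemma mem_cN {N : F} {p : F × F} : p ∈ cN N ↔ p.1 ^ 2 + N * p.2 ^ 2 = 1 := by simp [cN]

lemma card_cN (h2 : (2 : F) ≠ 0) {N : F} (hN : N ≠ 0) : Fintype.card F ≤ (cN N).card + 1 := by
  let par : F → F × F := fun t => ((1 - N * t ^ 2) / (1 + N * t ^ 2), 2 * t / (1 + N * t ^ 2))
  have hback : ∀ t : F, 1 + N * t ^ 2 ≠ 0 → t = (par t).2 / (1 + (par t).1) := by
    intro t h
    have h1 : (1 : F) + (par t).1 = 2 / (1 + N * t ^ 2) := by
      simp only [par]
      field_simp
      ring
    rw [h1]
    simp only [par]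
    rw [div_div_div_cancel_right₀ h]
    field_simp
  have h1 : ((univ.filter fun t : F => ¬ (1 + N * t ^ 2 = 0)).image par).card =
      (univ.filter fun t : F => ¬ (1 + N * t ^ 2 = 0)).card := by
    refine Finset.card_image_of_injOn ?_
    intro t ht s hs hts
    simp only [coe_filter, mem_univ, true_and, Set.mem_ofPred_eq] at ht hs
    rw [hback t ht, hback s hs, hts]
  have h3 : insert ((-1 : F), (0 : F)) ((univ.filter fun t : F => ¬ (1 + N * t ^ 2 = 0)).image par)
      ⊆ cN N := by
    intro p hp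
    rcases Finset.mem_insert.mp hp with rfl | hp
    · simp [mem_cN]
    · obtain ⟨t, ht, rfl⟩ := Finset.mem_image.mp hp
      have ht : 1 + N * t ^ 2 ≠ 0 := by simpa using ht
      rw [mem_cN]
      simp only [par]
      field_simp
      ring
  have h4 : ((-1 : F), (0 : F)) ∉ (univ.filter fun t : F => ¬ (1 + N * t ^ 2 = 0)).image par := by
    intro hp
    obtain ⟨t, ht, h⟩ := Finset.mem_image.mp hp
    have ht : 1 + N * t ^ 2 ≠ 0 := by simpa using ht
    have h5 : (par t).1 = -1 := by rw [h]
    simp only [par] at h5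
    rw [div_eq_iff ht] at h5
    apply h2
    linear_combination h5
  have h6 := Finset.card_le_card h3
  rw [Finset.card_insert_of_notMem h4, h1] at h6
  have h7 := Finset.card_filter_add_card_filter_not (s := (univ : Finset F))
    (fun t : F => 1 + N * t ^ 2 = 0)
  rw [Finset.card_univ] at h7
  have h8 : (univ.filter fun t : F => 1 + N * t ^ 2 = 0).card ≤ 2 := by
    by_cases h : ∃ t : F, 1 + N * t ^ 2 = 0
    · obtain ⟨t, ht⟩ := h
      refine (Finset.card_le_card (t := {t, -t}) ?_).trans Finset.card_le_two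
      intro s hs
      simp only [mem_filter, mem_univ, true_and] at hs
      have h1 : (s - t) * (s + t) = 0 := by
        apply mul_left_cancel₀ hN
        linear_combination hs - ht
      simp only [mem_insert, mem_singleton]
      rcases mul_eq_zero.mp h1 with h1 | h1
      · left; exact sub_eq_zero.mp h1
      · right; exact eq_neg_of_add_eq_zero_left h1
    · rw [Finset.filter_false_of_mem]
      · simp
      · intro t _ ht
        exact h ⟨t, ht⟩
  omega

lemma cN_one : cN (1 : F) = circ F := by
  ext p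
  rw [mem_cN, mem_circ, one_mul]

end circle

section letters
variable {K : Type u} [Field K] [Fintype K] [StarRing K] {n : ℕ} {α : K}

/-- vectors fixed by the semilinear involution -/
def Fx (α : K) (x : Fin n → K) : Prop := Da n α *ᵥ (star x) = x

lemma fx_iff {x : Fin n → K} : Fx α x ↔ ∀ i, (if i.1 + 1 = n then α else 1) * star (x i) = x i := by
  unfold Fx Da
  constructor
  · intro h i
    have := congrFun h i
    rwa [mulVec_diagonal] at this
  · intro h
    funext i
    rw [mulVec_diagonal]
    exact h i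

lemma Fx.add {x y : Fin n → K} (hx : Fx α x) (hy : Fx α y) : Fx α (x + y) := by
  rw [fx_iff] at *
  intro i
  rw [Pi.add_apply, star_add, mul_add, hx, hy]

lemma Fx.smul {x : Fin n → K} (hx : Fx α x) {s : K} (hs : star s = s) : Fx α (s • x) := by
  rw [fx_iff] at *
  intro i
  rw [Pi.smul_apply, smul_eq_mul, star_mul', hs, mul_left_comm, hx]

lemma dd_star (hα : α * star α = 1) (i : Fin n) :
    (if i.1 + 1 = n then α else 1) * star (if i.1 + 1 = n then α else (1 : K)) = 1 := by
  by_cases h : i.1 + 1 = n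
  · rw [if_pos h, hα]
  · rw [if_neg h, star_one, mul_one]

/-- the form is real on fixed vectors -/
lemma Fx.real (hα : α * star α = 1) {x y : Fin n → K} (hx : Fx α x) (hy : Fx α y) :
    star (hf x y) = hf x y := by
  rw [hf_star, hf_def, hf_def]
  refine Finset.sum_congr rfl fun i _ => ?_
  have h1 := fx_iff.1 hx i
  have h2 := fx_iff.1 hy i
  have h3 := dd_star hα i
  set D : K := if i.1 + 1 = n then α else 1
  have h4 : star (x i) = star D * x i := by
    have := congrArg star h1
    rw [star_mul', star_star] at this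
    exact this.symm
  calc star (y i) * x i = (D * star D) * (star (y i) * x i) := by rw [h3, one_mul]
    _ = (star D * x i) * (D * star (y i)) := by ring
    _ = star (x i) * y i := by rw [← h4, h2]

/-- fixed lines -/
lemma Fx.line (hα : α * star α = 1) {x : Fin n → K} (hx : Fx α x) :
    Da n α * (pr x).map star * star (Da n α) = pr x := by
  have hr := hx.real hα hx
  ext i j
  have h1 := fx_iff.1 hx i
  have h2 := fx_iff.1 hx j
  rw [star_eq_conjTranspose]
  unfold Da
  rw [diagonal_conjTranspose, mul_diagonal, diagonal_mul, map_apply, pr_apply, star_mul',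
    star_inv₀, hr, star_mul', star_star, Pi.star_apply]
  have h3 : star (x j) = star (if j.1 + 1 = n then α else 1) * x j := by
    have := congrArg star h2
    rw [star_mul', star_star] at this
    exact this.symm
  rw [h3]
  calc (if i.1 + 1 = n then α else 1) * ((hf x x)⁻¹ * (star (x i) * x j)) *
        star (if j.1 + 1 = n then α else 1)
      = (hf x x)⁻¹ * (((if i.1 + 1 = n then α else 1) * star (x i)) *
        (star (if j.1 + 1 = n then α else 1) * x j)) := by ring
    _ = _ := by rw [h1]

variable {q : ℕ}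

/-- letters from vectors -/
lemma exists_letter (hF : Fld K q) {z : Fin n → K} (h0 : hf z z ≠ 0) : ∃ P : Ln K n, P.1 = pr z := by
  obtain ⟨e, he⟩ := H472.exists_norm (c := hf z z) (q := q)
    (by rw [← Nat.card_eq_fintype_card]; exact hF.2.1) hF.2.2 h0 (hf_star z z)
  have he0 : e ≠ 0 := by
    rintro rfl
    rw [mul_zero] at he
    exact h0 he.symm
  have hse0 : star e ≠ 0 := fun h => he0 (by rw [← star_star e, h, star_zero])
  have h1 : hf (e⁻¹ • z) (e⁻¹ • z) = 1 := by
    rw [hf_smul_right, hf_smul_left, ← he, star_inv₀]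
    field_simp
  refine ⟨⟨pr z, e⁻¹ • z, h1, ?_⟩, rfl⟩
  rw [← pr_smul (inv_ne_zero he0) z, pr, h1, inv_one, one_smul]

/-- fixed letters -/
lemma Lf.exists_vec (hF : Fld K q) {P : Ln K n} (h : Lf α P) (hα : α * star α = 1) :
    ∃ z : Fin n → K, Fx α z ∧ hf z z ≠ 0 ∧ P.1 = pr z := by
  obtain ⟨y, hy, hP⟩ := P.2
  have hy : hf y y = 1 := hy
  have hPy : P.1 = pr y := by rw [pr, hy, inv_one, one_smul]; exact hP
  have hy0 : hf y y ≠ 0 := by rw [hy]; exact one_ne_zero
  set y' : Fin n → K := Da n α *ᵥ star y with hy'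
  have hy'i : ∀ i, y' i = (if i.1 + 1 = n then α else 1) * star (y i) := by
    intro i
    rw [hy']
    unfold Da
    rw [mulVec_diagonal]
    rfl
  have h1 : hf y' y' = 1 := by
    rw [← hy, ← hf_star y y, hf_def, hf_def, star_sum]
    refine Finset.sum_congr rfl fun i _ => ?_
    have h3 := dd_star hα i
    rw [hy'i, star_mul', star_star, star_mul', star_star]
    calc star (if i.1 + 1 = n then α else 1) * y i * ((if i.1 + 1 = n then α else 1) * star (y i))
        = ((if i.1 + 1 = n then α else 1) * star (if i.1 + 1 = n then α else (1 : K))) *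
          (y i * star (y i)) := by ring
      _ = y i * star (y i) := by rw [h3, one_mul]
  have h2 : pr y' = pr y := by
    have h3 : Da n α * (pr y).map star * star (Da n α) = pr y := by rw [← hPy]; exact h
    rw [← h3]
    ext i j
    rw [star_eq_conjTranspose]
    unfold Da
    rw [diagonal_conjTranspose, mul_diagonal, diagonal_mul, map_apply, pr_apply, pr_apply, h1, hy,
      inv_one, one_mul, one_mul, star_mul', star_star, Pi.star_apply, hy'i, hy'i, star_mul',
      star_star]
    ring
  obtain ⟨c, hc⟩ : ∃ c : K, y' = c • y := by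
    refine ⟨hf y y', ?_⟩
    have h3 : pr y' *ᵥ y' = y' := by rw [pr_mulVec, h1, inv_one, one_mul, one_smul]
    rw [h2, pr_mulVec, hy, inv_one, one_mul] at h3
    exact h3.symm
  have hcc : c * star c = 1 := by
    rw [hc, hf_smul_right, hf_smul_left, hy, mul_one] at h1
    exact h1
  obtain ⟨e, he0, he⟩ := hilb (star_ne (by
    obtain ⟨k, hk⟩ := hF.1
    by_contra hq
    have hq1 : q = 1 := by omega
    have h3 := hF.2.1
    rw [hq1, one_pow, Nat.card_eq_fintype_card] at h3
    have := Fintype.one_lt_card (α := K)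
    omega) hF.2.1 hF.2.2) hcc
  refine ⟨e • y, ?_, ?_, ?_⟩
  · rw [fx_iff]
    intro i
    have h3 := congrFun hc i
    rw [hy'i, Pi.smul_apply, smul_eq_mul] at h3
    rw [Pi.smul_apply, smul_eq_mul, star_mul']
    calc (if i.1 + 1 = n then α else 1) * (star e * star (y i))
        = star e * ((if i.1 + 1 = n then α else 1) * star (y i)) := by ring
      _ = (c * star e) * y i := by rw [h3]; ring
      _ = e * y i := by rw [he]
  · rw [hf_smul_right, hf_smul_left, hy, mul_one]
    exact mul_ne_zero he0 fun h3 => he0 (by rw [← star_star e, h3, star_zero])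
  · rw [hPy, pr_smul he0]

lemma L1.exists_vec {P : Ln K n} (h : L1 α P) : ∃ z : Fin n → K, Fx α z ∧ hf z z = 1 ∧ P.1 = pr z := by
  obtain ⟨x, h1, h2, h3⟩ := h
  exact ⟨x, h1, h2, by rw [pr, show hf x x = 1 from h2, inv_one, one_smul]; exact h3⟩

lemma L1.of_vec {P : Ln K n} {z : Fin n → K} (h : Fx α z) (h1 : hf z z = 1) (h2 : P.1 = pr z) :
    L1 α P := ⟨z, h, h1, by rw [h2, pr, h1, inv_one, one_smul]⟩

/-- the value of a line that is not of class `1` is not a square -/
lemma not_sq {P : Ln K n} {z : Fin n → K} (h : Fx α z) (h2 : P.1 = pr z) (hn : ¬ L1 α P)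
    {r : K} (hr : star r = r) (hr0 : r ≠ 0) : r * r ≠ hf z z := by
  intro h3
  apply hn
  refine L1.of_vec (h.smul (s := r⁻¹) (by rw [star_inv₀, hr])) ?_ ?_
  · rw [hf_smul_right, hf_smul_left, ← h3, star_inv₀, hr]
    field_simp
  · rw [h2, pr_smul (inv_ne_zero hr0)]

/-- a line of nonsquare value is not of class `1` -/
lemma not_L1 (hα : α * star α = 1) {P : Ln K n} {z : Fin n → K} (h : Fx α z)
    (h2 : P.1 = pr z) (hn : ∀ r : K, star r = r → r * r ≠ hf z z) : ¬ L1 α P := by
  intro h3
  obtain ⟨x, hx, hx1, hPx⟩ := L1.exists_vec h3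
  have h4 : x = ((hf z z)⁻¹ * hf z x) • z := by
    have h5 : pr x *ᵥ x = x := by rw [pr_mulVec, hx1, inv_one, one_mul, one_smul]
    rw [← hPx, h2, pr_mulVec] at h5
    exact h5.symm
  set c := (hf z z)⁻¹ * hf z x with hc
  have hcs : star c = c := by
    rw [hc, star_mul', star_inv₀, h.real hα h, h.real hα hx]
  have h5 : hf x x = c * c * hf z z := by
    rw [h4, hf_smul_right, hf_smul_left, hcs]
    ring
  rw [hx1] at h5
  have hc0 : c ≠ 0 := by
    intro h6
    rw [h6] at h5
    simp at h5
  refine hn c⁻¹ (by rw [star_inv₀, hcs]) ?_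
  field_simp
  linear_combination h5

end letters

section planes
variable {K : Type u} [Field K] [Fintype K] [StarRing K] {n : ℕ} {α : K} {q : ℕ}

/-- the first vector -/
def z1 (a b : Fin n → K) (p : fx K × fx K) : Fin n → K := (p.1 : K) • a + (p.2 : K) • b

/-- the second vector -/
def z2 (N : fx K) (a b : Fin n → K) (p : fx K × fx K) : Fin n → K :=
  (-((N : K) * (p.2 : K))) • a + (p.1 : K) • b

variable {a b : Fin n → K} {N : fx K}

lemma z_facts (haa : hf a a = 1) (hbb : hf b b = (N : K)) (hab : hf a b = 0) {p : fx K × fx K}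
    (hp : p ∈ cN N) : hf (z1 a b p) (z1 a b p) = 1 ∧ hf (z2 N a b p) (z2 N a b p) = (N : K) ∧
      hf (z1 a b p) (z2 N a b p) = 0 := by
  have hba := hf_symm_zero hab
  have e1 : star (p.1 : K) = p.1 := p.1.2
  have e2 : star (p.2 : K) = p.2 := p.2.2
  have e3 : star (N : K) = N := N.2
  have e4 : (p.1 : K) ^ 2 + N * (p.2 : K) ^ 2 = 1 := by
    have := congrArg (fx K).subtype (mem_cN.1 hp)
    simpa using this
  refine ⟨?_, ?_, ?_⟩
  · simp only [z1, hf_add_right, hf_add_left, hf_smul_right, hf_smul_left, haa, hbb, hab, hba, e1,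
      e2]
    linear_combination e4
  · simp only [z2, hf_add_right, hf_add_left, hf_smul_right, hf_smul_left, haa, hbb, hab, hba, e1,
      e2, e3, star_neg, star_mul']
    linear_combination (N : K) * e4
  · simp only [z1, z2, hf_add_right, hf_add_left, hf_smul_right, hf_smul_left, haa, hbb, hab, hba,
      e1, e2]
    ring

lemma z_sum (hN : N ≠ 0) (haa : hf a a = 1) (hbb : hf b b = (N : K)) (hab : hf a b = 0)
    {p : fx K × fx K} (hp : p ∈ cN N) :
    pr (z1 a b p) + pr (z2 N a b p) = pr a + pr b := by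
  obtain ⟨h1, h2, -⟩ := z_facts haa hbb hab hp
  have hN0 : (N : K) ≠ 0 := fun h => hN (Subtype.ext h)
  have e1 : star (p.1 : K) = p.1 := p.1.2
  have e2 : star (p.2 : K) = p.2 := p.2.2
  have e3 : star (N : K) = N := N.2
  have e4 : (p.1 : K) ^ 2 + N * (p.2 : K) ^ 2 = 1 := by
    have := congrArg (fx K).subtype (mem_cN.1 hp)
    simpa using this
  ext i j
  rw [Matrix.add_apply, Matrix.add_apply, pr_apply, pr_apply, pr_apply, pr_apply, h1, h2, haa, hbb]
  simp only [z1, z2, Pi.add_apply, Pi.smul_apply, smul_eq_mul, star_add, star_mul', star_neg, e1,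
    e2, e3]
  field_simp
  linear_combination (N * a i * star (a j) + b i * star (b j)) * e4

/-- the point is determined by the line up to sign -/
lemma z_inj (hN : N ≠ 0) (haa : hf a a = 1) (hbb : hf b b = (N : K)) (hab : hf a b = 0)
    {p r : fx K × fx K} (hp : p ∈ cN N) (hr : r ∈ cN N) (h : pr (z1 a b p) = pr (z1 a b r)) :
    r = p ∨ r = -p := by
  have hba := hf_symm_zero hab
  have hN0 : (N : K) ≠ 0 := fun h => hN (Subtype.ext h)
  have key : ∀ p : fx K × fx K, p ∈ cN N → hf a (pr (z1 a b p) *ᵥ a) = (p.1 : K) ^ 2 ∧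
      hf b (pr (z1 a b p) *ᵥ a) = N * (p.1 * p.2) ∧
      hf b (pr (z1 a b p) *ᵥ b) = N * N * (p.2 : K) ^ 2 := by
    intro p hp
    have e1 : star (p.1 : K) = p.1 := p.1.2
    have e2 : star (p.2 : K) = p.2 := p.2.2
    obtain ⟨h1, -, -⟩ := z_facts haa hbb hab hp
    rw [pr_mulVec, pr_mulVec, h1, inv_one, one_mul, one_mul]
    simp only [z1, hf_add_right, hf_add_left, hf_smul_right, hf_smul_left, haa, hbb, hab, hba, e1,
      e2]
    refine ⟨by ring, by ring, by ring⟩
  obtain ⟨a1, a2, a3⟩ := key p hp
  obtain ⟨b1, b2, b3⟩ := key r hr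
  rw [h] at a1 a2 a3
  rw [a1] at b1
  rw [a2] at b2
  rw [a3] at b3
  have c1 : p.1 ^ 2 = r.1 ^ 2 := Subtype.ext (by simpa using b1)
  have c2 : p.1 * p.2 = r.1 * r.2 := Subtype.ext (by
    have := mul_left_cancel₀ hN0 b2
    simpa using this)
  have c3 : p.2 ^ 2 = r.2 ^ 2 := Subtype.ext (by
    have := mul_left_cancel₀ (mul_ne_zero hN0 hN0) b3
    simpa using this)
  obtain ⟨p1, p2⟩ := p
  obtain ⟨r1, r2⟩ := r
  simp only at c1 c2 c3
  simp only [Prod.mk.injEq, Prod.neg_mk]
  by_cases h0 : p1 = 0
  · subst h0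
    have h1 : r1 = 0 := by
      have : r1 ^ 2 = 0 := by rw [← c1]; ring
      exact pow_eq_zero_iff (two_ne_zero) |>.mp this
    subst h1
    have h2 : (r2 - p2) * (r2 + p2) = 0 := by linear_combination -c3
    rcases mul_eq_zero.mp h2 with h2 | h2
    · left; exact ⟨rfl, sub_eq_zero.mp h2⟩
    · right; exact ⟨by simp, eq_neg_of_add_eq_zero_left h2⟩
  · have h2 : (r1 - p1) * (r1 + p1) = 0 := by linear_combination -c1
    rcases mul_eq_zero.mp h2 with h2 | h2
    · left
      have h3 : r1 = p1 := sub_eq_zero.mp h2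
      subst h3
      exact ⟨rfl, (mul_left_cancel₀ h0 c2).symm⟩
    · right
      have h3 : r1 = -p1 := eq_neg_of_add_eq_zero_left h2
      subst h3
      refine ⟨rfl, ?_⟩
      apply mul_left_cancel₀ h0
      linear_combination c2

/-- the pairs of lines -/
def pN (N : fx K) (a b : Fin n → K) :
    Finset (Matrix (Fin n) (Fin n) K × Matrix (Fin n) (Fin n) K) :=
  (cN N).image fun p => (pr (z1 a b p), pr (z2 N a b p))

lemma card_pN (hN : N ≠ 0) (haa : hf a a = 1) (hbb : hf b b = (N : K)) (hab : hf a b = 0) :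
    (cN N).card ≤ 2 * (pN N a b).card := by
  refine Finset.card_le_mul_card_image _ 2 ?_
  intro x hx
  obtain ⟨p, hp, rfl⟩ := Finset.mem_image.mp hx
  refine (Finset.card_le_card (t := {p, -p}) ?_).trans Finset.card_le_two
  intro r hr
  simp only [mem_filter, Prod.mk.injEq] at hr
  simp only [mem_insert, mem_singleton]
  exact z_inj hN haa hbb hab hp hr.1 hr.2.1.symm

end planes

section frames
variable {K : Type u} [Field K] [Fintype K] [StarRing K] {n : ℕ} {α : K} {q : ℕ}

lemma fr_replace {u v g g' : List (Ln K n)} (h : u ++ (g ++ v) ∈ Fr K n) (h' : Orth g')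
    (hs : AS.sm g' = AS.sm g) : u ++ (g' ++ v) ∈ Fr K n := by
  have key : ∀ {a b c : List (Ln K n)}, (a ++ (b ++ c)).Perm ((a ++ c) ++ b) := by
    intro a b c
    rw [List.append_assoc]
    exact List.Perm.append_left a List.perm_append_comm
  have h1 := (H387.mem_Fr_iff.1 h).perm (key.map H387.toL)
  rw [List.map_append] at h1
  have h2 := h1.replace (g' := g'.map H387.toL) (H387.orth_iff.1 h')
    (by rw [H387.sm_toL, H387.sm_toL, hs])
  rw [← List.map_append] at h2
  exact H387.mem_Fr_iff.2 (h2.perm ((key (a := u) (b := g') (c := v)).symm.map H387.toL))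

lemma sm_append (v w : List (Ln K n)) : AS.sm (v ++ w) = AS.sm v + AS.sm w := by
  simp [AS.sm]

lemma sm_two (x y : Ln K n) : AS.sm [x, y] = x.1 + y.1 := by
  simp [AS.sm]

lemma orth_two {x y : Ln K n} : Orth [x, y] ↔ x.1 * y.1 = 0 := by
  simp [Orth]

lemma fr_two {u v : List (Ln K n)} {x y : Ln K n} (h : u ++ x :: y :: v ∈ Fr K n) :
    x.1 * y.1 = 0 := by
  have h1 := ((mem_Fr K).1 h).2
  have h2 := (List.pairwise_append.1 h1).2.1
  exact (List.pairwise_cons.1 h2).1 y (by simp)

/-- splitting off the last letter -/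
lemma mem_FM {v : List (Ln K n)} {P : Ln K n} : v ++ [P] ∈ FM K n α ↔
    v ++ [P] ∈ Fr K n ∧ (∀ Q ∈ v, L1 α Q) ∧ Lf α P ∧ ¬ L1 α P := by
  unfold FM
  rw [Finset.mem_filter]
  constructor
  · rintro ⟨h1, v', P', h2, h3, h4, h5⟩
    obtain ⟨rfl, h6⟩ := List.append_inj' h2 rfl
    have h7 : P = P' := by simpa using h6
    subst h7
    exact ⟨h1, h3, h4, h5⟩
  · rintro ⟨h1, h2, h3, h4⟩
    exact ⟨h1, v, P, rfl, h2, h3, h4⟩

/-- the pairs in a plane -/
lemma plane_le (hF : Fld K q) {u v : List (Ln K n)} {x y : Ln K n} {G : Finset (List (Ln K n))}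
    (h : u ++ x :: y :: v ∈ Fr K n) {a b : Fin n → K} {N : fx K} (hN : N ≠ 0)
    (haa : hf a a = 1) (hbb : hf b b = (N : K)) (hxa : x.1 = pr a) (hyb : y.1 = pr b)
    (hG : ∀ p ∈ cN N, ∀ P Q : Ln K n, P.1 = pr (z1 a b p) → Q.1 = pr (z2 N a b p) →
      u ++ P :: Q :: v ∈ Fr K n → u ++ P :: Q :: v ∈ G) :
    (cN N).card ≤ 2 * (univ.filter (fun z : Ln K n × Ln K n => u ++ z.1 :: z.2 :: v ∈ G)).card := by
  have hN0 : (N : K) ≠ 0 := fun h => hN (Subtype.ext h)
  have hab : hf a b = 0 := by
    refine (pr_mul_eq_zero (by rw [haa]; exact one_ne_zero) (by rw [hbb]; exact hN0)).1 ?_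
    rw [← hxa, ← hyb]
    exact fr_two h
  refine (card_pN hN haa hbb hab).trans (Nat.mul_le_mul_left 2 ?_)
  refine (Finset.card_le_card (t := (univ.filter (fun z : Ln K n × Ln K n =>
    u ++ z.1 :: z.2 :: v ∈ G)).image fun z => (z.1.1, z.2.1)) ?_).trans Finset.card_image_le
  intro m hm
  obtain ⟨p, hp, rfl⟩ := Finset.mem_image.1 hm
  obtain ⟨f1, f2, f3⟩ := z_facts haa hbb hab hp
  obtain ⟨P, hP⟩ := exists_letter hF (z := z1 a b p) (by rw [f1]; exact one_ne_zero)
  obtain ⟨Q, hQ⟩ := exists_letter hF (z := z2 N a b p) (by rw [f2]; exact hN0)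
  rw [Finset.mem_image]
  refine ⟨(P, Q), ?_, by rw [hP, hQ]⟩
  rw [Finset.mem_filter]
  refine ⟨Finset.mem_univ _, hG p hp P Q hP hQ ?_⟩
  have h1 : u ++ ([x, y] ++ v) ∈ Fr K n := h
  refine fr_replace (g' := [P, Q]) h1 (orth_two.2 ?_) ?_
  · rw [hP, hQ]
    exact (pr_mul_eq_zero (by rw [f1]; exact one_ne_zero) (by rw [f2]; exact hN0)).2 f3
  · rw [sm_two, sm_two, hP, hQ, hxa, hyb]
    exact z_sum hN haa hbb hab hp

end frames

/-- EL -/
theorem stmtEL : StmtEL.{u} := by
  intro K _ _ _ q hF hq4 hq7 n hn α hα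
  obtain ⟨hα1, hα2⟩ := hα
  have h2 : (2 : K) ≠ 0 := by
    intro h
    have hodd : Odd (Nat.card K) := by rw [hF.2.1]; exact hF.1.pow
    exact two_ne_of_odd hodd h
  have h2' : (2 : fx K) ≠ 0 := by
    intro h
    apply h2
    have h3 := congrArg (fx K).subtype h
    rwa [map_ofNat, map_zero] at h3
  have hcard : Fintype.card (fx K) = q := by
    rw [← Nat.card_eq_fintype_card]
    exact H986.St.card_F0 hF.2.1 hF.2.2
  refine ⟨⟨?_, ?_, ?_, ?_⟩, ?_⟩
  · intro w hw
    unfold FM at hw
    rw [Finset.mem_filter] at hw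
    exact ((mem_Fr K).1 hw.1).1
  · intro u a b c d v v' h1 h3 h4
    have hlen : ∀ w ∈ FM K n α, w.length = n := by
      intro w hw
      unfold FM at hw
      rw [Finset.mem_filter] at hw
      exact ((mem_Fr K).1 hw.1).1
    have l1 := hlen _ h1
    have l2 := hlen _ h4
    simp only [List.length_append, List.length_cons] at l1 l2
    rcases v.eq_nil_or_concat' with rfl | ⟨v0, P, rfl⟩
    · have hv' : v' = [] := by
        rw [← List.length_eq_zero_iff]
        simp only [List.length_nil] at l1
        omega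
      rw [hv']
      exact h3
    · rcases v'.eq_nil_or_concat' with rfl | ⟨v0', P', rfl⟩
      · simp only [List.length_append, List.length_nil, List.length_cons] at l1 l2
        omega
      · have e : ∀ (x y : Ln K n) (v0 : List (Ln K n)) (P : Ln K n),
            u ++ x :: y :: (v0 ++ [P]) = (u ++ x :: y :: v0) ++ [P] := by
          intro x y v0 P
          simp
        rw [e] at h1 h3 h4 ⊢
        obtain ⟨a1, a2, a3, a4⟩ := mem_FM.1 h1
        obtain ⟨b1, b2, b3, b4⟩ := mem_FM.1 h3
        obtain ⟨c1, c2, c3, c4⟩ := mem_FM.1 h4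
        refine mem_FM.2 ⟨?_, ?_, c3, c4⟩
        · rw [← e] at a1 b1 c1 ⊢
          have s1 := H387.sm_eq_one a1
          have s2 := H387.sm_eq_one b1
          have t1 : AS.sm [c, d] = AS.sm [a, b] := by
            have t2 : ∀ x y : Ln K n, AS.sm (u ++ x :: y :: (v0 ++ [P])) =
                AS.sm u + AS.sm [x, y] + AS.sm (v0 ++ [P]) := by
              intro x y
              rw [show u ++ x :: y :: (v0 ++ [P]) = (u ++ [x, y]) ++ (v0 ++ [P]) by simp,
                sm_append, sm_append]
            rw [t2] at s1 s2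
            have t3 := s2.trans s1.symm
            exact add_left_cancel (add_right_cancel t3)
          have h5 : u ++ ([a, b] ++ (v0' ++ [P'])) ∈ Fr K n := c1
          exact fr_replace (g' := [c, d]) h5 (orth_two.2 (fr_two b1)) t1
        · intro Q hQ
          rw [List.mem_append, List.mem_cons, List.mem_cons] at hQ
          rcases hQ with hQ | rfl | rfl | hQ
          · exact c2 Q (by simp [hQ])
          · exact b2 _ (by simp)
          · exact b2 _ (by simp)
          · exact c2 Q (by simp [hQ])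
  · intro u x y v hv h
    obtain ⟨v0, P, rfl⟩ := (v.eq_nil_or_concat').resolve_left hv
    have e : ∀ (x y : Ln K n), u ++ x :: y :: (v0 ++ [P]) = (u ++ x :: y :: v0) ++ [P] := by
      intro x y
      simp
    rw [e] at h
    obtain ⟨a1, a2, a3, a4⟩ := mem_FM.1 h
    obtain ⟨a, fa, haa, hxa⟩ := L1.exists_vec (a2 x (by simp))
    obtain ⟨b, fb, hbb, hyb⟩ := L1.exists_vec (a2 y (by simp))
    rw [← e] at a1
    have h3 := plane_le hF (G := FM K n α) a1 (N := 1) one_ne_zero haa (by rw [hbb]; rfl) hxa hyb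
      (by
        intro p hp P1 Q1 hP hQ hfr
        rw [e] at hfr ⊢
        refine mem_FM.2 ⟨hfr, ?_, a3, a4⟩
        have hab : hf a b = 0 := by
          refine (pr_mul_eq_zero (by rw [haa]; exact one_ne_zero)
            (by rw [hbb]; exact one_ne_zero)).1 ?_
          rw [← hxa, ← hyb]
          exact fr_two a1
        obtain ⟨f1, f2, -⟩ := z_facts (N := 1) haa (by rw [hbb]; rfl) hab hp
        intro Q hQ'
        rw [List.mem_append, List.mem_cons, List.mem_cons] at hQ'
        rcases hQ' with hQ' | rfl | rfl | hQ'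
        · exact a2 Q (by simp [hQ'])
        · exact L1.of_vec ((fa.smul p.1.2).add (fb.smul p.2.2)) f1 hP
        · refine L1.of_vec ((fa.smul ?_).add (fb.smul p.1.2)) f2 hQ
          rw [star_neg, star_mul']
          congr 2
          · exact (1 : fx K).2
          · exact p.2.2
        · exact a2 Q (by simp [hQ']))
    rw [cN_one] at h3
    have h4 := eight (K := fx K) h2' (by rw [Nat.card_eq_fintype_card, hcard]; exact hq7)
    omega
  · intro u x y h
    have e : ∀ (x y : Ln K n), u ++ [x, y] = (u ++ [x]) ++ [y] := by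
      intro x y
      simp
    have h' := h
    rw [e] at h'
    obtain ⟨a1, a2, a3, a4⟩ := mem_FM.1 h'
    obtain ⟨a, fa, haa, hxa⟩ := L1.exists_vec (a2 x (by simp))
    obtain ⟨b, fb, hb0, hyb⟩ := Lf.exists_vec hF a3 hα1
    have hbr := fb.real hα1 fb
    let N : fx K := ⟨hf b b, hbr⟩
    have hN : N ≠ 0 := fun h0 => hb0 (congrArg Subtype.val h0)
    rw [← e] at a1
    have h3 := plane_le hF (G := FM K n α) (v := []) a1 (N := N) hN haa rfl hxa hyb
      (by
        intro p hp P1 Q1 hP hQ hfr
        have hab : hf a b = 0 := by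
          refine (pr_mul_eq_zero (by rw [haa]; exact one_ne_zero) hb0).1 ?_
          rw [← hxa, ← hyb]
          exact fr_two (v := []) a1
        obtain ⟨f1, f2, -⟩ := z_facts (N := N) haa rfl hab hp
        have g1 : Fx α (z1 a b p) := (fa.smul p.1.2).add (fb.smul p.2.2)
        have g2 : Fx α (z2 N a b p) := by
          refine (fa.smul ?_).add (fb.smul p.1.2)
          rw [star_neg, star_mul']
          have e3 : star (N : K) = N := N.2
          have e4 : star (p.2 : K) = p.2 := p.2.2
          rw [e3, e4]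
        have hfr' : (u ++ [P1]) ++ [Q1] ∈ Fr K n := by
          rw [← e]; exact hfr
        change u ++ [P1, Q1] ∈ FM K n α
        rw [e]
        refine mem_FM.2 ⟨hfr', ?_, ?_, ?_⟩
        · intro Q hQ'
          rw [List.mem_append, List.mem_singleton] at hQ'
          rcases hQ' with hQ' | rfl
          · exact a2 Q (by simp [hQ'])
          · exact L1.of_vec g1 f1 hP
        · unfold Lf
          rw [hQ]
          exact g2.line hα1
        · refine not_L1 hα1 g2 hQ ?_
          intro r hr hrr
          rw [f2] at hrr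
          have hr0 : r ≠ 0 := by
            rintro rfl
            rw [mul_zero] at hrr
            exact hb0 hrr.symm
          exact not_sq fb hyb a4 hr hr0 hrr)
    have h4 := card_cN h2' hN
    rw [hcard] at h4
    have h5 : 2 ≤ (univ.filter (fun z : Ln K n × Ln K n => u ++ z.1 :: z.2 :: [] ∈ FM K n α)).card := by
      omega
    exact h5
  · obtain ⟨m, rfl⟩ : ∃ m, n = m + 1 := ⟨n - 1, by omega⟩
    refine ⟨H38.w0 K (m + 1), ?_⟩
    have h3 : H38.w0 K (m + 1) = List.ofFn (fun i : Fin m => (H38.E1 i.castSucc : Ln K (m + 1))) ++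
        [H38.E1 (Fin.last m)] := by
      unfold H38.w0
      rw [List.ofFn_succ_last]
    have h4 := H38.w0_mem (K := K) (n := m + 1)
    rw [h3] at h4 ⊢
    have hE : ∀ i : Fin (m + 1), (H38.E1 i : Ln K (m + 1)).1 = pr (Pi.single i (1 : K)) := by
      intro i
      have h5 : hf (Pi.single i (1 : K)) (Pi.single i (1 : K)) = 1 := by simp [hf]
      rw [pr, h5, inv_one, one_smul, H38.vec_e1]
      rfl
    refine mem_FM.2 ⟨h4, ?_, ?_, ?_⟩
    · intro Q hQ
      obtain ⟨i, rfl⟩ := List.mem_ofFn.1 hQ
      refine L1.of_vec (z := Pi.single i.castSucc (1 : K)) ?_ (by simp [hf]) (hE _)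
      rw [fx_iff]
      intro j
      by_cases hj : j = i.castSucc
      · subst hj
        have : ¬ (i.castSucc.1 + 1 = m + 1) := by
          have := i.2
          simp only [Fin.val_castSucc]
          omega
        rw [if_neg this]
        simp
      · rw [Pi.single_eq_of_ne hj]
        simp
    · unfold Lf
      rw [H38.E1_coe, star_eq_conjTranspose]
      unfold Da
      rw [diagonal_conjTranspose, diagonal_map (star_zero K), diagonal_mul_diagonal,
        diagonal_mul_diagonal]
      congr 1
      funext k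
      by_cases hk : k = Fin.last m
      · subst hk
        simp [hα1]
      · simp [hk]
    · intro hL
      obtain ⟨x, hx, hx1, hPx⟩ := L1.exists_vec hL
      have h5 : x = ((hf (Pi.single (Fin.last m) (1 : K)) (Pi.single (Fin.last m) (1 : K)))⁻¹ *
          hf (Pi.single (Fin.last m) (1 : K)) x) • Pi.single (Fin.last m) (1 : K) := by
        have h6 : pr x *ᵥ x = x := by rw [pr_mulVec, hx1, inv_one, one_mul, one_smul]
        rw [← hPx, hE, pr_mulVec] at h6
        exact h6.symm
      set c := (hf (Pi.single (Fin.last m) (1 : K)) (Pi.single (Fin.last m) (1 : K)))⁻¹ *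
          hf (Pi.single (Fin.last m) (1 : K)) x with hc
      have h6 := fx_iff.1 hx (Fin.last m)
      have h7 : x (Fin.last m) = c := by
        rw [h5]; simp
      rw [if_pos (by simp), h7] at h6
      have h8 : star c * c = 1 := by
        rw [h5, hf_smul_right, hf_smul_left] at hx1
        have h9 : hf (Pi.single (Fin.last m) (1 : K)) (Pi.single (Fin.last m) (1 : K)) = 1 := by
          simp [hf]
        rw [h9] at hx1
        linear_combination hx1
      refine hα2 c (by linear_combination h8) ?_
      calc c * c = (α * star c) * c := by rw [h6]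
        _ = α * (star c * c) := by ring
        _ = α := by rw [h8, mul_one]

end

end Vale.Agent.P240.R2.H281EL
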