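import Mathlib

/-!
S2: the six pairs of orthogonal letters in a plane, for the trivial star, `|K| ≥ 11` odd.
-/

set_option autoImplicit false

namespace Vale.Agent.P240.R2.H281

open Finset Matrix
open scoped Classical

universe u v

noncomputable section

section circle

variable (K : Type u) [Field K] [Fintype K]

/-- the points of the circle -/
def circ : Finset (K × K) := univ.filter fun p => p.1 ^ 2 + p.2 ^ 2 = 1

variable {K}

lemma mem_circ {p : K × K} : p ∈ circ K ↔ p.1 ^ 2 + p.2 ^ 2 = 1 := by simp [circ]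

omit [Fintype K] in
lemma par_eq {t : K} (h : 1 + t ^ 2 ≠ 0) :
    ((1 - t ^ 2) / (1 + t ^ 2)) ^ 2 + (2 * t / (1 + t ^ 2)) ^ 2 = 1 := by
  field_simp
  ring

/-- parametrisation -/
def par (t : K) : K × K := ((1 - t ^ 2) / (1 + t ^ 2), 2 * t / (1 + t ^ 2))

lemma par_mem {t : K} (h : 1 + t ^ 2 ≠ 0) : par t ∈ circ K := by
  rw [mem_circ]
  exact par_eq h

omit [Fintype K] in
lemma par_back (h2 : (2 : K) ≠ 0) {t : K} (h : 1 + t ^ 2 ≠ 0) :
    t = (par t).2 / (1 + (par t).1) := by
  have h1 : (1 : K) + (par t).1 = 2 / (1 + t ^ 2) := by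
    simp only [par]
    field_simp
    ring
  rw [h1]
  simp only [par]
  field_simp

lemma card_circ (h2 : (2 : K) ≠ 0) :
    Fintype.card K + 1 ≤ (circ K).card + (univ.filter fun t : K => 1 + t ^ 2 = 0).card := by
  have h1 : ((univ.filter fun t : K => ¬ (1 + t ^ 2 = 0)).image par).card =
      (univ.filter fun t : K => ¬ (1 + t ^ 2 = 0)).card := by
    refine Finset.card_image_of_injOn ?_
    intro t ht s hs hts
    simp only [coe_filter, mem_univ, true_and, Set.mem_ofPred_eq] at ht hs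
    rw [par_back h2 ht, par_back h2 hs, hts]
  have h3 : insert ((-1 : K), (0 : K)) ((univ.filter fun t : K => ¬ (1 + t ^ 2 = 0)).image par) ⊆
      circ K := by
    intro p hp
    rcases Finset.mem_insert.mp hp with rfl | hp
    · simp [mem_circ]
    · obtain ⟨t, ht, rfl⟩ := Finset.mem_image.mp hp
      exact par_mem (by simpa using ht)
  have h4 : ((-1 : K), (0 : K)) ∉ (univ.filter fun t : K => ¬ (1 + t ^ 2 = 0)).image par := by
    intro hp
    obtain ⟨t, ht, h⟩ := Finset.mem_image.mp hp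
    have ht : 1 + t ^ 2 ≠ 0 := by simpa using ht
    have h5 : (par t).1 = -1 := by rw [h]
    simp only [par] at h5
    rw [div_eq_iff ht] at h5
    apply h2
    linear_combination h5
  have h6 := Finset.card_le_card h3
  rw [Finset.card_insert_of_notMem h4, h1] at h6
  have h7 := Finset.card_filter_add_card_filter_not (s := (univ : Finset K))
    (fun t : K => 1 + t ^ 2 = 0)
  rw [Finset.card_univ] at h7
  omega

lemma card_roots : (univ.filter fun t : K => 1 + t ^ 2 = 0).card ≤ 2 := by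
  by_cases h : ∃ t : K, 1 + t ^ 2 = 0
  · obtain ⟨t, ht⟩ := h
    refine (Finset.card_le_card (t := {t, -t}) ?_).trans Finset.card_le_two
    intro s hs
    simp only [mem_filter, mem_univ, true_and] at hs
    have h1 : (s - t) * (s + t) = 0 := by linear_combination hs - ht
    simp only [mem_insert, mem_singleton]
    rcases mul_eq_zero.mp h1 with h1 | h1
    · left; exact sub_eq_zero.mp h1
    · right; exact eq_neg_of_add_eq_zero_left h1
  · rw [Finset.filter_false_of_mem]
    · simp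
    · intro t _ ht
      exact h ⟨t, ht⟩

/-- at least twelve points -/
theorem twelve (h2 : (2 : K) ≠ 0) (hq : 11 ≤ Nat.card K) : 12 ≤ (circ K).card := by
  rw [Nat.card_eq_fintype_card] at hq
  have h1 := card_circ h2
  have h3 := card_roots (K := K)
  have hc : ringChar K ≠ 2 := by
    intro h
    apply h2
    have := ringChar.Nat.cast_ringChar (R := K)
    rw [h] at this
    exact_mod_cast this
  have h4 := FiniteField.odd_card_of_char_ne_two hc
  rcases Nat.lt_or_ge (Fintype.card K) 13 with h | h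
  · have h5 : Fintype.card K = 11 := by omega
    have h6 : (univ.filter fun t : K => 1 + t ^ 2 = 0).card = 0 := by
      rw [Finset.card_eq_zero, Finset.filter_eq_empty_iff]
      intro t _ ht
      have h7 : IsSquare (-1 : K) := ⟨t, by linear_combination -ht⟩
      rw [FiniteField.isSquare_neg_one_iff, h5] at h7
      exact h7 rfl
    omega
  · omega

end circle

section pairs

variable {K : Type u} [Field K] {ι : Type v} [Fintype ι] [DecidableEq ι]

/-- the projection onto the line of `a x + b y` -/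
def pr (x y : ι → K) (p : K × K) : Matrix ι ι K :=
  vecMulVec (p.1 • x + p.2 • y) (p.1 • x + p.2 • y)

omit [DecidableEq ι] in
lemma pr_dot {x y : ι → K} (hx : x ⬝ᵥ x = 1) (hy : y ⬝ᵥ y = 1) (hxy : x ⬝ᵥ y = 0)
    {a b c d : K} : (a • x + b • y) ⬝ᵥ (c • x + d • y) = a * c + b * d := by
  have hyx : y ⬝ᵥ x = 0 := by rw [dotProduct_comm]; exact hxy
  simp only [add_dotProduct, dotProduct_add, smul_dotProduct, dotProduct_smul, smul_eq_mul, hx,
    hy, hxy, hyx]
  ring

omit [DecidableEq ι] in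
/-- the entries of the matrix of the projection in the basis `x`, `y` -/
lemma pr_ent {x y : ι → K} (hx : x ⬝ᵥ x = 1) (hy : y ⬝ᵥ y = 1) (hxy : x ⬝ᵥ y = 0)
    {p : K × K} : x ⬝ᵥ (pr x y p *ᵥ x) = p.1 ^ 2 ∧ x ⬝ᵥ (pr x y p *ᵥ y) = p.1 * p.2 ∧
      y ⬝ᵥ (pr x y p *ᵥ y) = p.2 ^ 2 := by
  have e1 : ∀ a b : K, ∀ z : ι → K, z = a • x + b • y → x ⬝ᵥ z = a := by
    rintro a b z rfl
    have := pr_dot hx hy hxy (a := 1) (b := 0) (c := a) (d := b)
    simpa using this
  have e2 : ∀ a b : K, ∀ z : ι → K, z = a • x + b • y → y ⬝ᵥ z = b := by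
    rintro a b z rfl
    have := pr_dot hx hy hxy (a := 0) (b := 1) (c := a) (d := b)
    simpa using this
  have e3 : ∀ z : ι → K, pr x y p *ᵥ z = ((p.1 • x + p.2 • y) ⬝ᵥ z) • (p.1 • x + p.2 • y) := by
    intro z
    funext i
    simp only [pr, mulVec, vecMulVec, of_apply, dotProduct, Pi.smul_apply, smul_eq_mul,
      Finset.sum_mul]
    refine Finset.sum_congr rfl fun j _ => ?_
    ring
  have e4 : (p.1 • x + p.2 • y) ⬝ᵥ x = p.1 := by
    rw [dotProduct_comm]; exact e1 _ _ _ rfl
  have e5 : (p.1 • x + p.2 • y) ⬝ᵥ y = p.2 := by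
    rw [dotProduct_comm]; exact e2 _ _ _ rfl
  rw [e3, e3, e4, e5]
  simp only [dotProduct_smul, smul_eq_mul, e1 _ _ _ rfl, e2 _ _ _ rfl]
  refine ⟨by ring, by ring, by ring⟩

omit [DecidableEq ι] in
/-- the projection determines the point up to sign -/
lemma pr_inj {x y : ι → K} (hx : x ⬝ᵥ x = 1) (hy : y ⬝ᵥ y = 1) (hxy : x ⬝ᵥ y = 0)
    {p r : K × K} (h : pr x y p = pr x y r) : r = p ∨ r = -p := by
  obtain ⟨a1, a2, a3⟩ := pr_ent hx hy hxy (p := p)
  obtain ⟨b1, b2, b3⟩ := pr_ent hx hy hxy (p := r)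
  rw [h] at a1 a2 a3
  rw [a1] at b1
  rw [a2] at b2
  rw [a3] at b3
  obtain ⟨p1, p2⟩ := p
  obtain ⟨r1, r2⟩ := r
  simp only at b1 b2 b3
  simp only [Prod.mk.injEq, Prod.neg_mk]
  by_cases h0 : p1 = 0
  · subst h0
    have h1 : r1 = 0 := by
      have : r1 ^ 2 = 0 := by rw [← b1]; ring
      exact pow_eq_zero_iff (two_ne_zero) |>.mp this
    subst h1
    have h2 : (r2 - p2) * (r2 + p2) = 0 := by linear_combination -b3
    rcases mul_eq_zero.mp h2 with h2 | h2
    · left; exact ⟨rfl, sub_eq_zero.mp h2⟩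
    · right; exact ⟨by simp, eq_neg_of_add_eq_zero_left h2⟩
  · have h2 : (r1 - p1) * (r1 + p1) = 0 := by linear_combination -b1
    rcases mul_eq_zero.mp h2 with h2 | h2
    · left
      have h3 : r1 = p1 := sub_eq_zero.mp h2
      subst h3
      exact ⟨rfl, (mul_left_cancel₀ h0 b2).symm⟩
    · right
      have h3 : r1 = -p1 := eq_neg_of_add_eq_zero_left h2
      subst h3
      refine ⟨rfl, ?_⟩
      apply mul_left_cancel₀ h0
      linear_combination b2

variable (K) in
/-- the ordered pairs of orthogonal lines in the plane of `x`, `y` -/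
def prs [Fintype K] (x y : ι → K) : Finset (Matrix ι ι K × Matrix ι ι K) :=
  (circ K).image fun p => (pr x y p, pr x y (-p.2, p.1))

omit [DecidableEq ι] in
lemma card_prs [Fintype K] {x y : ι → K} (hx : x ⬝ᵥ x = 1) (hy : y ⬝ᵥ y = 1)
    (hxy : x ⬝ᵥ y = 0) : (circ K).card ≤ 2 * (prs K x y).card := by
  refine Finset.card_le_mul_card_image _ 2 ?_
  intro b hb
  obtain ⟨p, hp, rfl⟩ := Finset.mem_image.mp hb
  refine (Finset.card_le_card (t := {p, -p}) ?_).trans Finset.card_le_two
  intro r hr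
  simp only [mem_filter, Prod.mk.injEq] at hr
  simp only [mem_insert, mem_singleton]
  exact pr_inj hx hy hxy hr.2.1.symm

omit [DecidableEq ι] in
/-- S2, vectors: six ordered pairs -/
theorem six_vec [Fintype K] (h2 : (2 : K) ≠ 0) (hq : 11 ≤ Nat.card K) {x y : ι → K}
    (hx : x ⬝ᵥ x = 1) (hy : y ⬝ᵥ y = 1) (hxy : x ⬝ᵥ y = 0) :
    6 ≤ (prs K x y).card ∧ ∀ p ∈ prs K x y, ∃ x' y' : ι → K,
      x' ⬝ᵥ x' = 1 ∧ y' ⬝ᵥ y' = 1 ∧ x' ⬝ᵥ y' = 0 ∧ p.1 = vecMulVec x' x' ∧ p.2 = vecMulVec y' y' ∧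
      vecMulVec x' x' + vecMulVec y' y' = vecMulVec x x + vecMulVec y y := by
  refine ⟨?_, ?_⟩
  · have h1 := card_prs hx hy hxy
    have h3 := twelve h2 hq
    omega
  · intro p hp
    obtain ⟨r, hr, rfl⟩ := Finset.mem_image.mp hp
    rw [mem_circ] at hr
    refine ⟨r.1 • x + r.2 • y, (-r.2) • x + r.1 • y, ?_, ?_, ?_, rfl, rfl, ?_⟩
    · rw [pr_dot hx hy hxy]; linear_combination hr
    · rw [pr_dot hx hy hxy]; linear_combination hr
    · rw [pr_dot hx hy hxy]; ring
    · ext i j
      simp only [Matrix.add_apply, vecMulVec_apply, Pi.add_apply, Pi.smul_apply, smul_eq_mul]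
      linear_combination (x i * x j + y i * y j) * hr

end pairs

end

end Vale.Agent.P240.R2.H281
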