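import Vale.Agent.P240.R2.H38.V6
import Vale.Agent.P240.R2.H281.H90b

/-!
`H90 n 2 K` for the trivial star, `n` odd, `|K|` odd.
-/

set_option autoImplicit false

namespace Vale.Agent.P240.R2.H281

open Finset Matrix
open scoped Classical

universe u v

noncomputable section

variable {K : Type u} [Field K]

/-- the fixed field of an automorphism -/
def fxs (σ : K ≃+* K) : Subfield K where
  carrier := {x | σ x = x}
  mul_mem' := by
    intro a b ha hb
    simp only [Set.mem_ofPred_eq] at ha hb ⊢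
    rw [map_mul, ha, hb]
  one_mem' := map_one σ
  add_mem' := by
    intro a b ha hb
    simp only [Set.mem_ofPred_eq] at ha hb ⊢
    rw [map_add, ha, hb]
  zero_mem' := map_zero σ
  neg_mem' := by
    intro a ha
    simp only [Set.mem_ofPred_eq] at ha ⊢
    rw [map_neg, ha]
  inv_mem' := by
    intro a ha
    simp only [Set.mem_ofPred_eq] at ha ⊢
    rw [map_inv₀, ha]

lemma mem_fxs {σ : K ≃+* K} {x : K} : x ∈ fxs σ ↔ σ x = x := Iff.rfl

variable [Fintype K]

/-- elements of the fixed field of an involution are squares -/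
lemma isSquare_of_fxs (h2 : (2 : K) ≠ 0) {σ : K ≃+* K} {β : K} (hβ0 : β ≠ 0) (hβ : σ β = -β)
    (x : fxs σ) : IsSquare (x : K) := by
  by_cases hx : IsSquare x
  · obtain ⟨e, rfl⟩ := hx
    exact ⟨(e : K), rfl⟩
  · have hδ : β ^ 2 ∈ fxs σ := by
      rw [mem_fxs, map_pow, hβ]; ring
    have hnd : ¬ IsSquare (⟨β ^ 2, hδ⟩ : fxs σ) := by
      rintro ⟨e, he⟩
      have h1 : β ^ 2 = (e : K) * e := congrArg Subtype.val he
      have h3 : (β - e) * (β + e) = 0 := by linear_combination h1
      have h4 : σ β = β := by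
        rcases mul_eq_zero.mp h3 with h | h
        · rw [sub_eq_zero.mp h]; exact e.2
        · rw [eq_neg_of_add_eq_zero_left h, map_neg]
          congr 1
          exact e.2
      rw [hβ] at h4
      apply hβ0
      have h5 : 2 * β = 0 := by linear_combination -h4
      exact (mul_eq_zero.mp h5).resolve_left h2
    have hx0 : x ≠ 0 := by
      rintro rfl
      exact hx ⟨0, by simp⟩
    have hd0 : (⟨β ^ 2, hδ⟩ : fxs σ) ≠ 0 := by
      intro h
      exact pow_ne_zero 2 hβ0 (congrArg Subtype.val h)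
    have h6 : IsSquare (x * ⟨β ^ 2, hδ⟩) := by
      rw [← quadraticChar_one_iff_isSquare (mul_ne_zero hx0 hd0), map_mul,
        quadraticChar_neg_one_iff_not_isSquare.mpr hx,
        quadraticChar_neg_one_iff_not_isSquare.mpr hnd]
      norm_num
    obtain ⟨e, he⟩ := h6
    have h7 : (x : K) * β ^ 2 = (e : K) * e := congrArg Subtype.val he
    refine ⟨(e : K) / β, ?_⟩
    field_simp
    linear_combination h7

variable [StarRing K]

/-- `H90` for the trivial star -/
theorem h90_triv (hs : ∀ x : K, star x = x) (h2 : (2 : K) ≠ 0) {n : ℕ} (hn : Odd n) :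
    H38.H90 n 2 K := by
  intro σ _ hσ2 hσ1 a ha _
  have hσσ : ∀ x : K, σ (σ x) = x := by
    intro x
    have h := congrArg (fun f : RingAut K => f x) hσ2
    rw [pow_two] at h
    exact h
  obtain ⟨y, hy⟩ : ∃ y, σ y ≠ y := by
    by_contra hc
    push Not at hc
    exact hσ1 (RingEquiv.ext hc)
  obtain ⟨β, hβ0, hβ⟩ : ∃ β : K, β ≠ 0 ∧ σ β = -β :=
    ⟨y - σ y, sub_ne_zero.mpr (Ne.symm hy), by rw [map_sub, hσσ]; ring⟩
  have hb : ∀ i, ∃ b : K, b ≠ 0 ∧ a i * σ b = b ∧ σ (b ^ 2) = b ^ 2 := by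
    intro i
    have h1 := ha i
    rw [hs] at h1
    have h3 : (a i - 1) * (a i + 1) = 0 := by linear_combination h1
    rcases mul_eq_zero.mp h3 with h | h
    · refine ⟨1, one_ne_zero, ?_, by simp⟩
      rw [sub_eq_zero.mp h, map_one, mul_one]
    · refine ⟨β, hβ0, ?_, by rw [map_pow, hβ]; ring⟩
      rw [eq_neg_of_add_eq_zero_left h, hβ]
      ring
  choose b hb0 hb1 hb2 using hb
  let d : Fin n → fxs σ := fun i => ⟨b i ^ 2, hb2 i⟩
  have hd0 : ∀ i, d i ≠ 0 := by
    intro i h
    exact pow_ne_zero 2 (hb0 i) (congrArg Subtype.val h)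
  have h2' : (2 : fxs σ) ≠ 0 := by
    intro h
    apply h2
    have h3 := congrArg (fxs σ).subtype h
    rwa [map_ofNat, map_zero] at h3
  set D := ∏ i, d i with hD
  have hD0 : D ≠ 0 := Finset.prod_ne_zero_iff.mpr fun i _ => hd0 i
  obtain ⟨M, hM⟩ := exists_orthonormal (F := fxs σ) h2' _ (fun i => D⁻¹ * d i)
    (fun i => mul_ne_zero (inv_ne_zero hD0) (hd0 i)) (by
      rw [Finset.prod_mul_distrib, ← hD, Finset.prod_const, Finset.card_univ, Fintype.card_fin]
      obtain ⟨k, rfl⟩ := hn
      refine ⟨D⁻¹ ^ k, ?_⟩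
      rw [pow_succ, mul_assoc, inv_mul_cancel₀ hD0, mul_one]
      ring) rfl
  obtain ⟨s, hs1⟩ := isSquare_of_fxs h2 hβ0 hβ D⁻¹
  have hs0 : s ≠ 0 := by
    rintro rfl
    rw [mul_zero] at hs1
    exact inv_ne_zero hD0 (Subtype.ext hs1)
  let N : Matrix (Fin n) (Fin n) K := M.map (fxs σ).subtype
  have hN : Nᵀ * diagonal (fun i => ((D⁻¹ * d i : fxs σ) : K)) * N = 1 := by
    have h1 := congrArg (fun A => (fxs σ).subtype.mapMatrix A) hM
    simp only [map_mul, map_one, RingHom.mapMatrix_apply] at h1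
    rw [← h1]
    congr 2
    rw [diagonal_map (map_zero _)]
    rfl
  have hNs : N.map σ = N := by
    ext i j
    simp only [N, map_apply, Subfield.coe_subtype]
    exact (M i j).2
  have hst : ∀ A : Matrix (Fin n) (Fin n) K, star A = Aᵀ := by
    intro A
    ext i j
    rw [star_apply, hs, transpose_apply]
  have hu : s • (diagonal b * N) ∈ Matrix.unitaryGroup (Fin n) K := by
    rw [Matrix.mem_unitaryGroup_iff', hst, transpose_smul, transpose_mul, diagonal_transpose,
      smul_mul_smul_comm, ← hN]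
    have h3 : Nᵀ * diagonal b * (diagonal b * N) =
        Nᵀ * diagonal (fun i => ((d i : fxs σ) : K)) * N := by
      rw [mul_assoc, ← mul_assoc (diagonal b), diagonal_mul_diagonal, ← mul_assoc]
      congr 3
      funext i
      simp only [d]
      ring
    rw [h3, ← hs1, ← smul_mul_assoc, ← mul_smul_comm]
    congr 2
    ext i j
    rw [Matrix.smul_apply, diagonal_apply, diagonal_apply]
    by_cases h : i = j
    · rw [if_pos h, if_pos h]; rfl
    · rw [if_neg h, if_neg h, smul_zero]
  refine ⟨⟨_, hu⟩, σ s / s, ?_⟩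
  ext i j
  rw [diagonal_mul, map_apply, Matrix.smul_apply]
  change a i * σ ((s • (diagonal b * N) : Matrix (Fin n) (Fin n) K) i j) =
    (σ s / s) • ((s • (diagonal b * N) : Matrix (Fin n) (Fin n) K) i j)
  rw [Matrix.smul_apply, diagonal_mul, smul_eq_mul, smul_eq_mul, map_mul, map_mul]
  have h1 : σ (N i j) = N i j := congrFun (congrFun hNs i) j
  rw [h1]
  have h3 := hb1 i
  field_simp
  linear_combination (σ s * N i j) * h3

end

end Vale.Agent.P240.R2.H281
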