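import Vale.Agent.P240.R2.H281.DC
import Vale.Agent.P240.R2.H275.DF

/-!
`StmtDC` without hypotheses.
-/

set_option autoImplicit false

namespace Vale.Agent.P240.R2.H281DC

universe u v

/-- (DC) -/
theorem stmtDC : H401.D.StmtDC.{u, v} := stmtDC_of H275.stmtDF

end Vale.Agent.P240.R2.H281DC
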