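import Vale.Agent.P240.R2.H986.X.X4
import Vale.Agent.P240.R2.H164.EX2

/-!
Few automorphisms of order `p` for the groups given by Chevalley's relations, when `p` divides the
order of the group of automorphisms of the diagram or the determinant of the Cartan matrix.
-/

set_option autoImplicit false

namespace Vale.Agent.P240.R2.H281EA

open Subgroup Vale.Agent.P240.K Vale.Agent.P240.H195 Vale.Agent.P240.R2.H986.X
  Vale.Agent.P240.R2.H997 Vale.Agent.P240.R2.H164.EX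

universe u

/-! ### group theory -/

section
variable {Q : Type*} [Group Q]

/-- the last step -/
lemma last {I : Subgroup Q} {e e' f g : Q} (hef : e ∈ zpowers f ⊔ I) (hge : g ∈ zpowers e' ⊔ I)
    {k : ℤ} (hδ : e' * e ^ k ∈ I) : g ∈ zpowers f ⊔ I := by
  have h1 : zpowers e ⊔ I ≤ zpowers f ⊔ I :=
    sup_le (by rw [zpowers_le]; exact hef) le_sup_right
  have he' : e' ∈ zpowers e ⊔ I := by
    have h2 : e' = (e' * e ^ k) * e ^ (-k) := by
      rw [mul_assoc, ← zpow_add, add_neg_cancel, zpow_zero, mul_one]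
    rw [h2]
    exact mul_mem ((le_sup_right : I ≤ _) hδ)
      ((le_sup_left : zpowers e ≤ _) (zpow_mem (mem_zpowers e) _))
  have h2 : zpowers e' ⊔ I ≤ zpowers f ⊔ I :=
    sup_le (by rw [zpowers_le]; exact h1 he') le_sup_right
  exact h2 hge

end

section
variable {ι : Type*} {F : Type*} [Field F] {L : Type u} [Group L] {C : RC ι} {x : ι → F → L}

/-! ### automorphisms that act by scalars -/

/-- the number of units is prime to `d` -/
lemma inner_of_coprime [Finite F] (h : CS C x) {d : ℕ} {Δ : Finset ι} {D : ι → ι → ℤ}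
    (hΔ : ∀ i, i ∈ Δ ↔ C.simp i)
    (hD : ∀ i j, C.simp i → C.simp j → ∑ k ∈ Δ, D i k * C.pr j k =
      open scoped Classical in if i = j then (d : ℤ) else 0)
    (hcop : Nat.Coprime d (Nat.card F - 1)) {e : MulAut L} {c : ι → F}
    (he : Al C x e (1 : RingAut F) c) : e ∈ (MulAut.conj (G := L)).range := by
  classical
  have h1 : e ^ (Nat.card F - 1) = 1 := by
    refine ext_simple h fun i hi t => ?_
    have := Fintype.ofFinite F
    obtain ⟨h2, h3⟩ := Al_pow he (Nat.card F - 1) i hi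
    have h4 : c i ^ (Nat.card F - 1) = 1 := by
      rw [Nat.card_eq_fintype_card]
      exact FiniteField.pow_card_sub_one_eq_one _ (he i hi).1
    rw [(h3 t).1, (h3 t).2]
    simp only [h4, inv_one, one_mul, RingAut.one_apply, MulAut.one_apply, and_self]
  refine mem_of_two hcop (inner_pow (D := D) h hΔ ?_ he) (by rw [h1]; exact one_mem _)
  intro i j hi hj
  convert hD i j hi hj

/-- the characters `w ^ γ` with `γ` in the lattice -/
lemma exists_T2 (h : CS C x) {d : ℕ} {Δ : Finset ι} {D : ι → ι → ℤ}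
    (hΔ : ∀ i, i ∈ Δ ↔ C.simp i)
    (hD : ∀ i j, C.simp i → C.simp j → ∑ k ∈ Δ, D i k * C.pr j k =
      open scoped Classical in if i = j then (d : ℤ) else 0) (hd : d ≠ 0) (w : Fˣ) (γ a : ι → ℤ)
    (ha : ∀ k ∈ Δ, ∑ i ∈ Δ, γ i * D i k = d * a k) :
    ∃ g : L, ∀ j, C.simp j → ∀ u, g * x j u * g⁻¹ = x j ((w ^ γ j : Fˣ) * u) ∧
      g * x (C.neg j) u * g⁻¹ = x (C.neg j) (((w ^ γ j)⁻¹ : Fˣ) * u) := by
  classical
  set t : ι → Fˣ := fun k => w ^ a k with ht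
  have key : ∀ j, C.simp j → ∏ k ∈ Δ, t k ^ C.pr j k = w ^ γ j := by
    intro j hj
    have e1 : ∀ k, t k ^ C.pr j k = w ^ (a k * C.pr j k) := by
      intro k
      rw [ht, zpow_mul]
    rw [Finset.prod_congr rfl fun k _ => e1 k, prod_zpow_sum w Δ fun k => a k * C.pr j k]
    have e2 : (d : ℤ) * ∑ k ∈ Δ, a k * C.pr j k = d * γ j := by
      have e3 : (d : ℤ) * ∑ k ∈ Δ, a k * C.pr j k =
          ∑ k ∈ Δ, ∑ i ∈ Δ, γ i * (D i k * C.pr j k) := by
        rw [Finset.mul_sum]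
        refine Finset.sum_congr rfl fun k hk => ?_
        rw [← mul_assoc, ← ha k hk, Finset.sum_mul]
        exact Finset.sum_congr rfl fun i _ => by ring
      rw [e3, Finset.sum_comm, Finset.sum_eq_single_of_mem j ((hΔ j).2 hj)]
      · rw [← Finset.mul_sum, hD j j hj hj, if_pos rfl, mul_comm]
      · intro i hi hij
        rw [← Finset.mul_sum, hD i j ((hΔ i).1 hi) hj, if_neg hij, mul_zero]
    rw [mul_left_cancel₀ (by exact_mod_cast hd) e2]
  refine ⟨(Δ.toList.map fun k => nn C.neg x k (t k : F) * (nn C.neg x k 1)⁻¹).prod,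
    fun j hj u => ⟨?_, ?_⟩⟩
  · rw [hh_list h, Finset.prod_map_toList, key j hj]
  · rw [hh_list h, Finset.prod_map_toList]
    have e1 : ∏ k ∈ Δ, t k ^ C.pr (C.neg j) k = (w ^ γ j)⁻¹ := by
      rw [← key j hj, ← Finset.prod_inv_distrib]
      refine Finset.prod_congr rfl fun k _ => ?_
      rw [C.pr_neg, zpow_neg]
    rw [e1]

/-- an automorphism with scalars `w ^ γ` is inner if `γ` is in the lattice -/
lemma inner_of_exp (h : CS C x) {d : ℕ} {Δ : Finset ι} {D : ι → ι → ℤ}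
    (hΔ : ∀ i, i ∈ Δ ↔ C.simp i)
    (hD : ∀ i j, C.simp i → C.simp j → ∑ k ∈ Δ, D i k * C.pr j k =
      open scoped Classical in if i = j then (d : ℤ) else 0) (hd : d ≠ 0) (w : Fˣ) (γ a : ι → ℤ)
    (ha : ∀ k ∈ Δ, ∑ i ∈ Δ, γ i * D i k = d * a k) {e : MulAut L} {c : ι → F}
    (he : Al C x e (1 : RingAut F) c) (hc : ∀ i, C.simp i → c i = (w ^ γ i : Fˣ)) :
    e ∈ (MulAut.conj (G := L)).range := by
  obtain ⟨g, hg⟩ := exists_T2 h hΔ hD hd w γ a ha
  refine ⟨g, (ext_simple h fun i hi t => ?_).symm⟩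
  obtain ⟨-, h1⟩ := he i hi
  have h3 := hg i hi t
  rw [Units.val_inv_eq_inv_val, ← hc i hi] at h3
  rw [MulAut.conj_apply, MulAut.conj_apply, h3.1, h3.2, (h1 t).1, (h1 t).2, RingAut.one_apply]
  exact ⟨rfl, rfl⟩

/-! ### normal form -/

section
variable [Finite ι] [Finite F] [Finite L] {r : ℕ} [hr : Fact r.Prime] [hF : CharP F r]
include hr hF

/-- the normal form of an outer automorphism of order `p` -/
theorem norm_e (h : CS C x) (hcen : ∀ g : L, (∀ y, g * y = y * g) → g = 1) {p : ℕ} (hp : p.Prime)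
    {f : MulAut L} (hf : OutAut p f) :
    ∃ e : MulAut L, (∃ a, e ^ p ^ a = 1) ∧ am e (BB C x) = BB C x ∧
      am e (BB C.opp x) = BB C.opp x ∧
      e ∈ zpowers f ⊔ (MulAut.conj (G := L)).range ∧
      f ∈ zpowers e ⊔ (MulAut.conj (G := L)).range ∧
      e ^ p ∈ (MulAut.conj (G := L)).range ∧ e ∉ (MulAut.conj (G := L)).range := by
  obtain ⟨h1, -, -, -⟩ := h.data (r := r) hcen
  obtain ⟨l, hls, hl⟩ := C.long
  obtain ⟨e, h2, h3, h4, h5⟩ := exists_e h1 hr.out hp (CS.nl_mem hls) (opp_nl h hl) hf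
  rw [h.cj_BB hl] at h4
  exact ⟨e, h2, h3, h4, h5⟩

/-- the field automorphism is trivial for inner automorphisms -/
theorem sig_one (h : CS C x) (hcen : ∀ g : L, (∀ y, g * y = y * g) → g = 1) {e : MulAut L}
    (heI : e ∈ (MulAut.conj (G := L)).range) (heB : am e (BB C x) = BB C x)
    (heO : am e (BB C.opp x) = BB C.opp x) {σ : RingAut F} {c : ι → F}
    (he : Al C x e σ c) : σ = 1 := by
  obtain ⟨h1, -, -, -⟩ := h.data (r := r) hcen
  obtain ⟨l, hls, hl⟩ := C.long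
  exact sigma_one hr.out h h1 hls hl heI heB (by rw [h.cj_BB hl]; exact heO) he

/-- the normal form if there are no automorphisms of the diagram of order `p` -/
theorem norm_A (h : CS C x) (hcen : ∀ g : L, (∀ y, g * y = y * g) → g = 1) {p : ℕ} (hp : p.Prime)
    (hperm : ∀ π : Equiv.Perm {i // C.simp i}, (∃ k, π ^ p ^ k = 1) →
      (∀ i j, C.pr i.1 j.1 = 0 ↔ C.pr (π i).1 (π j).1 = 0) → π = 1)
    {f : MulAut L} (hf : OutAut p f) : ∃ (e : MulAut L) (σ : RingAut F),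
      (e, σ) ∈ AG C x ∧ σ ^ p = 1 ∧ e ∈ zpowers f ⊔ (MulAut.conj (G := L)).range ∧
      f ∈ zpowers e ⊔ (MulAut.conj (G := L)).range ∧ e ∉ (MulAut.conj (G := L)).range := by
  obtain ⟨e, ⟨a, hea⟩, heB, heO, hef, hfe, hep, heI⟩ := norm_e h hcen (r := r) hp hf
  obtain ⟨h1, h2, h3, h4⟩ := h.data (r := r) hcen
  obtain ⟨π, hπ1, hπ2, hπ4, -⟩ := h.x4b' hr.out h1 h2 h3 h4 heB heO
  have hπ : π = 1 := hperm π ⟨a, hπ4 _ hea⟩ hπ2
  obtain ⟨σ, c, hc⟩ := h.x4a hr.out h1 h2 h3 h4 heB heO (by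
    rintro s ⟨i, hi, rfl⟩
    have := hπ1 ⟨i, hi⟩
    rw [hπ] at this
    exact this)
  have hAG : (e, (σ : RingAut F)) ∈ AG C x := ⟨c, hc⟩
  obtain ⟨c', hc'⟩ : (e ^ p, (σ : RingAut F) ^ p) ∈ AG C x := pow_mem hAG p
  exact ⟨e, σ, hAG, sig_one h hcen (r := r) hep (am_pow_eq heB p) (am_pow_eq heO p) hc', hef, hfe,
    heI⟩

/-- **few automorphisms, first case**: no automorphisms of the diagram of order `p`, and the number of
units is prime to the determinant -/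
theorem key_B1 (h : CS C x) (hcen : ∀ g : L, (∀ y, g * y = y * g) → g = 1) {p : ℕ} (hp : p.Prime)
    (hperm : ∀ π : Equiv.Perm {i // C.simp i}, (∃ k, π ^ p ^ k = 1) →
      (∀ i j, C.pr i.1 j.1 = 0 ↔ C.pr (π i).1 (π j).1 = 0) → π = 1)
    {d : ℕ} {Δ : Finset ι} {D : ι → ι → ℤ} (hΔ : ∀ i, i ∈ Δ ↔ C.simp i)
    (hD : ∀ i j, C.simp i → C.simp j → ∑ k ∈ Δ, D i k * C.pr j k =
      open scoped Classical in if i = j then (d : ℤ) else 0)
    (hcop : Nat.Coprime d (Nat.card F - 1)) (f g : MulAut L) (hf : OutAut p f)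
    (hg : OutAut p g) : g ∈ zpowers f ⊔ (MulAut.conj (G := L)).range := by
  have hcyc : IsCyclic (RingAut F) := ff_cyclic
  have hfin : Finite (RingAut F) := Finite.of_injective (fun f : RingAut F => (f : F → F))
    DFunLike.coe_injective
  obtain ⟨e, σ, hAG, hσp, hef, -, heI⟩ := norm_A h hcen (r := r) hp hperm hf
  obtain ⟨e', σ', hAG', hσp', -, hge, -⟩ := norm_A h hcen (r := r) hp hperm hg
  have hσ1 : σ ≠ 1 := by
    rintro rfl
    obtain ⟨c, hc⟩ := hAG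
    exact heI (inner_of_coprime h hΔ hD hcop hc)
  obtain ⟨k, hk⟩ := mem_zpowers_cyc hp hσp hσ1 hσp'
  have hk' : σ ^ k = σ' := hk
  obtain ⟨c, hc⟩ : (e' * e ^ (-k), (1 : RingAut F)) ∈ AG C x := by
    have h1 := mul_mem hAG' (zpow_mem hAG (-k))
    have h2 : (e', σ') * (e, σ) ^ (-k) = (e' * e ^ (-k), (1 : RingAut F)) := by
      rw [Prod.ext_iff]
      refine ⟨rfl, ?_⟩
      change σ' * σ ^ (-k) = 1
      rw [← hk', ← zpow_add, add_neg_cancel, zpow_zero]
    rwa [h2] at h1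
  exact last hef hge (inner_of_coprime h hΔ hD hcop hc)

/-- **few automorphisms, second case**: no automorphisms of the diagram or of `F` of order `p`, the
determinant is `p`, and the matrix `D` has rank one modulo `p` -/
theorem key_B2 (h : CS C x) (hcen : ∀ g : L, (∀ y, g * y = y * g) → g = 1) {p : ℕ} (hp : p.Prime)
    (hperm : ∀ π : Equiv.Perm {i // C.simp i}, (∃ k, π ^ p ^ k = 1) →
      (∀ i j, C.pr i.1 j.1 = 0 ↔ C.pr (π i).1 (π j).1 = 0) → π = 1)
    {Δ : Finset ι} {D : ι → ι → ℤ} (hΔ : ∀ i, i ∈ Δ ↔ C.simp i)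
    (hD : ∀ i j, C.simp i → C.simp j → ∑ k ∈ Δ, D i k * C.pr j k =
      open scoped Classical in if i = j then (p : ℤ) else 0)
    {m n : ι → ℤ} (hmn : ∀ i ∈ Δ, ∀ k ∈ Δ, (p : ℤ) ∣ D i k - m i * n k)
    (hσ : Nat.Coprime p (Nat.card (RingAut F))) (f g : MulAut L) (hf : OutAut p f)
    (hg : OutAut p g) : g ∈ zpowers f ⊔ (MulAut.conj (G := L)).range := by
  classical
  have hpf : Fact p.Prime := ⟨hp⟩
  have hfin : Finite (RingAut F) := Finite.of_injective (fun f : RingAut F => (f : F → F))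
    DFunLike.coe_injective
  obtain ⟨e, σ, ⟨c, hc⟩, hσp, hef, -, heI⟩ := norm_A h hcen (r := r) hp hperm hf
  obtain ⟨e', σ', ⟨c', hc'⟩, hσp', -, hge, -⟩ := norm_A h hcen (r := r) hp hperm hg
  have hone : ∀ τ : RingAut F, τ ^ p = 1 → τ = 1 := by
    intro τ hτ
    have h1 : orderOf τ ∣ Nat.gcd p (Nat.card (RingAut F)) :=
      Nat.dvd_gcd (orderOf_dvd_of_pow_eq_one hτ) (orderOf_dvd_natCard τ)
    rw [hσ.gcd_eq_one, Nat.dvd_one, orderOf_eq_one_iff] at h1
    exact h1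
  obtain rfl := hone σ hσp
  obtain rfl := hone σ' hσp'
  change Al C x e (1 : RingAut F) c at hc
  change Al C x e' (1 : RingAut F) c' at hc'
  obtain ⟨w, hw⟩ := IsCyclic.exists_generator (α := Fˣ)
  have hγ : ∀ c : ι → F, (∀ i, C.simp i → c i ≠ 0) →
      ∃ γ : ι → ℤ, ∀ i, C.simp i → c i = (w ^ γ i : Fˣ) := by
    intro c hc
    have h1 : ∀ i, ∃ n : ℤ, C.simp i → c i = (w ^ n : Fˣ) := by
      intro i
      by_cases hi : C.simp i
      · obtain ⟨n, hn⟩ := mem_zpowers_iff.1 (hw (Units.mk0 (c i) (hc i hi)))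
        exact ⟨n, fun _ => by rw [hn, Units.val_mk0]⟩
      · exact ⟨0, fun h => absurd h hi⟩
    choose γ hγ using h1
    exact ⟨γ, hγ⟩
  obtain ⟨γ, hγ1⟩ := hγ c fun i hi => (hc i hi).1
  obtain ⟨γ', hγ2⟩ := hγ c' fun i hi => (hc' i hi).1
  -- the criterion
  have crit : ∀ γ : ι → ℤ, (p : ℤ) ∣ ∑ i ∈ Δ, γ i * m i →
      ∃ a : ι → ℤ, ∀ k ∈ Δ, ∑ i ∈ Δ, γ i * D i k = p * a k := by
    intro γ hdvd
    have h1 : ∀ k, ∃ b : ℤ, k ∈ Δ → ∑ i ∈ Δ, γ i * D i k = p * b := by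
      intro k
      by_cases hk : k ∈ Δ
      · have h2 : ∑ i ∈ Δ, γ i * D i k =
            ∑ i ∈ Δ, γ i * (D i k - m i * n k) + (∑ i ∈ Δ, γ i * m i) * n k := by
          rw [Finset.sum_mul, ← Finset.sum_add_distrib]
          exact Finset.sum_congr rfl fun i _ => by ring
        have h3 : (p : ℤ) ∣ ∑ i ∈ Δ, γ i * D i k := by
          rw [h2]
          refine dvd_add (Finset.dvd_sum fun i hi => ?_) (Dvd.dvd.mul_right hdvd _)
          exact Dvd.dvd.mul_left (hmn i hi k hk) _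
        obtain ⟨b, hb⟩ := h3
        exact ⟨b, fun _ => hb⟩
      · exact ⟨0, fun h => absurd h hk⟩
    choose a ha using h1
    exact ⟨a, ha⟩
  have hs : ((∑ i ∈ Δ, γ i * m i : ℤ) : ZMod p) ≠ 0 := by
    intro h0
    obtain ⟨a, ha⟩ := crit γ ((ZMod.intCast_zmod_eq_zero_iff_dvd _ p).1 h0)
    exact heI (inner_of_exp h hΔ hD hp.ne_zero w γ a ha hc hγ1)
  -- the exponent
  set s : ZMod p := ((∑ i ∈ Δ, γ i * m i : ℤ) : ZMod p) with hs'
  set s' : ZMod p := ((∑ i ∈ Δ, γ' i * m i : ℤ) : ZMod p) with hs''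
  obtain ⟨k, hk⟩ : ∃ k : ℕ, s' + (k : ZMod p) * s = 0 := by
    refine ⟨(-s' / s).val, ?_⟩
    rw [ZMod.natCast_val, ZMod.cast_id', id, div_mul_cancel₀ _ hs, add_neg_cancel]
  have h5 : Al C x (e' * e ^ k) (1 : RingAut F) (fun i => c' i * c i ^ k) := by
    have h6 := Al_mul hc' (Al_pow hc k)
    rw [mul_one] at h6
    exact h6
  obtain ⟨a, ha⟩ := crit (fun i => γ' i + k * γ i) (by
    rw [← ZMod.intCast_zmod_eq_zero_iff_dvd]
    have h6 : ∑ i ∈ Δ, (γ' i + k * γ i) * m i =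
        ∑ i ∈ Δ, γ' i * m i + k * ∑ i ∈ Δ, γ i * m i := by
      rw [Finset.mul_sum, ← Finset.sum_add_distrib]
      exact Finset.sum_congr rfl fun i _ => by ring
    rw [h6, Int.cast_add, Int.cast_mul, Int.cast_natCast]
    exact hk)
  refine last hef hge (k := (k : ℤ)) ?_
  rw [zpow_natCast]
  refine inner_of_exp h hΔ hD hp.ne_zero w _ a ha h5 fun i hi => ?_
  rw [hγ1 i hi, hγ2 i hi, zpow_add, Units.val_mul, mul_comm (k : ℤ), zpow_mul, zpow_natCast,
    Units.val_pow_eq_pow_val]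

end

/-! ### automorphisms of the diagram -/

/-- the action with a permutation of the simple roots -/
def Alp (C : RC ι) (x : ι → F → L) (e : MulAut L) (π : Equiv.Perm {i // C.simp i}) (σ : RingAut F)
    (c : {i // C.simp i} → F) : Prop :=
  ∀ i, c i ≠ 0 ∧ ∀ t, e (x i.1 t) = x (π i).1 (c i * σ t) ∧
    e (x (C.neg i.1) t) = x (C.neg (π i).1) ((c i)⁻¹ * σ t)

lemma Alp_mul {e e' : MulAut L} {π π' : Equiv.Perm {i // C.simp i}} {σ σ' : RingAut F}
    {c c' : {i // C.simp i} → F} (h : Alp C x e π σ c) (h' : Alp C x e' π' σ' c') :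
    Alp C x (e * e') (π * π') (σ * σ') (fun i => c (π' i) * σ (c' i)) := by
  intro i
  obtain ⟨h0', h1'⟩ := h' i
  obtain ⟨h0, h1⟩ := h (π' i)
  refine ⟨mul_ne_zero h0 ((map_ne_zero σ).2 h0'), fun t => ⟨?_, ?_⟩⟩
  · rw [MulAut.mul_apply, (h1' t).1, (h1 _).1, map_mul, RingAut.mul_apply, mul_assoc]
    rfl
  · rw [MulAut.mul_apply, (h1' t).2, (h1 _).2, map_mul, map_inv₀, RingAut.mul_apply, mul_inv,
      mul_assoc]
    rfl

lemma Alp_pow {e : MulAut L} {π : Equiv.Perm {i // C.simp i}} {σ : RingAut F}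
    {c : {i // C.simp i} → F} (h : Alp C x e π σ c) (k : ℕ) :
    ∃ c', Alp C x (e ^ k) (π ^ k) (σ ^ k) c' := by
  induction k with
  | zero => exact ⟨fun _ => 1, fun i => ⟨one_ne_zero, fun t => by simp⟩⟩
  | succ k ih =>
    obtain ⟨c', h'⟩ := ih
    rw [pow_succ, pow_succ, pow_succ]
    exact ⟨_, Alp_mul h' h⟩

lemma Alp.al {e : MulAut L} {σ : RingAut F} {c : {i // C.simp i} → F} (h : Alp C x e 1 σ c) :
    ∃ c', Al C x e σ c' := by
  classical
  refine ⟨fun i => if hi : C.simp i then c ⟨i, hi⟩ else 1, fun i hi => ?_⟩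
  simp only [dif_pos hi]
  exact h ⟨i, hi⟩

lemma sigma_of_one (h : CS C x) {σ : RingAut F} {c : ι → F} (he : Al C x 1 σ c) : σ = 1 := by
  obtain ⟨i, hi⟩ := C.ex
  obtain ⟨h5, h6⟩ := he i hi
  have h7 : ∀ s, c i * σ s = s := by
    intro s
    apply h.x_inj (i := i)
    rw [← (h6 s).1, MulAut.one_apply]
  have h8 : c i = 1 := by
    have := h7 1
    rwa [map_one, mul_one] at this
  ext s
  have h9 := h7 s
  rw [h8, one_mul] at h9
  rw [h9, RingAut.one_apply]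

section
variable [Finite ι] [Finite F] [Finite L] {r : ℕ} [hr : Fact r.Prime] [hF : CharP F r]
include hr hF

/-- the action of automorphisms that stabilize `B` and the opposite subgroup, for a diagram whose
automorphisms preserve the Cartan integers -/
theorem exists_Alp (h : CS C x) (hcen : ∀ g : L, (∀ y, g * y = y * g) → g = 1)
    (hlab : ∀ π : Equiv.Perm {i // C.simp i},
      (∀ i j, C.pr i.1 j.1 = 0 ↔ C.pr (π i).1 (π j).1 = 0) →
      ∀ i j, C.pr i.1 j.1 = C.pr (π i).1 (π j).1)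
    {e : MulAut L} (heB : am e (BB C x) = BB C x) (heO : am e (BB C.opp x) = BB C.opp x) :
    ∃ (π : Equiv.Perm {i // C.simp i}) (σ : RingAut F) (c : {i // C.simp i} → F),
      Alp C x e π σ c ∧ (∀ i j, C.pr i.1 j.1 = 0 ↔ C.pr (π i).1 (π j).1 = 0) ∧
      ∀ n : ℕ, e ^ n = 1 → π ^ n = 1 := by
  obtain ⟨h1, h2, h3, h4⟩ := h.data (r := r) hcen
  obtain ⟨π, -, hπ2, hπ4, σ, c, hc⟩ := h.x4b' hr.out h1 h2 h3 h4 heB heO
  have hrel : ∀ i j : {i // C.simp i}, ∀ t : F, t ≠ 0 →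
      σ j t ^ C.pr j.1 i.1 = σ i t ^ C.pr j.1 i.1 := by
    intro i j t ht
    have h5 := h.torus_rel (hc i).1 (hc j).1 (hc i).2 (fun t => ((hc j).2 t).1) ht
    rwa [← hlab π hπ2 j i] at h5
  have hadj : ∀ i j : {i // C.simp i}, C.pr j.1 i.1 ≠ 0 → σ j = σ i := by
    intro i j hij
    by_cases hne : i = j
    · rw [hne]
    have key : ∀ a b : {i // C.simp i}, C.pr b.1 a.1 = -1 → σ b = σ a := by
      intro a b hab
      ext t
      by_cases ht : t = 0
      · rw [ht, map_zero, map_zero]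
      · have h2 := hrel a b t ht
        rw [hab, zpow_neg_one, zpow_neg_one] at h2
        exact inv_injective h2
    rcases (C.adj i.1 j.1 i.2 j.2 (fun h => hne (Subtype.ext h)) hij).2 with h2 | h2
    · exact key i j h2
    · exact (key j i h2).symm
  obtain ⟨i₀, hi₀⟩ := C.ex
  have hall : ∀ j, C.simp j → ∀ hj : C.simp j, σ ⟨j, hj⟩ = σ ⟨i₀, hi₀⟩ :=
    C.conn (fun j => ∀ hj : C.simp j, σ ⟨j, hj⟩ = σ ⟨i₀, hi₀⟩) ⟨i₀, hi₀, fun _ => rfl⟩
      (fun i j hi hj hpi hij hj' => (hadj ⟨i, hi⟩ ⟨j, hj⟩ hij).trans (hpi hi))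
  refine ⟨π, σ ⟨i₀, hi₀⟩, c, fun i => ?_, hπ2, hπ4⟩
  have h5 := hc i
  rw [show σ i = σ ⟨i₀, hi₀⟩ from hall i.1 i.2 i.2] at h5
  exact h5

/-- **few automorphisms, third case**: `p = 2`, one automorphism of the diagram, `F` has no
automorphisms of order `2`, and the number of units is prime to the determinant -/
theorem key_A (h : CS C x) (hcen : ∀ g : L, (∀ y, g * y = y * g) → g = 1)
    (hlab : ∀ π : Equiv.Perm {i // C.simp i},
      (∀ i j, C.pr i.1 j.1 = 0 ↔ C.pr (π i).1 (π j).1 = 0) →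
      ∀ i j, C.pr i.1 j.1 = C.pr (π i).1 (π j).1)
    (huniq : ∀ π π' : Equiv.Perm {i // C.simp i},
      (∀ i j, C.pr i.1 j.1 = 0 ↔ C.pr (π i).1 (π j).1 = 0) →
      (∀ i j, C.pr i.1 j.1 = 0 ↔ C.pr (π' i).1 (π' j).1 = 0) → π ≠ 1 → π' ≠ 1 → π' * π = 1)
    {d : ℕ} {Δ : Finset ι} {D : ι → ι → ℤ} (hΔ : ∀ i, i ∈ Δ ↔ C.simp i)
    (hD : ∀ i j, C.simp i → C.simp j → ∑ k ∈ Δ, D i k * C.pr j k =
      open scoped Classical in if i = j then (d : ℤ) else 0)
    (hcop : Nat.Coprime d (Nat.card F - 1)) (hσ : Nat.Coprime 2 (Nat.card (RingAut F)))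
    (f g : MulAut L) (hf : OutAut 2 f) (hg : OutAut 2 g) :
    g ∈ zpowers f ⊔ (MulAut.conj (G := L)).range := by
  have hfin : Finite (RingAut F) := Finite.of_injective (fun f : RingAut F => (f : F → F))
    DFunLike.coe_injective
  have norm : ∀ f : MulAut L, OutAut 2 f → ∃ (e : MulAut L) (π : Equiv.Perm {i // C.simp i})
      (c : {i // C.simp i} → F), Alp C x e π 1 c ∧
      (∀ i j, C.pr i.1 j.1 = 0 ↔ C.pr (π i).1 (π j).1 = 0) ∧ π ≠ 1 ∧
      e ∈ zpowers f ⊔ (MulAut.conj (G := L)).range ∧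
      f ∈ zpowers e ⊔ (MulAut.conj (G := L)).range := by
    intro f hf
    obtain ⟨e, ⟨a, hea⟩, heB, heO, hef, hfe, hep, heI⟩ := norm_e h hcen (r := r) Nat.prime_two hf
    obtain ⟨π, σ, c, hc, hπ, hπ4⟩ := exists_Alp h hcen (r := r) hlab heB heO
    have hσ1 : σ ^ 2 ^ a = 1 := by
      obtain ⟨c', hc'⟩ := Alp_pow hc (2 ^ a)
      rw [hea, hπ4 _ hea] at hc'
      obtain ⟨c'', hc''⟩ := hc'.al
      exact sigma_of_one h hc''
    obtain rfl : σ = 1 := by
      have h1 : orderOf σ ∣ Nat.gcd (2 ^ a) (Nat.card (RingAut F)) :=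
        Nat.dvd_gcd (orderOf_dvd_of_pow_eq_one hσ1) (orderOf_dvd_natCard σ)
      rw [(Nat.Coprime.pow_left a hσ).gcd_eq_one, Nat.dvd_one, orderOf_eq_one_iff] at h1
      exact h1
    refine ⟨e, π, c, hc, hπ, ?_, hef, hfe⟩
    rintro rfl
    obtain ⟨c', hc'⟩ := hc.al
    exact heI (inner_of_coprime h hΔ hD hcop hc')
  obtain ⟨e, π, c, hc, hπ, hπ1, hef, -⟩ := norm f hf
  obtain ⟨e', π', c', hc', hπ', hπ1', -, hge⟩ := norm g hg
  refine last hef hge (k := 1) ?_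
  rw [zpow_one]
  have h1 := Alp_mul hc' hc
  rw [huniq π π' hπ hπ' hπ1 hπ1', one_mul] at h1
  obtain ⟨c'', hc''⟩ := h1.al
  exact inner_of_coprime h hΔ hD hcop hc''

end

end

end Vale.Agent.P240.R2.H281EA
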