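import Vale.Agent.P240.R2.H165.ChevDefs
import Mathlib.SetTheory.Cardinal.Finite

/-!
Chevalley groups of type `E₆` and `E₇` (definition).
-/

set_option autoImplicit false

namespace Vale.Agent.P240.R2.H281EB

open CartanMatrix Vale.Agent.P240.R2.H165

/-- Chevalley groups over `F` of type `E₆` and `E₇`, where `p = 2`, `|F|` is not a square and, for
`E₆`, `3` does not divide `|F| - 1`; or `p = 3`, the type is `E₆`, and `3` does not divide `|F| - 1` or
`|F|` is not a cube -/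
def IsChevE (p : ℕ) (F : Type) [Field F] (L : Type*) [Group L] : Prop :=
  (p = 2 ∧ (∀ m : ℕ, Nat.card F ≠ m ^ 2) ∧
    (IsChevA E₇ F L ∨ (¬ 3 ∣ Nat.card F - 1 ∧ IsChevA E₆ F L))) ∨
  (p = 3 ∧ (¬ 3 ∣ Nat.card F - 1 ∨ ∀ m : ℕ, Nat.card F ≠ m ^ 3) ∧ IsChevA E₆ F L)

end Vale.Agent.P240.R2.H281EB
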