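import Vale.Agent.P240.R2.H281.EA
import Vale.Agent.P240.R2.H281.X1
import Vale.Agent.P240.R2.H165.XF
import Vale.Agent.P240.R2.H281.EDefs

/-!
Few automorphisms of order `2` and `3` for the groups of type `E₆`, and of order `2` for `E₇`.
-/

set_option autoImplicit false

namespace Vale.Agent.P240.R2.H281EB

open Subgroup CartanMatrix Vale.Agent.P240.K Vale.Agent.P240.H195 Vale.Agent.P240.R2.H986.X
  Vale.Agent.P240.R2.H281EA Vale.Agent.P240.R2.H165 Vale.Agent.P240.R2.H165.XC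

universe u v

/-! ### finite fields -/

/-- if the order of `F` is not a `p`-th power, then `F` has no automorphisms of order `p` -/
lemma card_aut {F : Type*} [Field F] [Finite F] {p : ℕ} (hp : p.Prime)
    (h : ∀ m : ℕ, Nat.card F ≠ m ^ p) : Nat.Coprime p (Nat.card (RingAut F)) := by
  rw [Nat.Prime.coprime_iff_not_dvd hp]
  intro hdvd
  have hpf : Fact p.Prime := ⟨hp⟩
  obtain ⟨σ, hσ⟩ := exists_prime_orderOf_dvd_card' p hdvd
  obtain ⟨r, hrc⟩ := CharP.exists F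
  have hr : Fact r.Prime := ⟨(CharP.char_is_prime_or_zero F r).resolve_right
    (CharP.char_ne_zero_of_finite F r)⟩
  obtain ⟨n, k, hkn, hcard, hτ, hn⟩ := ff_aut' (r := r) σ
  have h1 : σ ^ p = 1 := by rw [← hσ]; exact pow_orderOf_eq_one σ
  have h2 : n ∣ k * p := hn _ fun x => by
    rw [← ff_mul_pow p hτ, h1, RingAut.one_apply]
  have hk : k ≠ 0 := by
    rintro rfl
    have h3 : σ = 1 := by
      ext x
      rw [hτ, pow_zero, pow_one, RingAut.one_apply]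
    rw [h3, orderOf_one] at hσ
    exact hp.one_lt.ne hσ
  have h4 : p ∣ n := by
    by_contra hc
    have h5 : Nat.Coprime n p := ((Nat.Prime.coprime_iff_not_dvd hp).2 hc).symm
    have h6 := Nat.le_of_dvd (Nat.pos_of_ne_zero hk) (h5.dvd_of_dvd_mul_right h2)
    omega
  obtain ⟨m, rfl⟩ := h4
  exact h (r ^ m) (by rw [hcard, ← pow_mul, mul_comm])

/-! ### the matrices -/

/-- the entries -/
def e6 (i j : Fin 6) : ℤ := E₆ i j

/-- the entries -/
def e7 (i j : Fin 7) : ℤ := E₇ i j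

/-- `3 E₆⁻¹` -/
def d6 : Matrix (Fin 6) (Fin 6) ℤ :=
  !![4, 3, 5, 6, 4, 2; 3, 6, 6, 9, 6, 3; 5, 6, 10, 12, 8, 4; 6, 9, 12, 18, 12, 6;
    4, 6, 8, 12, 10, 5; 2, 3, 4, 6, 5, 4]

/-- `2 E₇⁻¹` -/
def d7 : Matrix (Fin 7) (Fin 7) ℤ :=
  !![4, 4, 6, 8, 6, 4, 2; 4, 7, 8, 12, 9, 6, 3; 6, 8, 12, 16, 12, 8, 4;
    8, 12, 16, 24, 18, 12, 6; 6, 9, 12, 18, 15, 10, 5; 4, 6, 8, 12, 10, 8, 4;
    2, 3, 4, 6, 5, 4, 3]

lemma d6_mul : ∀ i j : Fin 6, ∑ k, d6 i k * E₆ j k = if i = j then 3 else 0 := by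
  decide

lemma d6_rank : ∀ i k : Fin 6, (3 : ℤ) ∣ d6 i k - (![1, 0, 2, 0, 1, 2] : Fin 6 → ℤ) i *
    (![1, 0, 2, 0, 1, 2] : Fin 6 → ℤ) k := by
  decide

lemma d7_mul : ∀ i j : Fin 7, ∑ k, d7 i k * E₇ j k = if i = j then 2 else 0 := by
  decide

lemma d7_rank : ∀ i k : Fin 7, (2 : ℤ) ∣ d7 i k - (![0, 1, 0, 0, 1, 0, 1] : Fin 7 → ℤ) i *
    (![0, 1, 0, 0, 1, 0, 1] : Fin 7 → ℤ) k := by
  decide

lemma E6_lab {π : Equiv.Perm (Fin 6)} (h : ZP E₆ π) : LP E₆ π := by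
  have k1 : ∀ i : Fin 6, e6 i i = 2 := by decide
  have k2 : ∀ i j : Fin 6, i ≠ j → e6 i j ≠ 0 → e6 i j = -1 := by decide
  intro i j
  by_cases hij : i = j
  · subst hij
    exact (k1 i).trans (k1 (π i)).symm
  · by_cases h0 : E₆ i j = 0
    · rw [h0, (h i j).1 h0]
    · exact (k2 i j hij h0).trans
        (k2 (π i) (π j) (fun h1 => hij (π.injective h1)) (fun h1 => h0 ((h i j).2 h1))).symm

lemma E6_form {π : Equiv.Perm (Fin 6)} (h : ZP E₆ π) (hne : π ≠ 1) :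
    π 0 = 5 ∧ π 1 = 1 ∧ π 2 = 4 ∧ π 3 = 3 ∧ π 4 = 2 ∧ π 5 = 0 := by
  have h1 := col_inv h (c := fun _ => 1) (fun _ => rfl)
  rw [E6_c1] at h1
  have h2 := col_inv h h1
  rw [E6_c2] at h2
  have k0 : ∀ a : Fin 6, (![13, 20, 29, 38, 29, 13] : Fin 6 → ℤ) a =
    (![13, 20, 29, 38, 29, 13] : Fin 6 → ℤ) 0 → a = 0 ∨ a = 5 := by decide
  have k1 : ∀ a : Fin 6, (![13, 20, 29, 38, 29, 13] : Fin 6 → ℤ) a =
    (![13, 20, 29, 38, 29, 13] : Fin 6 → ℤ) 1 → a = 1 := by decide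
  have k2 : ∀ a : Fin 6, (![13, 20, 29, 38, 29, 13] : Fin 6 → ℤ) a =
    (![13, 20, 29, 38, 29, 13] : Fin 6 → ℤ) 2 → a = 2 ∨ a = 4 := by decide
  have k3 : ∀ a : Fin 6, (![13, 20, 29, 38, 29, 13] : Fin 6 → ℤ) a =
    (![13, 20, 29, 38, 29, 13] : Fin 6 → ℤ) 3 → a = 3 := by decide
  have k4 : ∀ a : Fin 6, (![13, 20, 29, 38, 29, 13] : Fin 6 → ℤ) a =
    (![13, 20, 29, 38, 29, 13] : Fin 6 → ℤ) 4 → a = 2 ∨ a = 4 := by decide
  have k5 : ∀ a : Fin 6, (![13, 20, 29, 38, 29, 13] : Fin 6 → ℤ) a =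
    (![13, 20, 29, 38, 29, 13] : Fin 6 → ℤ) 5 → a = 0 ∨ a = 5 := by decide
  have p1 := k1 _ (h2 1)
  have p3 := k3 _ (h2 3)
  have inj : ∀ a b : Fin 6, a ≠ b → π a ≠ π b := fun a b hab h1 => hab (π.injective h1)
  have key : ∀ a b c d : Fin 6, (a = 0 ∨ a = 5) → (b = 2 ∨ b = 4) → (c = 2 ∨ c = 4) →
      (d = 0 ∨ d = 5) → e6 a b ≠ 0 → c ≠ b → d ≠ a →
      (a = 0 ∧ b = 2 ∧ c = 4 ∧ d = 5) ∨ (a = 5 ∧ b = 4 ∧ c = 2 ∧ d = 0) := by
    decide
  rcases key (π 0) (π 2) (π 4) (π 5) (k0 _ (h2 0)) (k2 _ (h2 2)) (k4 _ (h2 4)) (k5 _ (h2 5))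
    (fun h1 => absurd ((h 0 2).2 h1) (by decide)) (inj _ _ (by decide)) (inj _ _ (by decide))
    with ⟨p0, p2, p4, p5⟩ | ⟨p0, p2, p4, p5⟩
  · exfalso
    apply hne
    ext i
    fin_cases i <;> simp [p0, p1, p2, p3, p4, p5]
  · exact ⟨p0, p1, p2, p3, p4, p5⟩

lemma E6_uniq {π π' : Equiv.Perm (Fin 6)} (h : ZP E₆ π) (h' : ZP E₆ π') (h1 : π ≠ 1)
    (h1' : π' ≠ 1) : π' * π = 1 := by
  obtain ⟨p0, p1, p2, p3, p4, p5⟩ := E6_form h h1
  obtain ⟨q0, q1, q2, q3, q4, q5⟩ := E6_form h' h1'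
  ext i
  fin_cases i <;>
    simp [Equiv.Perm.mul_apply, p0, p1, p2, p3, p4, p5, q0, q1, q2, q3, q4, q5]

/-! ### transport -/

section
variable {n : ℕ} {A : Matrix (Fin n) (Fin n) ℤ} {F : Type} [Field F] {L : Type u} [Group L]

/-- the abstract relations -/
theorem exists_CS (h : IsChevA A F L) (hA : Conn A) (hab : ∃ x y : L, x * y ≠ y * x) :
    ∃ (ι : Type) (_ : Finite ι) (C : RC ι) (x : ι → F → L) (e : {i // C.simp i} ≃ Fin n),
      CS C x ∧ ∀ i j : {i // C.simp i}, C.pr i.1 j.1 = A (e i) (e j) := by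
  classical
  obtain ⟨ι, hι, P, _, _, b, e, x, hb, he, hx⟩ := h
  have h0 : ∀ i, e i ∈ b.support := fun i => by
    rw [hb, Finset.mem_map]
    exact ⟨i, Finset.mem_univ i, rfl⟩
  let f : Fin n → b.support := fun i => ⟨e i, h0 i⟩
  have hf : Function.Bijective f := by
    constructor
    · intro i j hij
      exact e.injective (congrArg Subtype.val hij)
    · rintro ⟨k, hk⟩
      have hk' := hk
      rw [hb, Finset.mem_map] at hk'
      obtain ⟨i, -, hi⟩ := hk'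
      exact ⟨i, Subtype.ext hi⟩
  let e' : b.support ≃ Fin n := (Equiv.ofBijective f hf).symm
  have he' : ∀ i j, b.cartanMatrix i j = A (e' i) (e' j) := by
    intro i j
    obtain ⟨i, rfl⟩ := e'.symm.surjective i
    obtain ⟨j, rfl⟩ := e'.symm.surjective j
    rw [e'.apply_symm_apply, e'.apply_symm_apply, ← he]
    rfl
  have hB : Conn b.cartanMatrix := hA.transport e' he'
  obtain ⟨C, hht, hneg, hsr, hsimp, hpr, hc⟩ := Vale.Agent.P240.R2.H281X1.stmtX1 ι _ _ P b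
    (nonempty_of_chevRel hx.chevRel hab) (by
      intro p ⟨i, hi, hpi⟩ hst j hj
      exact hB (fun k => p k.1) ⟨⟨i, hi⟩, hpi⟩
        (fun i j hi hij => hst i.1 j.1 i.2 j.2 hi hij) ⟨j, hj⟩)
  refine ⟨ι, hι, C, x, (Equiv.subtypeEquivRight hsimp).trans e',
    cs_of_chevRel hx.chevRel hht hneg hsr hpr hc, fun i j => ?_⟩
  rw [hpr]
  exact he' ⟨i.1, (hsimp i.1).1 i.2⟩ ⟨j.1, (hsimp j.1).1 j.2⟩

/-- the inverse matrix -/
theorem exists_D {ι : Type} {C : RC ι} (e : {i // C.simp i} ≃ Fin n)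
    (he : ∀ i j : {i // C.simp i}, C.pr i.1 j.1 = A (e i) (e j)) {d : ℕ}
    {D₀ : Matrix (Fin n) (Fin n) ℤ}
    (hD₀ : ∀ i j : Fin n, ∑ k, D₀ i k * A j k = if i = j then (d : ℤ) else 0) :
    ∃ (Δ : Finset ι) (D : ι → ι → ℤ), (∀ i, i ∈ Δ ↔ C.simp i) ∧
      (∀ i j, C.simp i → C.simp j → ∑ k ∈ Δ, D i k * C.pr j k =
        open scoped Classical in if i = j then (d : ℤ) else 0) ∧
      ∀ i k : {i // C.simp i}, D i.1 k.1 = D₀ (e i) (e k) := by
  classical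
  let f : Fin n ↪ ι := e.symm.toEmbedding.trans (Function.Embedding.subtype _)
  refine ⟨Finset.univ.map f, fun i k => if h : C.simp i ∧ C.simp k then
    D₀ (e ⟨i, h.1⟩) (e ⟨k, h.2⟩) else 0, fun i => ?_, fun i j hi hj => ?_, fun i k => ?_⟩
  · rw [Finset.mem_map]
    constructor
    · rintro ⟨k, -, rfl⟩
      exact (e.symm k).2
    · intro hi
      refine ⟨e ⟨i, hi⟩, Finset.mem_univ _, ?_⟩
      change ((e.symm (e ⟨i, hi⟩)) : {i // C.simp i}).1 = i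
      rw [e.symm_apply_apply]
  · rw [Finset.sum_map]
    have h1 : ∀ k : Fin n, (if h : C.simp i ∧ C.simp (f k) then
        D₀ (e ⟨i, h.1⟩) (e ⟨f k, h.2⟩) else 0) * C.pr j (f k) =
        D₀ (e ⟨i, hi⟩) k * A (e ⟨j, hj⟩) k := by
      intro k
      have h2 : C.simp (f k) := (e.symm k).2
      have h3 : (⟨f k, h2⟩ : {i // C.simp i}) = e.symm k := rfl
      rw [dif_pos ⟨hi, h2⟩]
      have h4 := he ⟨j, hj⟩ ⟨f k, h2⟩
      change C.pr j (f k) = _ at h4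
      rw [h4, h3, e.apply_symm_apply]
    rw [Finset.sum_congr rfl fun k _ => h1 k, hD₀]
    by_cases hij : i = j
    · subst hij
      simp
    · rw [if_neg hij, if_neg fun h2 => hij (congrArg Subtype.val (e.injective h2))]
  · exact dif_pos (⟨i.2, k.2⟩ : C.simp i.1 ∧ C.simp k.1)

/-- permutations -/
lemma zp_congr {ι : Type} {C : RC ι} (e : {i // C.simp i} ≃ Fin n)
    (he : ∀ i j : {i // C.simp i}, C.pr i.1 j.1 = A (e i) (e j))
    {π : Equiv.Perm {i // C.simp i}}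
    (hπ : ∀ i j, C.pr i.1 j.1 = 0 ↔ C.pr (π i).1 (π j).1 = 0) : ZP A (e.permCongr π) := by
  intro a b
  have h3 := hπ (e.symm a) (e.symm b)
  rw [he, he, e.apply_symm_apply, e.apply_symm_apply] at h3
  simpa [Equiv.permCongr_apply] using h3

lemma permCongr_one {ι : Type} {C : RC ι} (e : {i // C.simp i} ≃ Fin n)
    {π : Equiv.Perm {i // C.simp i}} (hπ : e.permCongr π = 1) : π = 1 := by
  ext i
  have h3 := Equiv.congr_fun hπ (e i)
  rw [Equiv.permCongr_apply, e.symm_apply_apply] at h3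
  rw [e.injective h3]
  rfl

lemma fewAut_of_key {p : ℕ}
    (h : ∀ f g : MulAut L, OutAut p f → OutAut p g → g ∈ zpowers f ⊔ (MulAut.conj (G := L)).range) :
    FewAut p L :=
  ⟨fun f g _ hf hg _ => Or.inl (h f g hf hg), Or.inl h⟩

/-- no automorphisms of the diagram of order `p` -/
theorem few_B [Finite F] [Finite L] (h : IsChevA A F L) (hA : Conn A) (hs : IsSimpleGroup L)
    (hab : ∃ x y : L, x * y ≠ y * x) {p : ℕ} (hp : p.Prime) (hno : NoPerm A p False)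
    {D₀ : Matrix (Fin n) (Fin n) ℤ}
    (hD₀ : ∀ i j : Fin n, ∑ k, D₀ i k * A j k = if i = j then (p : ℤ) else 0)
    {m₀ n₀ : Fin n → ℤ} (hmn : ∀ i k, (p : ℤ) ∣ D₀ i k - m₀ i * n₀ k)
    (hF : Nat.Coprime p (Nat.card F - 1) ∨ Nat.Coprime p (Nat.card (RingAut F))) :
    FewAut p L := by
  obtain ⟨r, hrc⟩ := CharP.exists F
  have hr : Fact r.Prime := ⟨(CharP.char_is_prime_or_zero F r).resolve_right
    (CharP.char_ne_zero_of_finite F r)⟩
  obtain ⟨ι, hι, C, x, e, hC, he⟩ := exists_CS h hA hab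
  obtain ⟨Δ, D, hΔ, hD, hDD⟩ := exists_D e he hD₀
  have hcen := centre_of_nonabelian hs hab
  have hperm : ∀ π : Equiv.Perm {i // C.simp i}, (∃ k, π ^ p ^ k = 1) →
      (∀ i j, C.pr i.1 j.1 = 0 ↔ C.pr (π i).1 (π j).1 = 0) → π = 1 := by
    have h1 : NoPerm (fun i j : {i // C.simp i} => C.pr i.1 j.1) p False :=
      NoPerm.transport e he hno
    exact fun π hk hz => h1 π hk hz fun h => h.elim
  apply fewAut_of_key
  rcases hF with hF | hF
  · exact key_B1 (r := r) hC hcen hp hperm hΔ hD hF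
  · classical
    refine key_B2 (r := r) hC hcen hp hperm (D := D) hΔ hD
      (m := fun i => if h : C.simp i then m₀ (e ⟨i, h⟩) else 0)
      (n := fun i => if h : C.simp i then n₀ (e ⟨i, h⟩) else 0) (fun i hi k hk => ?_) hF
    have hi' := (hΔ i).1 hi
    have hk' := (hΔ k).1 hk
    simp only [dif_pos hi', dif_pos hk']
    have h1 := hDD ⟨i, hi'⟩ ⟨k, hk'⟩
    change D i k = _ at h1
    rw [h1]
    exact hmn _ _

/-- **`E₆` at `p = 3`**: `|F| - 1` is not divisible by `3` or `|F|` is not a cube -/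
theorem e6_three [Finite F] [Finite L] (h : IsChevA E₆ F L) (hs : IsSimpleGroup L)
    (hab : ∃ x y : L, x * y ≠ y * x) (hF : ¬ 3 ∣ Nat.card F - 1 ∨ ∀ m : ℕ, Nat.card F ≠ m ^ 3) :
    FewAut 3 L :=
  few_B h E6_conn hs hab Nat.prime_three (E6_noPerm Nat.prime_three (by norm_num) False) d6_mul
    d6_rank (hF.imp (fun h => (Nat.Prime.coprime_iff_not_dvd Nat.prime_three).2 h)
      (fun h => card_aut Nat.prime_three h))

/-- **`E₇` at `p = 2`**: `|F|` is even or not a square -/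
theorem e7_two [Finite F] [Finite L] (h : IsChevA E₇ F L) (hs : IsSimpleGroup L)
    (hab : ∃ x y : L, x * y ≠ y * x) (hF : ¬ 2 ∣ Nat.card F - 1 ∨ ∀ m : ℕ, Nat.card F ≠ m ^ 2) :
    FewAut 2 L :=
  few_B h E7_conn hs hab Nat.prime_two (E7_noPerm 2 False) d7_mul
    d7_rank (hF.imp (fun h => (Nat.Prime.coprime_iff_not_dvd Nat.prime_two).2 h)
      (fun h => card_aut Nat.prime_two h))

/-- **`E₆` at `p = 2`**: `|F| - 1` is not divisible by `3` and `|F|` is not a square -/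
theorem e6_two [Finite F] [Finite L] (h : IsChevA E₆ F L) (hs : IsSimpleGroup L)
    (hab : ∃ x y : L, x * y ≠ y * x) (hF : ¬ 3 ∣ Nat.card F - 1) (hF' : ∀ m : ℕ, Nat.card F ≠ m ^ 2) :
    FewAut 2 L := by
  obtain ⟨r, hrc⟩ := CharP.exists F
  have hr : Fact r.Prime := ⟨(CharP.char_is_prime_or_zero F r).resolve_right
    (CharP.char_ne_zero_of_finite F r)⟩
  obtain ⟨ι, hι, C, x, e, hC, he⟩ := exists_CS h E6_conn hab
  obtain ⟨Δ, D, hΔ, hD, hDD⟩ := exists_D (d := 3) e he d6_mul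
  have hcen := centre_of_nonabelian hs hab
  apply fewAut_of_key
  refine key_A (r := r) hC hcen ?_ ?_ hΔ hD
    ((Nat.Prime.coprime_iff_not_dvd Nat.prime_three).2 hF) (card_aut Nat.prime_two hF')
  · intro π hπ i j
    have h1 := E6_lab (zp_congr e he hπ) (e i) (e j)
    rw [Equiv.permCongr_apply, Equiv.permCongr_apply, e.symm_apply_apply, e.symm_apply_apply,
      ← he, ← he] at h1
    exact h1
  · intro π π' hπ hπ' h1 h1'
    apply permCongr_one e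
    have h2 := E6_uniq (zp_congr e he hπ) (zp_congr e he hπ') (fun h2 => h1 (permCongr_one e h2))
      (fun h2 => h1' (permCongr_one e h2))
    rw [← h2]
    ext i
    simp

/-- **all cases** -/
theorem IsChevE.few [Finite F] [Finite L] {p : ℕ} (h : IsChevE p F L) (hs : IsSimpleGroup L)
    (hab : ∃ x y : L, x * y ≠ y * x) : FewAut p L := by
  rcases h with ⟨rfl, hF, h | ⟨hF', h⟩⟩ | ⟨rfl, hF, h⟩
  · exact e7_two h hs hab (Or.inr hF)
  · exact e6_two h hs hab hF' hF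
  · exact e6_three h hs hab hF

theorem IsChevE.main [Finite F] [Finite L] {p : ℕ} (h : IsChevE p F L) (hs : IsSimpleGroup L)
    (hab : ∃ x y : L, x * y ≠ y * x) (r : ℕ) [Fact r.Prime] [CharP F r] :
    LieType r L ∧ RigidLie r L := by
  rcases h with ⟨-, -, h | ⟨-, h⟩⟩ | ⟨-, -, h⟩
  · have h1 := h.main E7_conn hs hab (r := r)
    exact ⟨h1.1, h1.2.1⟩
  · have h1 := h.main E6_conn hs hab (r := r)
    exact ⟨h1.1, h1.2.1⟩
  · have h1 := h.main E6_conn hs hab (r := r)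
    exact ⟨h1.1, h1.2.1⟩

/-- these groups are good for every field `𝕜` and every `l` -/
theorem IsChevE.good [Finite F] [Finite L] {p : ℕ} [hp : Fact p.Prime] (h : IsChevE p F L)
    (hs : IsSimpleGroup L) (hab : ∃ x y : L, x * y ≠ y * x) (𝕜 : Type v) [Field 𝕜] (l : ℕ) :
    GoodFactor 𝕜 p l L := by
  obtain ⟨r, hrc⟩ := CharP.exists F
  have hr : Fact r.Prime := ⟨(CharP.char_is_prime_or_zero F r).resolve_right
    (CharP.char_ne_zero_of_finite F r)⟩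
  have h1 := h.main hs hab r
  by_cases hpr : p = r
  · subst hpr
    exact Or.inr (Or.inl h1.2)
  · exact Or.inr (Or.inr (Or.inr (Or.inl ⟨r, hr.out, h1.1.autFree hr.out hp.out hpr,
      Or.inr (Or.inr (Or.inl (h.few hs hab)))⟩)))

end

end Vale.Agent.P240.R2.H281EB
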