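import Vale.Agent.P240.R2.H401.Lin5

/-!
Two marked letters at the end: from a function `z` on the words whose last two letters are marked
(all adjacent sums zero) one gets `2 z + G z`, `G z` = alternating sum over the words with one letter
moved to the end; its values on the brackets `β(y a y')` are `± 2 z(a y' y)`. So the dimension `U` of
the space of the functions `z` is a lower bound for `AS.t` of the closure under permutations.
-/

set_option autoImplicit false
set_option linter.all false

namespace Vale.Agent.P240.R2.H281F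

open Finset
open Vale.Agent.P240.R2.H986 (ev ev_cons ev_single ev_nil)
open Vale.Agent.P240.R2.H401
open scoped Classical

universe u v

noncomputable section

section words
variable {L : Type u} {𝕜 : Type v} [Field 𝕜]

/-- the letters of `p` in the word `u ++ p ++ w` are moved to the end -/
def G (z : List L → 𝕜) : List L → List L → List L → 𝕜
  | _, [], _ => 0
  | u, a :: p, w => (-1) ^ (p.length + w.length + 1) * z (u ++ (p ++ (w ++ [a]))) +
      G z (u ++ [a]) p w

lemma G_nil (z : List L → 𝕜) (u w : List L) : G z u [] w = 0 := rfl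

lemma G_cons (z : List L → 𝕜) (u : List L) (a : L) (p w : List L) : G z u (a :: p) w =
    (-1) ^ (p.length + w.length + 1) * z (u ++ (p ++ (w ++ [a]))) + G z (u ++ [a]) p w := rfl

lemma G_append (z : List L → 𝕜) (p : List L) : ∀ u p' w : List L,
    G z u (p ++ p') w = G z u p (p' ++ w) + G z (u ++ p) p' w := by
  induction p with
  | nil => intro u p' w; simp [G_nil]
  | cons a p ih =>
    intro u p' w
    rw [List.cons_append, G_cons, G_cons, ih]
    simp only [List.append_assoc, List.length_append, List.singleton_append]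
    ring_nf

lemma G_zero_of (z : List L → 𝕜) (p : List L) : ∀ u w : List L,
    (∀ (u' : List L) (a : L), a ∈ p → (u' ++ [a]).Perm (u ++ (p ++ w)) → z (u' ++ [a]) = 0) →
      G z u p w = 0 := by
  induction p with
  | nil => intro u w _; rw [G_nil]
  | cons b p ih =>
    intro u w h
    rw [G_cons, ih, add_zero]
    · have h1 := h (u ++ (p ++ w)) b (by simp) (by
        rw [List.append_assoc, List.append_assoc]
        refine List.Perm.append_left u ?_
        rw [← List.append_assoc]
        exact List.perm_append_comm)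
      simp only [List.append_assoc] at h1
      rw [h1, mul_zero]
    · intro u' a ha hp
      refine h u' a (List.mem_cons_of_mem _ ha) (hp.trans ?_)
      simp

end words

section sums
variable {L : Type u} [Fintype L] {𝕜 : Type v} [Field 𝕜]

lemma sum_G_right {z : List L → 𝕜}
    (hz : ∀ u v : List L, ∑ x : L × L, z (u ++ x.1 :: x.2 :: v) = 0) (p : List L) :
    ∀ u v : List L, ∑ x : L × L, G z u p (x.1 :: x.2 :: v) = 0 := by
  induction p with
  | nil => intro u v; simp [G_nil]
  | cons a p ih =>
    intro u v
    simp only [G_cons, Finset.sum_add_distrib, ih, add_zero]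
    simp only [List.length_cons, ← Finset.mul_sum]
    have h1 := hz (u ++ p) (v ++ [a])
    have h2 : ∑ x : L × L, z (u ++ (p ++ (x.1 :: x.2 :: v ++ [a]))) = 0 := by
      rw [← h1]
      refine Finset.sum_congr rfl fun x _ => ?_
      simp
    rw [h2, mul_zero]

lemma sum_G_left {z : List L → 𝕜}
    (hz : ∀ u v : List L, ∑ x : L × L, z (u ++ x.1 :: x.2 :: v) = 0) (p : List L) :
    ∀ u v w : List L, ∑ x : L × L, G z (u ++ x.1 :: x.2 :: v) p w = 0 := by
  induction p with
  | nil => intro u v w; simp [G_nil]
  | cons a p ih =>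
    intro u v w
    simp only [G_cons, Finset.sum_add_distrib]
    have h1 := ih u (v ++ [a]) w
    have h2 : ∑ x : L × L, G z (u ++ x.1 :: x.2 :: v ++ [a]) p w = 0 := by
      rw [← h1]
      refine Finset.sum_congr rfl fun x _ => ?_
      simp
    rw [h2, add_zero, ← Finset.mul_sum]
    have h3 := hz u (v ++ (p ++ (w ++ [a])))
    have h4 : ∑ x : L × L, z (u ++ x.1 :: x.2 :: v ++ (p ++ (w ++ [a]))) = 0 := by
      rw [← h3]
      refine Finset.sum_congr rfl fun x _ => ?_
      simp
    rw [h4, mul_zero]

/-- the adjacent sums of `G z` vanish -/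
lemma sum_G {z : List L → 𝕜}
    (hz : ∀ u v : List L, ∑ x : L × L, z (u ++ x.1 :: x.2 :: v) = 0) (u v : List L) :
    ∑ x : L × L, G z [] (u ++ x.1 :: x.2 :: v) [] = 0 := by
  have h1 : ∀ x : L × L, G z [] (u ++ x.1 :: x.2 :: v) [] =
      G z [] u (x.1 :: x.2 :: v) + ((-1) ^ (v.length + 2) * z (u ++ x.2 :: (v ++ [x.1])) +
        ((-1) ^ (v.length + 1) * z (u ++ x.1 :: (v ++ [x.2])) + G z (u ++ x.1 :: x.2 :: []) v [])) := by
    intro x
    rw [G_append, G_cons, G_cons]
    simp
  rw [Finset.sum_congr rfl fun x _ => h1 x]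
  simp only [Finset.sum_add_distrib, sum_G_right hz, sum_G_left hz, add_zero, zero_add,
    ← Finset.mul_sum]
  have h2 : ∑ x : L × L, z (u ++ x.2 :: (v ++ [x.1])) = ∑ x : L × L, z (u ++ x.1 :: (v ++ [x.2])) :=
    Fintype.sum_equiv (Equiv.prodComm L L) _ _ fun x => rfl
  rw [h2]
  ring

end sums

section values
variable {L : Type u} {𝕜 : Type v} [Field 𝕜]

/-- the new function -/
def Z (z : List L → 𝕜) (w : List L) : 𝕜 := 2 * z w + G z [] w []

variable {z : List L → 𝕜} {T : L → Prop}

lemma G_last (h1 : ∀ (w : List L) (c : L), ¬ T c → z (w ++ [c]) = 0) {p : List L}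
    (hp : ∀ c ∈ p, ¬ T c) (u w : List L) : G z u p w = 0 :=
  G_zero_of z p u w fun u' a ha _ => h1 u' a (hp a ha)

lemma G_snd (h2 : ∀ (w : List L) (c d : L), ¬ T c → z (w ++ [c, d]) = 0) {c : L} (hc : ¬ T c)
    (p : List L) : ∀ u : List L, G z u p [c] = 0 := by
  induction p with
  | nil => intro u; rw [G_nil]
  | cons a p ih =>
    intro u
    rw [G_cons, ih, add_zero]
    have h3 := h2 (u ++ p) c a hc
    simp only [List.append_assoc] at h3
    simp [h3]

lemma G_fst (h3 : ∀ (w : List L) (y : L), T y → 2 ≤ w.length → z (y :: w) = 0) {y : L} (hy : T y)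
    (p : List L) : ∀ u w : List L, 2 ≤ u.length + p.length + w.length → G z (y :: u) p w = 0 := by
  induction p with
  | nil => intro u w _; rw [G_nil]
  | cons a p ih =>
    intro u w h
    simp only [List.length_cons] at h
    rw [G_cons, List.cons_append, List.cons_append, h3 _ _ hy, ih, mul_zero, add_zero]
    · simp only [List.length_append, List.length_singleton]
      omega
    · simp only [List.length_append, List.length_singleton]
      omega

/-- `Z` vanishes on the words that do not end with a marked letter -/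
lemma Z_last (h1 : ∀ (w : List L) (c : L), ¬ T c → z (w ++ [c]) = 0)
    (h2 : ∀ (w : List L) (c d : L), ¬ T c → z (w ++ [c, d]) = 0) (u : List L) {c : L} (hc : ¬ T c) :
    Z z (u ++ [c]) = 0 := by
  unfold Z
  rw [h1 u c hc, G_append, G_cons, G_nil, List.nil_append, List.append_nil, G_snd h2 hc]
  simp [h1 u c hc]

/-- `Z` on the words `y a y'` -/
lemma Z_first (h1 : ∀ (w : List L) (c : L), ¬ T c → z (w ++ [c]) = 0)
    (h2 : ∀ (w : List L) (c d : L), ¬ T c → z (w ++ [c, d]) = 0)
    (h3 : ∀ (w : List L) (y : L), T y → 2 ≤ w.length → z (y :: w) = 0)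
    {y y' : L} (hy : T y) {a : List L} (ha : a ≠ []) :
    Z z (y :: (a ++ [y'])) = (-1) ^ a.length * z (a ++ [y', y]) := by
  have hl : 1 ≤ a.length := List.length_pos_iff.2 ha
  unfold Z
  rw [G_cons, h3 _ _ hy (by simp; omega), List.nil_append, List.nil_append,
    G_fst h3 hy _ [] [] (by simp; omega)]
  simp only [List.length_append, List.length_singleton, List.length_nil, List.nil_append,
    List.append_assoc, List.singleton_append]
  ring

/-- `Z` on the words `u y' v y` -/
lemma Z_mid (h1 : ∀ (w : List L) (c : L), ¬ T c → z (w ++ [c]) = 0)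
    (h2 : ∀ (w : List L) (c d : L), ¬ T c → z (w ++ [c, d]) = 0)
    {y y' : L} {u v : List L} (hu : ∀ c ∈ u, ¬ T c) (hv : ∀ c ∈ v, ¬ T c) :
    Z z (u ++ y' :: (v ++ [y])) = (if v = [] then z (u ++ [y', y]) else 0) +
      (-1) ^ v.length * z (u ++ (v ++ [y, y'])) := by
  have e1 : z (u ++ y' :: (v ++ [y])) = if v = [] then z (u ++ [y', y]) else 0 := by
    split_ifs with h
    · subst h
      rfl
    · obtain ⟨v0, c, rfl⟩ := (v.eq_nil_or_concat').resolve_left h
      have h3 := h2 (u ++ y' :: v0) c y (hv c (by simp))
      rw [← h3]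
      simp
  unfold Z
  rw [G_append, G_last h1 hu, G_cons, G_append, G_last h1 hv, G_cons, G_nil, ← e1]
  simp only [List.length_append, List.length_singleton, List.length_nil, List.nil_append,
    List.append_assoc, List.singleton_append, List.append_nil, List.cons_append]
  ring

/-- the brackets in front of `v y` -/
lemma ev_mid (h1 : ∀ (w : List L) (c : L), ¬ T c → z (w ++ [c]) = 0)
    (h2 : ∀ (w : List L) (c d : L), ¬ T c → z (w ++ [c, d]) = 0) {y y' : L} (a : List L) :
    ∀ u v : List L, (∀ c ∈ a, ¬ T c) → (∀ c ∈ u, ¬ T c) → (∀ c ∈ v, ¬ T c) →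
    ev (Z z) (a ++ [y']) u (v ++ [y]) = (if v = [] then z (u ++ (a ++ [y', y])) else 0) +
      if a = [] then (-1) ^ v.length * z (u ++ (v ++ [y, y'])) else 0 := by
  induction a with
  | nil =>
    intro u v _ hu hv
    rw [List.nil_append, ev_single, Z_mid h1 h2 hu hv, if_pos rfl, List.nil_append]
  | cons b a ih =>
    intro u v ha hu hv
    rw [List.cons_append, ev_cons _ _ (by simp), ih (u ++ [b]) v
      (fun c hc => ha c (List.mem_cons_of_mem _ hc)) (by
        intro c hc
        rcases List.mem_append.1 hc with hc | hc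
        · exact hu c hc
        · rw [List.mem_singleton.1 hc]
          exact ha b (by simp)) hv, ← List.cons_append, ih u (b :: v)
      (fun c hc => ha c (List.mem_cons_of_mem _ hc)) hu (by
        intro c hc
        rcases List.mem_cons.1 hc with rfl | hc
        · exact ha c (by simp)
        · exact hv c hc)]
    rw [if_neg (List.cons_ne_nil b v), if_neg (List.cons_ne_nil b a)]
    by_cases h : a = []
    · subst h
      simp only [if_true, List.length_nil, List.length_append, List.length_singleton,
        List.length_cons, List.append_assoc, List.singleton_append, List.nil_append,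
        List.cons_append]
      ring
    · rw [if_neg h, if_neg h]
      simp

/-- **the values on the brackets** -/
lemma ev_Z (h1 : ∀ (w : List L) (c : L), ¬ T c → z (w ++ [c]) = 0)
    (h2 : ∀ (w : List L) (c d : L), ¬ T c → z (w ++ [c, d]) = 0)
    (h3 : ∀ (w : List L) (y : L), T y → 2 ≤ w.length → z (y :: w) = 0)
    {y y' : L} (hy : T y) {a : List L} (ha : a ≠ []) (haT : ∀ c ∈ a, ¬ T c) :
    ev (Z z) (y :: (a ++ [y'])) [] [] = 2 * ((-1) ^ a.length * z (a ++ [y', y])) := by
  have h4 := ev_mid h1 h2 (y := y) (y' := y') a [] [] haT (by simp) (by simp)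
  rw [if_pos rfl, if_neg ha, List.nil_append, List.nil_append] at h4
  rw [ev_cons _ _ (by simp), h4, List.nil_append, ev_marked (Z z) y' a [y]
    (fun u' c hc => Z_last h1 h2 u' (haT c hc)), List.singleton_append, Z_first h1 h2 h3 hy ha]
  simp only [List.length_append, List.length_singleton]
  ring

end values

section main
variable {L : Type u} [Fintype L]

/-- **Two marked letters.** -/
theorem U_le_t2 {F F' : Finset (List L)} (hsub : F ⊆ F')
    (hperm : ∀ w ∈ F', ∀ w', w.Perm w' → w' ∈ F') (T : L → Prop) (hlen : ∀ w ∈ F, 3 ≤ w.length)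
    (hT : ∀ (w : List L) (c d : L), w ++ [c, d] ∈ F → T c ∧ T d ∧ ∀ y ∈ w, ¬ T y) :
    U ℚ F ≤ AS.t F' := by
  have H1 : ∀ z ∈ SL ℚ F, ∀ (w : List L) (c : L), ¬ T c → z (w ++ [c]) = 0 := by
    intro z hz w c hc
    refine hz.1 _ fun h => hc ?_
    rcases w.eq_nil_or_concat' with rfl | ⟨w0, b, rfl⟩
    · have := hlen _ h
      simp at this
    · rw [List.append_assoc] at h
      exact (hT w0 b c h).2.1
  have H2 : ∀ z ∈ SL ℚ F, ∀ (w : List L) (c d : L), ¬ T c → z (w ++ [c, d]) = 0 := by
    intro z hz w c d hc
    exact hz.1 _ fun h => hc (hT w c d h).1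
  have H3 : ∀ z ∈ SL ℚ F, ∀ (w : List L) (y : L), T y → 2 ≤ w.length → z (y :: w) = 0 := by
    intro z hz w y hy hw
    refine hz.1 _ fun h => ?_
    rcases w.eq_nil_or_concat' with rfl | ⟨w0, b, rfl⟩
    · simp at hw
    · rcases w0.eq_nil_or_concat' with rfl | ⟨w1, c, rfl⟩
      · simp at hw
      · have h4 : (y :: w1) ++ [c, b] ∈ F := by
          have e : (y :: w1) ++ [c, b] = y :: (w1 ++ [c] ++ [b]) := by simp
          rw [e]
          exact h
        exact (hT _ _ _ h4).2.2 y (by simp) hy
  let f : SL ℚ F →ₗ[ℚ] (AS.SOL F').map (AS.bm L) :=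
    { toFun := fun z => ⟨AS.bm L (Z z.1), Submodule.mem_map_of_mem
        ⟨fun w hw => by
          have h0 : ∀ w', w.Perm w' → z.1 w' = 0 := fun w' hp =>
            z.2.1 w' fun h => hw (hperm w' (hsub h) w hp.symm)
          unfold Z
          rw [h0 w (List.Perm.refl w), G_zero_of z.1 w [] [] fun u' a _ hp => h0 _ (by
            simpa using hp.symm)]
          simp,
        fun u v => by
          unfold Z
          rw [Finset.sum_add_distrib, ← Finset.mul_sum, z.2.2, sum_G z.2.2]
          simp⟩⟩
      map_add' := fun a b => Subtype.ext (by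
        show AS.bm L (Z (a.1 + b.1)) = AS.bm L (Z a.1) + AS.bm L (Z b.1)
        rw [← (AS.bm L).map_add]
        congr 1
        have hG : ∀ (p u w : List L), G (a.1 + b.1) u p w = G a.1 u p w + G b.1 u p w := by
          intro p
          induction p with
          | nil => intro u w; simp [G_nil]
          | cons c p ih =>
            intro u w
            rw [G_cons, G_cons, G_cons, ih, Pi.add_apply]
            ring
        funext w
        show 2 * (a.1 w + b.1 w) + G (a.1 + b.1) [] w [] = (2 * a.1 w + G a.1 [] w []) +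
          (2 * b.1 w + G b.1 [] w [])
        rw [hG]
        ring)
      map_smul' := fun c a => Subtype.ext (by
        show AS.bm L (Z (c • a.1)) = c • AS.bm L (Z a.1)
        rw [← (AS.bm L).map_smul]
        congr 1
        have hG : ∀ (p u w : List L), G (c • a.1) u p w = c * G a.1 u p w := by
          intro p
          induction p with
          | nil => intro u w; simp [G_nil]
          | cons b p ih =>
            intro u w
            rw [G_cons, G_cons, ih, Pi.smul_apply, smul_eq_mul]
            ring
        funext w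
        show 2 * (c * a.1 w) + G (c • a.1) [] w [] = c * (2 * a.1 w + G a.1 [] w [])
        rw [hG]
        ring) }
  have hinj : Function.Injective f := by
    rw [injective_iff_map_eq_zero]
    intro z hz
    apply Subtype.ext
    funext w
    by_cases hw : w ∈ F
    · have hl := hlen w hw
      obtain ⟨a, y', y, rfl⟩ : ∃ a y' y, w = a ++ [y', y] := by
        rcases w.eq_nil_or_concat' with rfl | ⟨w0, b, rfl⟩
        · simp at hl
        · rcases w0.eq_nil_or_concat' with rfl | ⟨w1, c, rfl⟩
          · simp at hl
          · exact ⟨w1, c, b, by simp⟩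
      obtain ⟨t1, t2, t3⟩ := hT _ _ _ hw
      have ha : a ≠ [] := by
        rintro rfl
        simp at hl
      have h4 := ev_Z (z := z.1) (H1 z.1 z.2) (H2 z.1 z.2) (H3 z.1 z.2) (y' := y') t2 ha t3
      have h5 : ev (Z z.1) (y :: (a ++ [y'])) [] [] = 0 :=
        congrFun (congrArg Subtype.val hz) (y :: (a ++ [y']))
      rw [h5] at h4
      have h6 : ((-1 : ℚ)) ^ a.length ≠ 0 := pow_ne_zero _ (by norm_num)
      have h7 : z.1 (a ++ [y', y]) = 0 := by
        rcases mul_eq_zero.1 h4.symm with h | h
        · norm_num at h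
        · exact (mul_eq_zero.1 h).resolve_left h6
      exact h7
    · exact z.2.1 w hw
  have : Module.Finite ℚ ((AS.SOL F').map (AS.bm L)) := by
    have : Module.Finite ℚ (AS.SOL F') := by
      let g : AS.SOL F' →ₗ[ℚ] (F' → ℚ) :=
        { toFun := fun z w => z.1 w.1
          map_add' := fun _ _ => rfl
          map_smul' := fun _ _ => rfl }
      refine FiniteDimensional.of_injective g ?_
      rw [injective_iff_map_eq_zero]
      intro z hz
      apply Subtype.ext
      funext w
      by_cases hw : w ∈ F'
      · exact congrFun hz ⟨w, hw⟩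
      · exact z.2.1 w hw
    infer_instance
  exact LinearMap.finrank_le_finrank_of_injective hinj

end main

end

end Vale.Agent.P240.R2.H281F
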