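import Vale.Agent.P240.R2.H401.Lin4

/-!
The dimension `U` for words whose last plane has at least three pairs, the one before at least three,
and the others at least four: half of the words per letter.
-/

set_option autoImplicit false
set_option linter.all false

namespace Vale.Agent.P240.R2.H281F

open Finset
open Vale.Agent.P240.R2.H401
open scoped Classical

universe u v

noncomputable section

variable {L : Type u} [Fintype L] {𝕜 : Type v} [Field 𝕜]

/-- the hypotheses with numbers `4, 3, 3` -/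
structure LG3 (F : Finset (List L)) (n : ℕ) : Prop where
  len : ∀ w ∈ F, w.length = n
  rect : ∀ (u : List L) (a b c d : L) (v v' : List L), u ++ a :: b :: v ∈ F →
    u ++ c :: d :: v ∈ F → u ++ a :: b :: v' ∈ F → u ++ c :: d :: v' ∈ F
  inner : ∀ (u : List L) (x y : L) (v : List L), 2 ≤ v.length → u ++ x :: y :: v ∈ F →
    4 ≤ (univ.filter (fun z : L × L => u ++ z.1 :: z.2 :: v ∈ F)).card
  mid : ∀ (u : List L) (x y : L) (v : List L), v.length = 1 → u ++ x :: y :: v ∈ F →
    3 ≤ (univ.filter (fun z : L × L => u ++ z.1 :: z.2 :: v ∈ F)).card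
  last : ∀ (u : List L) (x y : L), u ++ [x, y] ∈ F →
    3 ≤ (univ.filter (fun z : L × L => u ++ [z.1, z.2] ∈ F)).card

lemma LG3.slice {F : Finset (List L)} {n : ℕ} (h : LG3 F (n + 1)) (l : L) :
    LG3 (sl F l) n where
  len w hw := by
    have := h.len _ (mem_sl.1 hw)
    simpa using this
  rect u a b c d v v' h1 h2 h3 := by
    rw [mem_sl] at *
    exact h.rect (l :: u) a b c d v v' h1 h2 h3
  inner u x y v hv h1 := by
    rw [mem_sl] at h1
    have := h.inner (l :: u) x y v hv h1
    simp_rw [mem_sl]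
    exact this
  mid u x y v hv h1 := by
    rw [mem_sl] at h1
    have := h.mid (l :: u) x y v hv h1
    simp_rw [mem_sl]
    exact this
  last u x y h1 := by
    rw [mem_sl] at h1
    have := h.last (l :: u) x y h1
    simp_rw [mem_sl]
    exact this

lemma LG3.cl_card {F : Finset (List L)} {n : ℕ} (h : LG3 F n) {x : L × L} {v : List L}
    (hv : v ∈ sp F x) : (univ.filter (fun y : L × L => y.1 :: y.2 :: v ∈ F)).card ≤
      (cl F (sp F x)).card := by
  refine Finset.card_le_card fun y hy => ?_
  rw [Finset.mem_filter] at hy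
  rw [mem_sp] at hv
  rw [cl, Finset.mem_filter]
  refine ⟨Finset.mem_univ _, ?_⟩
  ext v'
  rw [mem_sp, mem_sp]
  exact ⟨h.rect [] _ _ _ _ v v' hy.2 hv, h.rect [] _ _ _ _ v v' hv hy.2⟩

/-- words of length two -/
lemma LG3.two {F : Finset (List L)} (h : LG3 F 2) :
    2 * ∑ l : L, U 𝕜 (sl F l) ≤ 3 * U 𝕜 F := by
  have h1 : LGb F (1 + 1) 5 3 := by
    refine ⟨h.len, h.rect, ?_, h.last⟩
    intro u x y v hv h2
    exfalso
    have h3 := h.len _ h2
    have h4 : 1 ≤ v.length := List.length_pos_iff.2 hv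
    simp only [List.length_append, List.length_cons] at h3
    omega
  have h2 := (LGb.main (𝕜 := 𝕜) (b := 5) (c := 3) (x := 2 / 3) (by norm_num) (by norm_num)
    (by norm_num) (by norm_num) 1 F h1).1
  have h3 : (2 : ℚ) * ∑ l : L, (U 𝕜 (sl F l) : ℚ) ≤ 3 * U 𝕜 F := by linarith
  exact_mod_cast h3

/-- **The dimension compared with the number of words.** -/
theorem LG3.main (n : ℕ) : ∀ F : Finset (List L), LG3 F (n + 1) →
    (∑ l : L, U 𝕜 (sl F l) ≤ 2 * U 𝕜 F) ∧ (F.card ≤ 2 ^ n * U 𝕜 F) := by
  induction n with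
  | zero =>
    intro F hF
    have h1 : U 𝕜 F = F.card := U_short fun w hw => (hF.len w hw).le
    have h2 : ∀ l : L, U 𝕜 (sl F l) = (sl F l).card := fun l =>
      U_short fun w hw => ((hF.slice l).len w hw).le.trans (by norm_num)
    have h3 := sum_card_sl hF.len
    rw [Finset.sum_congr rfl fun l _ => h2 l, h1, ← h3]
    refine ⟨by omega, by rw [pow_zero, one_mul]⟩
  | succ n ih =>
    intro F hF
    have h1 := U_ge (𝕜 := 𝕜) (hF.rect [])
    have key : ∑ l : L, U 𝕜 (sl F l) ≤ 2 * U 𝕜 F := by
      rcases n with _ | n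
      · have h2 := LG3.two (𝕜 := 𝕜) hF
        have h3 : 0 ≤ ∑ l : L, U 𝕜 (sl F l) := Nat.zero_le _
        omega
      · have h5 : ∑ a : L, ∑ c : L, U 𝕜 (sl (sl F a) c) ≤
            ∑ a : L, 2 * U 𝕜 (sl F a) :=
          Finset.sum_le_sum fun a _ => (ih _ (hF.slice a)).1
        rcases n with _ | n
        · have h4 := classes_le (𝕜 := 𝕜) (F := F) (b := 3) (fun x hx => by
            obtain ⟨v, hv⟩ := hx
            have hv0 : v.length = 1 := by
              have := hF.len _ (mem_sp.1 hv)
              simpa using this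
            exact (hF.mid [] _ _ v hv0 (mem_sp.1 hv)).trans (hF.cl_card hv))
          have h6 : 2 * ∑ a : L, ∑ c : L, U 𝕜 (sl (sl F a) c) ≤ 3 * ∑ a : L, U 𝕜 (sl F a) := by
            rw [Finset.mul_sum, Finset.mul_sum]
            exact Finset.sum_le_sum fun a _ => LG3.two (𝕜 := 𝕜) (hF.slice a)
          omega
        · have h4 := classes_le (𝕜 := 𝕜) (F := F) (b := 4) (fun x hx => by
            obtain ⟨v, hv⟩ := hx
            have hv0 : 2 ≤ v.length := by
              have := hF.len _ (mem_sp.1 hv)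
              simp only [List.length_cons] at this
              omega
            exact (hF.inner [] _ _ v hv0 (mem_sp.1 hv)).trans (hF.cl_card hv))
          rw [← Finset.mul_sum] at h5
          omega
    refine ⟨key, ?_⟩
    rw [← sum_card_sl hF.len, pow_succ]
    calc ∑ l : L, (sl F l).card ≤ ∑ l : L, 2 ^ n * U 𝕜 (sl F l) :=
          Finset.sum_le_sum fun l _ => (ih _ (hF.slice l)).2
      _ = 2 ^ n * ∑ l : L, U 𝕜 (sl F l) := by rw [Finset.mul_sum]
      _ ≤ 2 ^ n * (2 * U 𝕜 F) := Nat.mul_le_mul_left _ key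
      _ = 2 ^ n * 2 * U 𝕜 F := by ring

end

end Vale.Agent.P240.R2.H281F
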