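import Vale.Agent.P240.R2.H281.EL
import Vale.Agent.P240.R2.H281.F2
import Vale.Agent.P240.R2.H829.EO

/-!
The frames of real lines of the classes `(1, ..., 1, d, d)`, `d` a nonsquare of `F_q`: planes.
-/

set_option autoImplicit false
set_option linter.all false

namespace Vale.Agent.P240.R2.H281F

open Finset Matrix
open Vale.Agent.P240.R2.AS (Ln Fr Orth mem_Fr)
open Vale.Agent.P240.R2.H387 (hf pr hf_def hf_star hf_add_right hf_add_left hf_smul_right
  hf_smul_left pr_apply pr_mulVec pr_mul_eq_zero pr_smul hf_symm_zero)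
open Vale.Agent.P240.R2.H986.E
open Vale.Agent.P240.R2.H281 (fx hilb star_ne circ mem_circ eight two_ne_of_odd)
open Vale.Agent.P240.R2.H281EL (cN mem_cN card_cN cN_one Fx fx_iff Fx.add Fx.smul Fx.real Fx.line
  exists_letter Lf.exists_vec L1.exists_vec L1.of_vec not_sq not_L1 z1 z2 z_facts z_sum z_inj
  fr_replace sm_append sm_two orth_two fr_two plane_le)
open scoped Classical

universe u

noncomputable section

section classes
variable {K : Type u} [Field K] [Fintype K] [StarRing K] {n : ℕ}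

/-- the class of a letter -/
def cls (P : Ln K n) : Bool × Bool := (decide (L1 (1 : K) P), decide (Lf (1 : K) P))

lemma L1.Lf {α : K} (hα : α * star α = 1) {P : Ln K n} (h : L1 α P) : Lf α P := by
  obtain ⟨z, h1, h2, h3⟩ := L1.exists_vec h
  unfold Vale.Agent.P240.R2.H986.E.Lf
  rw [h3]
  exact h1.line hα

lemma one_star : (1 : K) * star (1 : K) = 1 := by rw [star_one, mul_one]

lemma cls_one {P : Ln K n} : cls P = (true, true) ↔ L1 (1 : K) P := by
  unfold cls
  rw [Prod.mk.injEq, decide_eq_true_iff, decide_eq_true_iff]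
  exact ⟨fun h => h.1, fun h => ⟨h, L1.Lf one_star h⟩⟩

lemma cls_d {P : Ln K n} : cls P = (false, true) ↔ Lf (1 : K) P ∧ ¬ L1 (1 : K) P := by
  unfold cls
  rw [Prod.mk.injEq, decide_eq_true_iff, decide_eq_false_iff_not]
  exact and_comm

/-- the pattern -/
def pat (n : ℕ) : List (Bool × Bool) :=
  List.replicate (n - 2) (true, true) ++ [(false, true), (false, true)]

variable (K n) in
/-- the frames of the classes `(1, ..., 1, d, d)` -/
def FD : Finset (List (Ln K n)) := (Fr K n).filter fun w => w.map cls = pat n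

lemma mem_FD {w : List (Ln K n)} : w ∈ FD K n ↔ w ∈ Fr K n ∧ w.map cls = pat n := by
  unfold FD
  rw [Finset.mem_filter]

lemma mem_FD' {v : List (Ln K n)} {x y : Ln K n} : v ++ [x, y] ∈ FD K n ↔
    v ++ [x, y] ∈ Fr K n ∧ (∀ Q ∈ v, cls Q = (true, true)) ∧ cls x = (false, true) ∧
      cls y = (false, true) := by
  rw [mem_FD]
  refine and_congr_right fun h => ?_
  have hl := ((mem_Fr K).1 h).1
  rw [List.length_append] at hl
  have hl' : v.length = n - 2 := by
    simp only [List.length_cons, List.length_nil] at hl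
    omega
  rw [List.map_append, pat]
  constructor
  · intro h1
    obtain ⟨h2, h3⟩ := List.append_inj h1 (by rw [List.length_map, List.length_replicate, hl'])
    refine ⟨?_, ?_⟩
    · intro Q hQ
      have h4 : cls Q ∈ v.map cls := List.mem_map_of_mem hQ
      rw [h2] at h4
      exact List.eq_of_mem_replicate h4
    · simpa using h3
  · rintro ⟨h1, h2, h3⟩
    have h4 : v.map cls = List.replicate (n - 2) (true, true) := by
      rw [List.eq_replicate_iff]
      refine ⟨by rw [List.length_map, hl'], ?_⟩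
      intro b hb
      obtain ⟨Q, hQ, rfl⟩ := List.mem_map.1 hb
      exact h1 Q hQ
    rw [h4]
    simp [h2, h3]

/-- replacing a pair -/
lemma FD_replace {u v : List (Ln K n)} {x y P Q : Ln K n} (h : u ++ x :: y :: v ∈ FD K n)
    (hP : cls P = cls x) (hQ : cls Q = cls y) (hf : u ++ P :: Q :: v ∈ Fr K n) :
    u ++ P :: Q :: v ∈ FD K n := by
  rw [mem_FD] at h ⊢
  refine ⟨hf, ?_⟩
  rw [← h.2]
  simp [hP, hQ]

lemma FD_len {w : List (Ln K n)} (hw : w ∈ FD K n) : w.length = n :=
  ((mem_Fr K).1 (mem_FD.1 hw).1).1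

lemma FD_rect (u : List (Ln K n)) (a b c d : Ln K n) (v v' : List (Ln K n))
    (h1 : u ++ a :: b :: v ∈ FD K n) (h2 : u ++ c :: d :: v ∈ FD K n)
    (h3 : u ++ a :: b :: v' ∈ FD K n) : u ++ c :: d :: v' ∈ FD K n := by
  obtain ⟨a1, a2⟩ := mem_FD.1 h1
  obtain ⟨b1, b2⟩ := mem_FD.1 h2
  obtain ⟨c1, c2⟩ := mem_FD.1 h3
  have e1 : cls c = cls a ∧ cls d = cls b := by
    have h4 := b2.trans a2.symm
    simp only [List.map_append, List.map_cons] at h4
    have h5 := List.append_cancel_left h4
    simp only [List.cons.injEq] at h5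
    exact ⟨h5.1, h5.2.1⟩
  refine FD_replace h3 e1.1 e1.2 ?_
  have s1 := H387.sm_eq_one a1
  have s2 := H387.sm_eq_one b1
  have t1 : AS.sm [c, d] = AS.sm [a, b] := by
    have t2 : ∀ x y : Ln K n, AS.sm (u ++ x :: y :: v) = AS.sm u + AS.sm [x, y] + AS.sm v := by
      intro x y
      rw [show u ++ x :: y :: v = (u ++ [x, y]) ++ v by simp, sm_append, sm_append]
    rw [t2] at s1 s2
    exact add_left_cancel (add_right_cancel (s2.trans s1.symm))
  have h5 : u ++ ([a, b] ++ v') ∈ Fr K n := c1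
  exact fr_replace (g' := [c, d]) h5 (orth_two.2 (fr_two b1)) t1

end classes

section planes
variable {K : Type u} [Field K] [Fintype K] [StarRing K] {n q : ℕ}

lemma two_fx (hF : Fld K q) : (2 : fx K) ≠ 0 := by
  have h2 : (2 : K) ≠ 0 := by
    intro h
    have hodd : Odd (Nat.card K) := by rw [hF.2.1]; exact hF.1.pow
    exact two_ne_of_odd hodd h
  intro h
  apply h2
  have h3 := congrArg (fx K).subtype h
  rwa [map_ofNat, map_zero] at h3

lemma card_fx (hF : Fld K q) : Fintype.card (fx K) = q := by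
  rw [← Nat.card_eq_fintype_card]
  exact H986.St.card_F0 hF.2.1 hF.2.2

lemma eight_fx (hF : Fld K q) (hq : 7 ≤ q) : 8 ≤ (cN (1 : fx K)).card := by
  rw [cN_one]
  exact eight (K := fx K) (two_fx hF) (by rw [Nat.card_eq_fintype_card, card_fx hF]; exact hq)

/-- classes `(1, 1)` -/
lemma pairs_11 (hF : Fld K q) (hq : 7 ≤ q) {u v : List (Ln K n)} {x y : Ln K n}
    (h : u ++ x :: y :: v ∈ FD K n) (hx : cls x = (true, true)) (hy : cls y = (true, true)) :
    4 ≤ (univ.filter (fun z : Ln K n × Ln K n => u ++ z.1 :: z.2 :: v ∈ FD K n)).card := by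
  have a1 := (mem_FD.1 h).1
  obtain ⟨a, fa, haa, hxa⟩ := L1.exists_vec (cls_one.1 hx)
  obtain ⟨b, fb, hbb, hyb⟩ := L1.exists_vec (cls_one.1 hy)
  have hab : hf a b = 0 := by
    refine (pr_mul_eq_zero (by rw [haa]; exact one_ne_zero)
      (by rw [hbb]; exact one_ne_zero)).1 ?_
    rw [← hxa, ← hyb]
    exact fr_two a1
  have h3 := plane_le hF (G := FD K n) a1 (N := 1) one_ne_zero haa (by rw [hbb]; rfl) hxa hyb
    (by
      intro p hp P1 Q1 hP hQ hfr
      obtain ⟨f1, f2, -⟩ := z_facts (N := 1) haa (by rw [hbb]; rfl) hab hp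
      refine FD_replace h ?_ ?_ hfr
      · rw [hx, cls_one]
        exact L1.of_vec ((fa.smul p.1.2).add (fb.smul p.2.2)) f1 hP
      · rw [hy, cls_one]
        refine L1.of_vec ((fa.smul ?_).add (fb.smul p.1.2)) f2 hQ
        rw [star_neg, star_mul']
        congr 2
        · exact (1 : fx K).2
        · exact p.2.2)
  have h4 := eight_fx hF hq
  omega

/-- classes `(1, d)` -/
lemma pairs_1d (hF : Fld K q) (hq : 7 ≤ q) {u v : List (Ln K n)} {x y : Ln K n}
    (h : u ++ x :: y :: v ∈ FD K n) (hx : cls x = (true, true)) (hy : cls y = (false, true)) :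
    3 ≤ (univ.filter (fun z : Ln K n × Ln K n => u ++ z.1 :: z.2 :: v ∈ FD K n)).card := by
  have a1 := (mem_FD.1 h).1
  have a4 := (cls_d.1 hy).2
  obtain ⟨a, fa, haa, hxa⟩ := L1.exists_vec (cls_one.1 hx)
  obtain ⟨b, fb, hb0, hyb⟩ := Lf.exists_vec hF (cls_d.1 hy).1 one_star
  have hbr := fb.real one_star fb
  let N : fx K := ⟨hf b b, hbr⟩
  have hN : N ≠ 0 := fun h0 => hb0 (congrArg Subtype.val h0)
  have hab : hf a b = 0 := by
    refine (pr_mul_eq_zero (by rw [haa]; exact one_ne_zero) hb0).1 ?_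
    rw [← hxa, ← hyb]
    exact fr_two a1
  have h3 := plane_le hF (G := FD K n) a1 (N := N) hN haa rfl hxa hyb
    (by
      intro p hp P1 Q1 hP hQ hfr
      obtain ⟨f1, f2, -⟩ := z_facts (N := N) haa rfl hab hp
      have g1 : Fx 1 (z1 a b p) := (fa.smul p.1.2).add (fb.smul p.2.2)
      have g2 : Fx 1 (z2 N a b p) := by
        refine (fa.smul ?_).add (fb.smul p.1.2)
        rw [star_neg, star_mul']
        have e3 : star (N : K) = N := N.2
        have e4 : star (p.2 : K) = p.2 := p.2.2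
        rw [e3, e4]
      refine FD_replace h ?_ ?_ hfr
      · rw [hx, cls_one]
        exact L1.of_vec g1 f1 hP
      · rw [hy, cls_d]
        refine ⟨?_, ?_⟩
        · unfold Vale.Agent.P240.R2.H986.E.Lf
          rw [hQ]
          exact g2.line one_star
        · refine not_L1 one_star g2 hQ ?_
          intro r hr hrr
          rw [f2] at hrr
          have hr0 : r ≠ 0 := by
            rintro rfl
            rw [mul_zero] at hrr
            exact hb0 hrr.symm
          exact not_sq fb hyb a4 hr hr0 hrr)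
  have h4 := card_cN (two_fx hF) hN
  rw [card_fx hF] at h4
  omega

/-- the quotient of two nonsquares is a square -/
lemma sq_ratio {F : Type u} [Field F] [Fintype F] (h2 : (2 : F) ≠ 0) {a b : F} (ha : a ≠ 0)
    (hb : b ≠ 0) (ha' : ¬ IsSquare a) (hb' : ¬ IsSquare b) : ∃ r : F, r ≠ 0 ∧ b = r * r * a := by
  have hF : ringChar F ≠ 2 := by
    intro h
    apply h2
    have := CharP.cast_eq_zero F (ringChar F)
    rw [h] at this
    exact_mod_cast this
  have h3 : a ^ (Fintype.card F / 2) = -1 :=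
    (FiniteField.pow_dichotomy hF ha).resolve_left fun h => ha' ((FiniteField.isSquare_iff hF ha).2 h)
  have h4 : b ^ (Fintype.card F / 2) = -1 :=
    (FiniteField.pow_dichotomy hF hb).resolve_left fun h => hb' ((FiniteField.isSquare_iff hF hb).2 h)
  have h5 : b / a ≠ 0 := div_ne_zero hb ha
  have h6 : IsSquare (b / a) := by
    rw [FiniteField.isSquare_iff hF h5, div_pow, h3, h4]
    norm_num
  obtain ⟨r, hr⟩ := h6
  refine ⟨r, ?_, ?_⟩
  · rintro rfl
    rw [mul_zero] at hr
    exact h5 hr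
  · rw [← hr]
    field_simp

/-- classes `(d, d)` -/
lemma pairs_dd (hF : Fld K q) (hq : 7 ≤ q) {u v : List (Ln K n)} {x y : Ln K n}
    (h : u ++ x :: y :: v ∈ FD K n) (hx : cls x = (false, true)) (hy : cls y = (false, true)) :
    3 ≤ (univ.filter (fun z : Ln K n × Ln K n => u ++ z.1 :: z.2 :: v ∈ FD K n)).card := by
  have a1 := (mem_FD.1 h).1
  have a4 := (cls_d.1 hx).2
  have b4 := (cls_d.1 hy).2
  obtain ⟨a, fa, ha0, hxa⟩ := Lf.exists_vec hF (cls_d.1 hx).1 one_star
  obtain ⟨b, fb, hb0, hyb⟩ := Lf.exists_vec hF (cls_d.1 hy).1 one_star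
  have har := fa.real one_star fa
  have hbr := fb.real one_star fb
  have hab : hf a b = 0 := by
    refine (pr_mul_eq_zero ha0 hb0).1 ?_
    rw [← hxa, ← hyb]
    exact fr_two a1
  let A : fx K := ⟨hf a a, har⟩
  let B : fx K := ⟨hf b b, hbr⟩
  have hA : A ≠ 0 := fun h0 => ha0 (congrArg Subtype.val h0)
  have hB : B ≠ 0 := fun h0 => hb0 (congrArg Subtype.val h0)
  obtain ⟨r, hr0, hr⟩ := sq_ratio (two_fx hF) hA hB
    (by
      rintro ⟨s, hs⟩
      have hs0 : (s : K) ≠ 0 := by
        intro h0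
        have : s = 0 := Subtype.ext h0
        rw [this, mul_zero] at hs
        exact hA hs
      exact not_sq fa hxa a4 s.2 hs0 (congrArg Subtype.val hs).symm)
    (by
      rintro ⟨s, hs⟩
      have hs0 : (s : K) ≠ 0 := by
        intro h0
        have : s = 0 := Subtype.ext h0
        rw [this, mul_zero] at hs
        exact hB hs
      exact not_sq fb hyb b4 s.2 hs0 (congrArg Subtype.val hs).symm)
  have hr0' : (r : K) ≠ 0 := fun h0 => hr0 (Subtype.ext h0)
  have hrs : star (r : K) = r := r.2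
  have hr' : hf b b = r * r * hf a a := congrArg Subtype.val hr
  -- the rescaled second vector
  set b1 : Fin n → K := (r : K)⁻¹ • b with hb1
  have fb1 : Fx 1 b1 := fb.smul (by rw [star_inv₀, hrs])
  have hb11 : hf b1 b1 = hf a a := by
    rw [hb1, hf_smul_right, hf_smul_left, hr', star_inv₀, hrs]
    field_simp
  have hyb1 : y.1 = pr b1 := by rw [hb1, pr_smul (inv_ne_zero hr0'), hyb]
  have hab1 : hf a b1 = 0 := by rw [hb1, hf_smul_right, hab, mul_zero]
  -- unit vectors
  obtain ⟨e, he⟩ := H472.exists_norm (c := hf a a) (q := q)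
    (by rw [← Nat.card_eq_fintype_card]; exact hF.2.1) hF.2.2 ha0 (hf_star a a)
  have he0 : e ≠ 0 := by
    rintro rfl
    rw [mul_zero] at he
    exact ha0 he.symm
  have hse0 : star e ≠ 0 := fun h => he0 (by rw [← star_star e, h, star_zero])
  have hunit : ∀ x : Fin n → K, hf x x = hf a a → hf (e⁻¹ • x) (e⁻¹ • x) = 1 := by
    intro x hx
    rw [hf_smul_right, hf_smul_left, hx, ← he, star_inv₀]
    field_simp
  have haa := hunit a rfl
  have hbb := hunit b1 hb11
  have hz1 : ∀ p : fx K × fx K, z1 (e⁻¹ • a) (e⁻¹ • b1) p = e⁻¹ • z1 a b1 p := by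
    intro p
    unfold z1
    rw [smul_add, smul_comm (p.1 : K) e⁻¹ a, smul_comm (p.2 : K) e⁻¹ b1]
  have hz2 : ∀ p : fx K × fx K, z2 1 (e⁻¹ • a) (e⁻¹ • b1) p = e⁻¹ • z2 1 a b1 p := by
    intro p
    unfold z2
    rw [smul_add, smul_comm _ e⁻¹ a, smul_comm (p.1 : K) e⁻¹ b1]
  have hxa1 : x.1 = pr (e⁻¹ • a) := by rw [pr_smul (inv_ne_zero he0), hxa]
  have hyb2 : y.1 = pr (e⁻¹ • b1) := by rw [pr_smul (inv_ne_zero he0), hyb1]
  have hab2 : hf (e⁻¹ • a) (e⁻¹ • b1) = 0 := by
    rw [hf_smul_right, hf_smul_left, hab1, mul_zero, mul_zero]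
  have hnorm : ∀ x : Fin n → K, hf (e⁻¹ • x) (e⁻¹ • x) = 1 → hf x x = hf a a := by
    intro x hx
    rw [hf_smul_right, hf_smul_left, star_inv₀] at hx
    rw [← he]
    field_simp at hx
    linear_combination hx
  have h3 := plane_le hF (G := FD K n) a1 (N := 1) one_ne_zero haa (by rw [hbb]; rfl) hxa1 hyb2
    (by
      intro p hp P1 Q1 hP hQ hfr
      obtain ⟨f1, f2, -⟩ := z_facts (N := 1) haa (by rw [hbb]; rfl) hab2 hp
      rw [hz1, pr_smul (inv_ne_zero he0)] at hP
      rw [hz2, pr_smul (inv_ne_zero he0)] at hQ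
      rw [hz1] at f1
      rw [hz2] at f2
      have g1 : Fx 1 (z1 a b1 p) := (fa.smul p.1.2).add (fb1.smul p.2.2)
      have g2 : Fx 1 (z2 1 a b1 p) := by
        refine (fa.smul ?_).add (fb1.smul p.1.2)
        rw [star_neg, star_mul']
        have e3 : star ((1 : fx K) : K) = (1 : fx K) := (1 : fx K).2
        have e4 : star (p.2 : K) = p.2 := p.2.2
        rw [e3, e4]
      have f1' := hnorm _ f1
      have f2' : hf (z2 1 a b1 p) (z2 1 a b1 p) = hf a a := hnorm _ f2
      have key : ∀ (z : Fin n → K) (P : Ln K n), Fx 1 z → P.1 = pr z → hf z z = hf a a →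
          cls P = (false, true) := by
        intro z P gz hPz hz
        rw [cls_d]
        refine ⟨?_, ?_⟩
        · unfold Vale.Agent.P240.R2.H986.E.Lf
          rw [hPz]
          exact gz.line one_star
        · refine not_L1 one_star gz hPz ?_
          intro s hs hss
          rw [hz] at hss
          have hs0 : s ≠ 0 := by
            rintro rfl
            rw [mul_zero] at hss
            exact ha0 hss.symm
          exact not_sq fa hxa a4 hs hs0 hss
      refine FD_replace h ?_ ?_ hfr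
      · rw [hx]
        exact key _ _ g1 hP f1'
      · rw [hy]
        exact key _ _ g2 hQ f2')
  have h4 := eight_fx hF hq
  omega

/-- **the planes of `FD`** -/
theorem FD_LG3 (hF : Fld K q) (hq : 7 ≤ q) : LG3 (FD K n) n where
  len w hw := FD_len hw
  rect := FD_rect
  inner u x y v hv h := by
    obtain ⟨v1, Q, rfl⟩ := (v.eq_nil_or_concat').resolve_left (by rintro rfl; simp at hv)
    obtain ⟨v0, P, rfl⟩ := (v1.eq_nil_or_concat').resolve_left (by rintro rfl; simp at hv)
    have h' := h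
    rw [show u ++ x :: y :: (v0 ++ [P] ++ [Q]) = (u ++ x :: y :: v0) ++ [P, Q] by simp,
      mem_FD'] at h'
    exact pairs_11 hF hq h (h'.2.1 x (by simp)) (h'.2.1 y (by simp))
  mid u x y v hv h := by
    obtain ⟨P, rfl⟩ := List.length_eq_one_iff.1 hv
    have h' := h
    rw [show u ++ x :: y :: [P] = (u ++ [x]) ++ [y, P] by simp, mem_FD'] at h'
    exact pairs_1d hF hq h (h'.2.1 x (by simp)) h'.2.2.1
  last u x y h := by
    have h' := h
    rw [mem_FD'] at h'
    exact pairs_dd hF hq (v := []) h h'.2.2.1 h'.2.2.2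

end planes

end

end Vale.Agent.P240.R2.H281F
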