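import Vale.Agent.P240.R2.H281.F3

/-!
The frames of real lines of the classes `(1, ..., 1, d, d)`: existence, and their number compared with
the number of the real matrices in `SU`.
-/

set_option autoImplicit false
set_option linter.all false

namespace Vale.Agent.P240.R2.H281F

open Finset Matrix
open Vale.Agent.P240.R2.AS (Ln Fr Orth mem_Fr)
open Vale.Agent.P240.R2.H387 (hf pr hf_def hf_star hf_add_right hf_add_left hf_smul_right
  hf_smul_left pr_apply pr_mulVec pr_mul_eq_zero pr_smul hf_symm_zero)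
open Vale.Agent.P240.R2.H986.E
open Vale.Agent.P240.R2.H281 (fx hilb star_ne circ mem_circ eight two_ne_of_odd)
open Vale.Agent.P240.R2.H281EL (cN mem_cN card_cN cN_one Fx fx_iff Fx.add Fx.smul Fx.real Fx.line
  exists_letter Lf.exists_vec L1.exists_vec L1.of_vec not_sq not_L1 z1 z2 z_facts z_sum z_inj
  fr_replace sm_append sm_two orth_two fr_two plane_le)
open Vale.Agent.P240.R2.H38 (lnU lnU_coe lnU_inv lnU_inv' gu_star star_gu gu_mul gu_inv mem_Fr_map
  ln_star ln_mul mx mx_mul mx_one mx_inv mx_star E1 w0 w0_mem E1_coe vec_e1)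
open Vale.Agent.P240.R2.H829.EO
open Vale.Agent.P240.R2.AS (GU)
open scoped Classical

universe u

noncomputable section

section exist
variable {K : Type u} [Field K] [Fintype K] [StarRing K] {n q : ℕ}

/-- a nonsquare which is a sum of two squares -/
lemma exists_two_sq {F : Type u} [Field F] [Fintype F] (h2 : (2 : F) ≠ 0)
    (hodd : Fintype.card F % 2 = 1) : ∃ N s t : F, ¬ IsSquare N ∧ s * s + t * t = N := by
  have hF : ringChar F ≠ 2 := by
    intro h
    apply h2
    have := CharP.cast_eq_zero F (ringChar F)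
    rw [h] at this
    exact_mod_cast this
  obtain ⟨N, hN⟩ := FiniteField.exists_nonsquare hF
  obtain ⟨s, t, hst⟩ := FiniteField.exists_root_sum_quadratic
    (f := (Polynomial.X ^ 2 : Polynomial F)) (g := Polynomial.X ^ 2 - Polynomial.C N)
    (Polynomial.degree_X_pow 2) (Polynomial.degree_X_pow_sub_C (by norm_num) N) hodd
  refine ⟨N, s, t, hN, ?_⟩
  simp at hst
  linear_combination hst

lemma hf_single (i j : Fin n) : hf (Pi.single i (1 : K)) (Pi.single j (1 : K)) =
    if i = j then 1 else 0 := by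
  by_cases h : i = j
  · subst h
    simp [hf]
  · rw [if_neg h]
    simp [hf, h, Ne.symm h]

lemma E1_pr (i : Fin n) : (E1 i : Ln K n).1 = pr (Pi.single i (1 : K)) := by
  have h5 : hf (Pi.single i (1 : K)) (Pi.single i (1 : K)) = 1 := by simp [hf]
  rw [pr, h5, inv_one, one_smul, vec_e1]
  rfl

lemma Fx_single (i : Fin n) : Fx (1 : K) (Pi.single i (1 : K)) := by
  rw [fx_iff]
  intro j
  rw [ite_self, one_mul]
  by_cases hj : j = i
  · subst hj
    simp
  · rw [Pi.single_eq_of_ne hj, star_zero]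

lemma E1_cls (i : Fin n) : cls (E1 i : Ln K n) = (true, true) := by
  rw [cls_one]
  exact L1.of_vec (Fx_single i) (by simp [hf]) (E1_pr i)

theorem FD_nonempty (hF : Fld K q) (hn : 2 ≤ n) : (FD K n).Nonempty := by
  obtain ⟨m, rfl⟩ : ∃ m, n = m + 2 := ⟨n - 2, by omega⟩
  set i1 : Fin (m + 2) := (Fin.last m).castSucc with hi1
  set i2 : Fin (m + 2) := Fin.last (m + 1) with hi2
  have hi : i1 ≠ i2 := by
    intro h
    have := congrArg Fin.val h
    simp [hi1, hi2] at this
  have hw : w0 K (m + 2) = List.ofFn (fun i : Fin m => (E1 i.castSucc.castSucc : Ln K (m + 2))) ++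
      [E1 i1, E1 i2] := by
    unfold w0
    rw [List.ofFn_succ_last, List.ofFn_succ_last]
    simp [hi1, hi2]
  have hw0 := w0_mem (K := K) (n := m + 2)
  rw [hw] at hw0
  set v := List.ofFn (fun i : Fin m => (E1 i.castSucc.castSucc : Ln K (m + 2))) with hv
  obtain ⟨N, s, t, hN, hst⟩ := exists_two_sq (F := fx K) (two_fx hF) (by
    rw [card_fx hF]
    exact Nat.odd_iff.1 hF.1)
  have hN0 : N ≠ 0 := by
    rintro rfl
    exact hN ⟨0, by ring⟩
  have hN0' : (N : K) ≠ 0 := fun h => hN0 (Subtype.ext h)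
  have hst' : (s : K) * s + t * t = N := congrArg Subtype.val hst
  have hs : star (s : K) = s := s.2
  have ht : star (t : K) = t := t.2
  have hNs : star (N : K) = N := N.2
  set e : Fin (m + 2) → K := Pi.single i1 (1 : K) with he
  set f : Fin (m + 2) → K := Pi.single i2 (1 : K) with hf'
  have hee : hf e e = 1 := by rw [he, hf_single, if_pos rfl]
  have hff : hf f f = 1 := by rw [hf', hf_single, if_pos rfl]
  have hef : hf e f = 0 := by rw [he, hf', hf_single, if_neg hi]
  have hfe : hf f e = 0 := by rw [he, hf', hf_single, if_neg (Ne.symm hi)]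
  set a : Fin (m + 2) → K := (s : K) • e + (t : K) • f with ha
  set b : Fin (m + 2) → K := (-(t : K)) • e + (s : K) • f with hb
  have haa : hf a a = N := by
    rw [ha]
    simp only [hf_add_right, hf_add_left, hf_smul_right, hf_smul_left, hee, hff, hef, hfe, hs, ht]
    linear_combination hst'
  have hbb : hf b b = N := by
    rw [hb]
    simp only [hf_add_right, hf_add_left, hf_smul_right, hf_smul_left, hee, hff, hef, hfe, hs, ht,
      star_neg]
    linear_combination hst'
  have hab : hf a b = 0 := by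
    rw [ha, hb]
    simp only [hf_add_right, hf_add_left, hf_smul_right, hf_smul_left, hee, hff, hef, hfe, hs, ht,
      star_neg]
    ring
  have fa : Fx (1 : K) a := ((Fx_single i1).smul hs).add ((Fx_single i2).smul ht)
  have fb : Fx (1 : K) b := ((Fx_single i1).smul (by rw [star_neg, ht])).add ((Fx_single i2).smul hs)
  obtain ⟨P, hP⟩ := exists_letter hF (z := a) (by rw [haa]; exact hN0')
  obtain ⟨Q, hQ⟩ := exists_letter hF (z := b) (by rw [hbb]; exact hN0')
  have key : ∀ (z : Fin (m + 2) → K) (P : Ln K (m + 2)), Fx 1 z → P.1 = pr z → hf z z = N →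
      cls P = (false, true) := by
    intro z P gz hPz hz
    rw [cls_d]
    refine ⟨?_, ?_⟩
    · unfold Vale.Agent.P240.R2.H986.E.Lf
      rw [hPz]
      exact gz.line one_star
    · refine not_L1 one_star gz hPz ?_
      intro r hr hrr
      rw [hz] at hrr
      exact hN ⟨⟨r, hr⟩, Subtype.ext hrr.symm⟩
  refine ⟨v ++ [P, Q], mem_FD'.2 ⟨?_, ?_, key a P fa hP haa, key b Q fb hQ hbb⟩⟩
  · have h1 : v ++ ([E1 i1, E1 i2] ++ []) ∈ Fr K (m + 2) := by
      rw [List.append_nil]
      exact hw0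
    have h2 := fr_replace (g' := [P, Q]) h1 (orth_two.2 ?_) ?_
    · rw [List.append_nil] at h2
      exact h2
    · rw [hP, hQ]
      exact (pr_mul_eq_zero (by rw [haa]; exact hN0') (by rw [hbb]; exact hN0')).2 hab
    · rw [sm_two, sm_two, hP, hQ, E1_pr, E1_pr]
      ext i j
      rw [Matrix.add_apply, Matrix.add_apply, pr_apply, pr_apply, pr_apply, pr_apply, haa, hbb]
      rw [show hf (Pi.single i1 (1 : K)) (Pi.single i1 (1 : K)) = 1 from hee,
        show hf (Pi.single i2 (1 : K)) (Pi.single i2 (1 : K)) = 1 from hff]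
      simp only [ha, hb, he, hf', Pi.add_apply, Pi.smul_apply, smul_eq_mul, star_add, star_mul',
        star_neg, hs, ht]
      field_simp
      linear_combination ((Pi.single i1 (1 : K) : Fin (m + 2) → K) i *
        star ((Pi.single i1 (1 : K) : Fin (m + 2) → K) j) +
        (Pi.single i2 (1 : K) : Fin (m + 2) → K) i *
        star ((Pi.single i2 (1 : K) : Fin (m + 2) → K) j)) * hst'
  · intro R hR
    obtain ⟨i, rfl⟩ := List.mem_ofFn.1 hR
    exact E1_cls _

end exist

section action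
variable {K : Type u} [Field K] [Fintype K] [StarRing K] {n : ℕ}

lemma L1_map {α : K} (hα : α * star α = 1) {u : GU K n} (e : cD α u.1 = u.1) {P : Ln K n}
    (h : L1 α P) : L1 α (lnU u P) := by
  obtain ⟨x, h1, h2, h3⟩ := h
  refine ⟨u.1 *ᵥ x, ?_, ?_, ?_⟩
  · rw [star_mulVec', mulVec_mulVec, comm_of_cD hα e, ← mulVec_mulVec, h1]
  · rw [star_mulVec, ← star_eq_conjTranspose, ← dotProduct_mulVec, mulVec_mulVec, star_gu,
      one_mulVec, h2]
  · rw [lnU_coe, h3, mul_vecMulVec, vecMulVec_mul, star_mulVec, ← star_eq_conjTranspose]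

lemma Lf_map {α : K} (hα : α * star α = 1) {u : GU K n} (e : cD α u.1 = u.1) {P : Ln K n}
    (h : Lf α P) : Lf α (lnU u P) := by
  have h' : cD α P.1 = P.1 := h
  show cD α (lnU u P).1 = _
  rw [lnU_coe, cD_mul hα, cD_mul hα, cD_star, e, h']

lemma cls_map {u : GU K n} (e : cD 1 u.1 = u.1) (P : Ln K n) : cls (lnU u P) = cls P := by
  have e' : cD 1 (u⁻¹ : GU K n).1 = (u⁻¹ : GU K n).1 := by rw [gu_inv, cD_star, e]
  have h1 : L1 (1 : K) (lnU u P) ↔ L1 (1 : K) P :=
    ⟨fun h => by rw [← lnU_inv u P]; exact L1_map one_star e' h, L1_map one_star e⟩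
  have h2 : Lf (1 : K) (lnU u P) ↔ Lf (1 : K) P :=
    ⟨fun h => by rw [← lnU_inv u P]; exact Lf_map one_star e' h, Lf_map one_star e⟩
  unfold cls
  rw [Prod.mk.injEq]
  exact ⟨decide_eq_decide.2 h1, decide_eq_decide.2 h2⟩

lemma FD_map {u : GU K n} (e : cD 1 u.1 = u.1) {w : List (Ln K n)} (hw : w ∈ FD K n) :
    w.map (lnU u) ∈ FD K n := by
  rw [mem_FD] at hw ⊢
  refine ⟨(mem_Fr_map u).2 hw.1, ?_⟩
  rw [List.map_map, ← hw.2]
  exact List.map_congr_left fun P _ => cls_map e P

lemma smul_inj {P : Ln K n} {a b : K} (h : a • P.1 = b • P.1) : a = b := by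
  obtain ⟨x, hx, hP⟩ := P.2
  have h1 : ∀ c : K, star x ⬝ᵥ ((c • P.1) *ᵥ x) = c := by
    intro c
    rw [hP, smul_mulVec, vecMulVec_mulVec, hx]
    simp [hx]
  rw [← h1 a, h, h1 b]

/-- a real matrix that fixes a real line is a sign on it -/
lemma sign_of_fix {u : GU K n} (e : cD 1 u.1 = u.1) {P : Ln K n} (hP : Lf (1 : K) P)
    (h : lnU u P = P) : u.1 * P.1 = P.1 ∨ u.1 * P.1 = -P.1 := by
  have hPf : cD 1 P.1 = P.1 := hP
  have h1 : u.1 * P.1 = P.1 * u.1 := by
    have h2 := congrArg Subtype.val h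
    rw [lnU_coe] at h2
    calc u.1 * P.1 = u.1 * P.1 * (star u.1 * u.1) := by rw [star_gu, mul_one]
      _ = (u.1 * P.1 * star u.1) * u.1 := by simp only [mul_assoc]
      _ = _ := by rw [h2]
  obtain ⟨c, hc⟩ : ∃ c : K, u.1 * P.1 = c • P.1 := by
    obtain ⟨x, hx, hPx⟩ := P.2
    refine ⟨star x ⬝ᵥ (u.1 *ᵥ x), ?_⟩
    calc u.1 * P.1 = u.1 * (P.1 * P.1) := by rw [ln_mul]
      _ = P.1 * (u.1 * P.1) := by rw [← mul_assoc, h1, mul_assoc, h1]
      _ = _ := by
        rw [hPx, mul_vecMulVec, vecMulVec_mul_vecMulVec]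
        ext i j
        simp [vecMulVec_apply]
        ring
  have h3 : star c = c := by
    apply smul_inj (P := P)
    rw [← hc]
    calc star c • P.1 = cD 1 (c • P.1) := by rw [cD_smul, hPf]
      _ = cD 1 (u.1 * P.1) := by rw [hc]
      _ = u.1 * P.1 := by rw [cD_mul one_star, e, hPf]
  have h4 : c * c = 1 := by
    apply smul_inj (P := P)
    rw [one_smul]
    calc (c * c) • P.1 = star (c • P.1) * (c • P.1) := by
          rw [star_smul, smul_mul_smul_comm, ln_star, ln_mul, h3]
      _ = star (u.1 * P.1) * (u.1 * P.1) := by rw [hc]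
      _ = star P.1 * ((star u.1 * u.1) * P.1) := by rw [star_mul]; simp only [mul_assoc]
      _ = P.1 := by rw [star_gu, one_mul, ln_star, ln_mul]
  rcases mul_self_eq_one_iff.1 h4 with h5 | h5
  · left
    rw [hc, h5, one_smul]
  · right
    rw [hc, h5, neg_one_smul]

lemma mul_sm (A : Matrix (Fin n) (Fin n) K) (w : List (Ln K n)) :
    A * AS.sm w = (w.map fun P => A * P.1).sum := by
  unfold AS.sm
  induction w with
  | nil => simp
  | cons P w ih => simp [mul_add, ih]

variable (K) in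
/-- the elements of `SU` that are real -/
theorem card_C_le2 (hne : (FD K n).Nonempty) :
    Nat.card {h : H38.SU K n // cD 1 (mx h) = mx h} ≤ 2 ^ n * (FD K n).card := by
  obtain ⟨w1, hw1⟩ := hne
  have hlen := FD_len hw1
  have hLf : ∀ P ∈ w1, Lf (1 : K) P := by
    intro P hP
    have h1 : cls P ∈ w1.map cls := List.mem_map_of_mem hP
    rw [(mem_FD.1 hw1).2, pat] at h1
    have h2 : (cls P).2 = true := by
      rcases List.mem_append.1 h1 with h1 | h1
      · rw [List.eq_of_mem_replicate h1]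
      · simp at h1
        rw [h1]
    exact decide_eq_true_iff.1 h2
  set C := {h : H38.SU K n // cD 1 (mx h) = mx h} with hC
  have hrep : ∀ w : {w // w ∈ FD K n}, ∃ r : C, (∃ g : C, w1.map (lnU g.1.1) = w.1) →
      w1.map (lnU r.1.1) = w.1 := by
    intro w
    by_cases h : ∃ g : C, w1.map (lnU g.1.1) = w.1
    · obtain ⟨g, hg⟩ := h
      exact ⟨g, fun _ => hg⟩
    · refine ⟨⟨1, ?_⟩, fun h' => absurd h' h⟩
      rw [mx_one, cD_one one_star]
  choose r hr using hrep
  let W : C → {w // w ∈ FD K n} := fun h => ⟨w1.map (lnU h.1.1), FD_map h.2 hw1⟩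
  have hW : ∀ h : C, w1.map (lnU (r (W h)).1.1) = w1.map (lnU h.1.1) := fun h => hr (W h) ⟨h, rfl⟩
  let g : C → GU K n := fun h => (r (W h)).1.1⁻¹ * h.1.1
  have hg1 : ∀ h, ∀ P ∈ w1, lnU (g h) P = P := by
    intro h P hP
    have h1 := List.map_inj_left.1 (hW h) P hP
    show lnU ((r (W h)).1.1⁻¹ * h.1.1) P = P
    rw [lnU_mul, ← h1, lnU_inv]
  have hg2 : ∀ h, cD 1 (g h).1 = (g h).1 := by
    intro h
    show cD 1 (((r (W h)).1.1⁻¹ * h.1.1 : GU K n)).1 = _
    rw [gu_mul, gu_inv, cD_mul one_star, cD_star]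
    have e1 : cD 1 (r (W h)).1.1.1 = (r (W h)).1.1.1 := (r (W h)).2
    have e2 : cD 1 h.1.1.1 = h.1.1.1 := h.2
    rw [e1, e2]
  have hcard : Nat.card ({w // w ∈ FD K n} × (Fin w1.length → Bool)) =
      2 ^ n * (FD K n).card := by
    rw [Nat.card_prod, Nat.card_eq_fintype_card, Fintype.card_coe, Nat.card_eq_fintype_card,
      Fintype.card_fun, Fintype.card_bool, Fintype.card_fin, mul_comm, hlen]
  rw [← hcard]
  refine Nat.card_le_card_of_injective
    (fun h : C => (W h, fun i => decide ((g h).1 * (w1.get i).1 = (w1.get i).1))) ?_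
  intro h h' e
  have e1 : W h = W h' := congrArg Prod.fst e
  have e2 := congrArg Prod.snd e
  have e3 : g h = g h' := by
    apply Subtype.ext
    have hP : ∀ P ∈ w1, (g h).1 * P.1 = (g h').1 * P.1 := by
      intro P hP
      obtain ⟨i, rfl⟩ := List.mem_iff_get.1 hP
      have h3 := congrFun e2 i
      simp only [decide_eq_decide] at h3
      rcases sign_of_fix (hg2 h) (hLf _ hP) (hg1 h _ hP) with h4 | h4
      · rw [h4, h3.1 h4]
      · rcases sign_of_fix (hg2 h') (hLf _ hP) (hg1 h' _ hP) with h5 | h5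
        · rw [h5, h3.2 h5]
        · rw [h4, h5]
    have hs := H387.sm_eq_one (mem_FD.1 hw1).1
    calc (g h).1 = (g h).1 * AS.sm w1 := by rw [hs, mul_one]
      _ = (g h').1 * AS.sm w1 := by
        rw [mul_sm, mul_sm]
        exact congrArg List.sum (List.map_congr_left hP)
      _ = (g h').1 := by rw [hs, mul_one]
  have e4 : h.1.1 = h'.1.1 := by
    have h3 : (r (W h)).1.1⁻¹ * h.1.1 = (r (W h')).1.1⁻¹ * h'.1.1 := e3
    rw [e1] at h3
    exact mul_left_cancel h3
  exact Subtype.ext (Subtype.ext e4)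

end action

end

end Vale.Agent.P240.R2.H281F
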