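import Vale.Agent.P240.R2.H281.F1
import Vale.Agent.P240.R2.H281.F4
import Vale.Agent.P240.R2.H986.EInst

/-!
The count for the field automorphism of order two and even (or any) dimension `n ≥ 4`, `q ≥ 7` odd,
from the frames of real lines of the classes `(1, ..., 1, d, d)`.
-/

set_option autoImplicit false
set_option linter.all false

namespace Vale.Agent.P240.R2.H281F

open Finset Matrix
open Vale.Agent.P240.R2.AS (Ln Fr Orth mem_Fr)
open Vale.Agent.P240.R2.H986.E
open Vale.Agent.P240.R2.H38 (SCntN mx mx_mul mx_one mx_inv mx_star)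
open Vale.Agent.P240.R2.H829.EO
open Vale.Agent.P240.R2.AS (GU)
open Vale.Agent.P240.R2.H986.St Vale.Agent.P240.R2.H687
open scoped Classical

universe u

noncomputable section

variable {K : Type u} [Field K] [Fintype K] [StarRing K] {n q : ℕ}

lemma cD_one_eq (A : Matrix (Fin n) (Fin n) K) : cD 1 A = A.map star := by
  unfold cD Da
  have h1 : (diagonal fun i : Fin n => if i.1 + 1 = n then (1 : K) else 1) = 1 := by
    simp
  rw [h1, star_one, one_mul, mul_one]

variable (K) in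
/-- the elements of `SU` that are real up to scalars -/
theorem card_X_le2 (hF : Fld K q) (hn : 0 < n) (hne : (FD K n).Nonempty) :
    Nat.card {h : H38.SU K n // ∃ a : K, cD 1 (mx h) = a • mx h} ≤
      n.gcd (q + 1) * (2 ^ n * (FD K n).card) := by
  have hfin1 : Finite (Matrix (Fin n) (Fin n) K) :=
    inferInstanceAs (Finite (Fin n → Fin n → K))
  have hfin2 : Finite (unitaryGroup (Fin n) K) := Subtype.finite
  set X := {h : H38.SU K n // ∃ a : K, cD 1 (mx h) = a • mx h} with hX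
  set C := {h : H38.SU K n // cD 1 (mx h) = mx h} with hC
  let Z : Set K := {c : K | c ^ (n.gcd (q + 1)) = 1}
  have hZ : Nat.card Z ≤ n.gcd (q + 1) :=
    H687.card_roots_le (Nat.gcd_pos_of_pos_left _ hn)
  choose a ha using fun h : X => h.2
  have haZ : ∀ h, a h ∈ Z := by
    intro h
    obtain ⟨h1, h2⟩ := scal_facts one_star hn (ha h)
    have h3 : (a h) ^ (q + 1) = 1 := by rw [pow_succ, ← hF.2.2, mul_comm]; exact h2
    exact pow_gcd_eq_one.2 ⟨h1, h3⟩
  have hrep : ∀ z : K, ∃ r : X, (∃ g : X, a g = z) → a r = z := by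
    intro z
    by_cases h : ∃ g : X, a g = z
    · obtain ⟨g, hg⟩ := h
      exact ⟨g, fun _ => hg⟩
    · exact ⟨⟨1, 1, by rw [mx_one, cD_one one_star, one_smul]⟩, fun h' => absurd h' h⟩
  choose r hr using hrep
  have hra : ∀ h : X, a (r (a h)) = a h := fun h => hr _ ⟨h, rfl⟩
  have hc : ∀ h : X, cD 1 (mx (h.1 * (r (a h)).1⁻¹)) = mx (h.1 * (r (a h)).1⁻¹) := by
    intro h
    rw [mx_mul, mx_inv, cD_mul one_star, cD_star, ha h, ha (r (a h)), hra, star_smul,
      smul_mul_smul_comm, (scal_facts one_star hn (ha h)).2, one_smul]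
  calc Nat.card X ≤ Nat.card (Z × C) := by
        refine Nat.card_le_card_of_injective
          (fun h : X => ((⟨a h, haZ h⟩ : Z), (⟨h.1 * (r (a h)).1⁻¹, hc h⟩ : C))) ?_
        intro h h' e
        have e1 : a h = a h' := congrArg (fun x : Z × C => x.1.1) e
        have e2 : h.1 * (r (a h)).1⁻¹ = h'.1 * (r (a h')).1⁻¹ :=
          congrArg (fun x : Z × C => x.2.1) e
        rw [e1] at e2
        exact Subtype.ext (mul_right_cancel e2)
    _ = Nat.card Z * Nat.card C := Nat.card_prod _ _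
    _ ≤ _ := Nat.mul_le_mul hZ (card_C_le2 K hne)

/-- the dimension of the space of values on brackets of the real frames -/
theorem card_FD_le (h : Fld K q) (hq : 7 ≤ q) (hn : 3 ≤ n) {F' : Finset (List (Ln K n))}
    (hsub : FD K n ⊆ F') (hperm : ∀ w ∈ F', ∀ w', w.Perm w' → w' ∈ F') :
    (FD K n).card ≤ 2 ^ (n - 1) * AS.t F' := by
  obtain ⟨m, rfl⟩ : ∃ m, n = m + 1 := ⟨n - 1, by omega⟩
  have h1 := (LG3.main (𝕜 := ℚ) m (FD K (m + 1)) (FD_LG3 h hq)).2
  refine h1.trans ?_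
  rw [Nat.add_sub_cancel]
  refine Nat.mul_le_mul_left _ ?_
  refine U_le_t2 hsub hperm (fun P => ¬ L1 (1 : K) P) (fun w hw => by rw [FD_len hw]; exact hn) ?_
  intro w c d hw
  obtain ⟨-, h2, h3, h4⟩ := mem_FD'.1 hw
  exact ⟨(cls_d.1 h3).2, (cls_d.1 h4).2, fun y hy => not_not.2 (cls_one.1 (h2 y hy))⟩

/-- the numerical inequality -/
lemma num7 (hn : 4 ≤ n) (hq : 7 ≤ q) :
    n.gcd (q + 1) * (2 ^ n * 2 ^ (n - 1)) < n * (q + 1) ^ (n - 1) := by
  have hg : n.gcd (q + 1) ≤ n := Nat.gcd_le_left _ (by omega)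
  obtain ⟨m, rfl⟩ : ∃ m, n = m + 4 := ⟨n - 4, by omega⟩
  have h1 : (8 : ℕ) ^ (m + 3) ≤ (q + 1) ^ (m + 3) := Nat.pow_le_pow_left (by omega) _
  have h2 : (2 : ℕ) ^ (m + 4) * 2 ^ (m + 3) < 8 ^ (m + 3) := by
    rw [← pow_add, show (8 : ℕ) = 2 ^ 3 by norm_num, ← pow_mul]
    exact Nat.pow_lt_pow_right (by norm_num) (by omega)
  show (m + 4).gcd (q + 1) * (2 ^ (m + 4) * 2 ^ (m + 3)) < (m + 4) * (q + 1) ^ (m + 3)
  calc (m + 4).gcd (q + 1) * (2 ^ (m + 4) * 2 ^ (m + 3))
      ≤ (m + 4) * (2 ^ (m + 4) * 2 ^ (m + 3)) := Nat.mul_le_mul_right _ hg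
    _ < (m + 4) * 8 ^ (m + 3) := Nat.mul_lt_mul_of_pos_left h2 (by omega)
    _ ≤ _ := Nat.mul_le_mul_left _ h1

/-- **the count for the trivial discriminant, any dimension `≥ 4`, any odd `q ≥ 7`** -/
theorem scnt_even7 (h : Fld K q) (hq : 7 ≤ q) (hn : 4 ≤ n) {S : Subgroup (GU K n)}
    (hS : H38.SU K n ≤ S) {σ : K ≃+* K} (hσ : ∀ x, σ x = star x) : SCntN S σ := by
  refine SCntN.of_SU hS (fun a => by rw [hσ, hσ]) ?_
  have hfin1 : Finite (Matrix (Fin n) (Fin n) K) := inferInstanceAs (Finite (Fin n → Fin n → K))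
  have hfin2 : Finite (unitaryGroup (Fin n) K) := Subtype.finite
  have hgood := H387.good_Fs_herm h.2.1 h.2.2 hσ n
  refine ⟨H387.Fs σ n, H387.Fs_subset, fun w hw w' hp => hgood.perm w w' hp hw,
    fun w hw => (H387.mem_Fs.1 hw).2, ?_⟩
  have hsub : FD K n ⊆ H387.Fs σ n := by
    intro w hw
    obtain ⟨h1, h2⟩ := mem_FD.1 hw
    refine H387.mem_Fs.2 ⟨h1, fun P hP => ?_⟩
    have h3 : cls P ∈ w.map cls := List.mem_map_of_mem hP
    rw [h2, pat] at h3
    have h4 : (cls P).2 = true := by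
      rcases List.mem_append.1 h3 with h3 | h3
      · rw [List.eq_of_mem_replicate h3]
      · simp at h3
        rw [h3]
    have h6 : Lf (1 : K) P := decide_eq_true_iff.1 h4
    have h5 : cD 1 P.1 = P.1 := h6
    rw [cD_one_eq] at h5
    rw [H986.E.map_of hσ, h5]
  have hne := FD_nonempty h (n := n) (by omega)
  have hA := card_X_le2 K h (n := n) (by omega) hne
  simp only [cD_one_eq] at hA
  have hA' : Nat.card {h : H38.SU K n // ∃ a : K, (mx h).map σ = a • mx h} ≤
      n.gcd (q + 1) * (2 ^ n * (FD K n).card) := by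
    have e : ∀ g : H38.SU K n, (mx g).map σ = (mx g).map star := fun g => H986.E.map_of hσ _
    simp only [e]
    exact hA
  have ht := card_FD_le h hq (n := n) (by omega) hsub (fun w hw w' hp => hgood.perm w w' hp hw)
  obtain ⟨α, hα⟩ := exists_NSq h.two_ne
  have hU := (stmtEO K q h n (by omega) α hα).2
  have hnum := num7 hn hq
  set A := Nat.card {h : H38.SU K n // ∃ a : K, (mx h).map σ = a • mx h}
  set F := (Fr K n).card with hF
  set D := (FD K n).card with hD
  set t := AS.t (H387.Fs σ n)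
  have hDpos : 0 < D := hne.card_pos
  have htpos : 0 < t := by
    rcases Nat.eq_zero_or_pos t with h0 | h0
    · rw [h0, mul_zero] at ht
      omega
    · exact h0
  have hFpos : 0 < F := by
    obtain ⟨w, hw⟩ := hne
    exact Finset.card_pos.2 ⟨w, (mem_FD.1 hw).1⟩
  calc F * A ≤ F * (n.gcd (q + 1) * (2 ^ n * (2 ^ (n - 1) * t))) :=
        Nat.mul_le_mul_left _ (hA'.trans (Nat.mul_le_mul_left _ (Nat.mul_le_mul_left _ ht)))
    _ = (F * t) * (n.gcd (q + 1) * (2 ^ n * 2 ^ (n - 1))) := by ring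
    _ < (F * t) * (n * (q + 1) ^ (n - 1)) :=
        Nat.mul_lt_mul_of_pos_left hnum (Nat.mul_pos hFpos htpos)
    _ = n * (F * (q + 1) ^ (n - 1) * t) := by ring
    _ = n * (Nat.card (H38.SU K n) * t) := by rw [hU]

end

end Vale.Agent.P240.R2.H281F
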