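import Vale.Agent.P240.R2.H698.Graph
import Vale.Agent.P240.R2.H687.OddDefs

/-!
`StmtOG`: a cycle of rank two in `N⟨t⟩`, `p` odd. The graph: groups `⟨c⟩⟨y⟩`, `c ∈ N`, `y ∈ N t`, and
their subgroups `⟨y⟩` outside `N`.
-/

set_option autoImplicit false
set_option linter.unusedSectionVars false

namespace Vale.Agent.P240.R2.H281.OG

open Subgroup Vale.Agent.P240.K
open Vale.Agent.P240.R2.H698 (Cy card_le_Cy)
open scoped Classical

universe u v

section grp
variable {G : Type u} [Group G] {p : ℕ} {N : Subgroup G}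

lemma mem_cy {c y : G} (h : Commute c y) {g : G} (hg : g ∈ zpowers c ⊔ zpowers y) :
    ∃ i j : ℤ, g = c ^ i * y ^ j := by
  let E : Subgroup G :=
    { carrier := {g | ∃ i j : ℤ, g = c ^ i * y ^ j}
      mul_mem' := by
        rintro _ _ ⟨i, j, rfl⟩ ⟨k, l, rfl⟩
        refine ⟨i + k, j + l, ?_⟩
        have h1 : y ^ j * c ^ k = c ^ k * y ^ j := ((h.zpow_zpow k j).symm).eq
        rw [zpow_add, zpow_add]
        calc c ^ i * y ^ j * (c ^ k * y ^ l) = c ^ i * (y ^ j * c ^ k) * y ^ l := by group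
          _ = c ^ i * (c ^ k * y ^ j) * y ^ l := by rw [h1]
          _ = c ^ i * c ^ k * (y ^ j * y ^ l) := by group
      one_mem' := ⟨0, 0, by simp⟩
      inv_mem' := by
        rintro _ ⟨i, j, rfl⟩
        refine ⟨-i, -j, ?_⟩
        have h1 : y ^ (-j) * c ^ (-i) = c ^ (-i) * y ^ (-j) := ((h.zpow_zpow (-i) (-j)).symm).eq
        rw [mul_inv_rev, ← zpow_neg, ← zpow_neg, h1] }
  have hle : zpowers c ⊔ zpowers y ≤ E := by
    refine sup_le (zpowers_le.2 ⟨1, 0, by simp⟩) (zpowers_le.2 ⟨0, 1, by simp⟩)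
  exact hle hg

/-- a pair `(c, y)` -/
structure Pr (p : ℕ) (N : Subgroup G) (c y : G) : Prop where
  c_mem : c ∈ N
  c_pow : c ^ p = 1
  c_ne : c ≠ 1
  y_mem : y ∉ N
  y_pow : y ^ p = 1
  com : Commute c y

variable [hp : Fact p.Prime]

lemma outer {y : G} (hy : y ∉ N) (hyp : y ^ p = 1) {j : ℤ} (hj : y ^ j ∈ N) : y ^ j = 1 := by
  by_cases h : (p : ℤ) ∣ j
  · obtain ⟨k, rfl⟩ := h
    rw [zpow_mul, zpow_natCast, hyp, one_zpow]
  · exfalso
    have h1 : IsCoprime j (p : ℤ) := by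
      rw [isCoprime_comm]
      exact (Prime.coprime_iff_not_dvd (Nat.prime_iff_prime_int.1 hp.out)).2 h
    obtain ⟨a, b, hab⟩ := h1
    apply hy
    have h2 : y = (y ^ j) ^ a := by
      calc y = y ^ (a * j + b * p) := by rw [hab, zpow_one]
        _ = (y ^ j) ^ a * (y ^ (p : ℤ)) ^ b := by
            rw [zpow_add, mul_comm a j, zpow_mul, mul_comm b (p : ℤ), zpow_mul]
        _ = (y ^ j) ^ a := by rw [zpow_natCast, hyp, one_zpow, mul_one]
    rw [h2]
    exact zpow_mem hj a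

variable {c y : G}

lemma Pr.inter (h : Pr p N c y) {g : G} (hg : g ∈ zpowers c ⊔ zpowers y) (hgN : g ∈ N) :
    g ∈ zpowers c := by
  obtain ⟨i, j, rfl⟩ := mem_cy h.com hg
  have h1 : y ^ j ∈ N := by
    have h2 := N.mul_mem (N.inv_mem (zpow_mem h.c_mem i)) hgN
    rwa [inv_mul_cancel_left] at h2
  rw [outer h.y_mem h.y_pow h1, mul_one]
  exact zpow_mem (mem_zpowers c) i

lemma Pr.y_ne (h : Pr p N c y) : y ≠ 1 := by
  intro h1
  exact h.y_mem (h1 ▸ one_mem N)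

lemma Pr.card (h : Pr p N c y) : Nat.card (zpowers c ⊔ zpowers y : Subgroup G) = p ^ 2 := by
  have hc : Nat.card (zpowers c) = p := by
    rw [Nat.card_zpowers]
    exact orderOf_eq_prime h.c_pow h.c_ne
  have hy : Nat.card (zpowers y) = p := by
    rw [Nat.card_zpowers]
    exact orderOf_eq_prime h.y_pow h.y_ne
  have h1 : Nat.card (zpowers c × zpowers y) = Nat.card (zpowers c ⊔ zpowers y : Subgroup G) := by
    refine Nat.card_eq_of_bijective
      (fun x : zpowers c × zpowers y => (⟨x.1.1 * x.2.1, mul_mem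
        (le_sup_left (b := zpowers y) x.1.2) (le_sup_right (a := zpowers c) x.2.2)⟩ :
        (zpowers c ⊔ zpowers y : Subgroup G))) ⟨?_, ?_⟩
    · rintro ⟨a, b⟩ ⟨a', b'⟩ hab
      have h2 : a.1 * b.1 = a'.1 * b'.1 := congrArg Subtype.val hab
      have h3 : b.1 * b'.1⁻¹ = a.1⁻¹ * a'.1 := by
        rw [eq_inv_mul_iff_mul_eq, ← mul_assoc, h2, mul_inv_cancel_right]
      have h4 : b.1 * b'.1⁻¹ ∈ N := by
        rw [h3]
        exact N.mul_mem (N.inv_mem ((zpowers_le.2 h.c_mem) a.2)) ((zpowers_le.2 h.c_mem) a'.2)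
      have h5 : b.1 * b'.1⁻¹ ∈ zpowers y := mul_mem b.2 (inv_mem b'.2)
      obtain ⟨j, hj⟩ := mem_zpowers_iff.1 h5
      have h6 : b.1 * b'.1⁻¹ = 1 := by
        rw [← hj]
        exact outer h.y_mem h.y_pow (by rw [hj]; exact h4)
      have h7 : b.1 = b'.1 := mul_inv_eq_one.1 h6
      rw [h7] at h2
      exact Prod.ext (Subtype.ext (mul_right_cancel h2)) (Subtype.ext h7)
    · rintro ⟨g, hg⟩
      obtain ⟨i, j, rfl⟩ := mem_cy h.com hg
      exact ⟨(⟨c ^ i, zpow_mem (mem_zpowers c) i⟩, ⟨y ^ j, zpow_mem (mem_zpowers y) j⟩), rfl⟩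
  rw [← h1, Nat.card_prod, hc, hy, pow_two]

lemma Pr.lt (h : Pr p N c y) : zpowers y < zpowers c ⊔ zpowers y := by
  refine lt_of_le_of_ne le_sup_right fun he => ?_
  have h1 := h.card
  rw [← he, Nat.card_zpowers, orderOf_eq_prime h.y_pow h.y_ne] at h1
  have h2 := hp.out.two_le
  nlinarith [h1]

lemma Pr.comm (h : Pr p N c y) : ∀ a ∈ zpowers c ⊔ zpowers y, ∀ b ∈ zpowers c ⊔ zpowers y,
    a * b = b * a := by
  intro a ha b hb
  obtain ⟨i, j, rfl⟩ := mem_cy h.com ha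
  obtain ⟨k, l, rfl⟩ := mem_cy h.com hb
  have e1 : Commute (c ^ i) (c ^ k) := (Commute.refl c).zpow_zpow i k
  have e2 : Commute (c ^ i) (y ^ l) := h.com.zpow_zpow i l
  have e3 : Commute (y ^ j) (c ^ k) := (h.com.zpow_zpow k j).symm
  have e4 : Commute (y ^ j) (y ^ l) := (Commute.refl y).zpow_zpow j l
  exact ((e1.mul_right e2).mul_left (e3.mul_right e4)).eq

lemma Pr.pow (h : Pr p N c y) : ∀ a ∈ zpowers c ⊔ zpowers y, a ^ p = 1 := by
  intro a ha
  obtain ⟨i, j, rfl⟩ := mem_cy h.com ha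
  have e : Commute (c ^ i) (y ^ j) := h.com.zpow_zpow i j
  rw [e.mul_pow, ← zpow_natCast, ← zpow_natCast, ← zpow_mul, ← zpow_mul, mul_comm i, mul_comm j,
    zpow_mul, zpow_mul, zpow_natCast, zpow_natCast, h.c_pow, h.y_pow, one_zpow, one_zpow, one_mul]

/-- another outer element -/
lemma Pr.shift (h : Pr p N c y) (i : ℕ) : Pr p N c (c ^ i * y) where
  c_mem := h.c_mem
  c_pow := h.c_pow
  c_ne := h.c_ne
  y_mem := by
    intro h1
    apply h.y_mem
    have h2 := N.mul_mem (N.inv_mem (pow_mem h.c_mem i)) h1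
    rwa [inv_mul_cancel_left] at h2
  y_pow := by
    have e : Commute (c ^ i) y := h.com.pow_left i
    rw [e.mul_pow, ← pow_mul, mul_comm i, pow_mul, h.c_pow, h.y_pow, one_pow, one_mul]
  com := ((Commute.refl c).pow_right i).mul_right h.com

lemma Pr.sup_shift (_h : Pr p N c y) (i : ℕ) :
    zpowers c ⊔ zpowers (c ^ i * y) = zpowers c ⊔ zpowers y := by
  apply le_antisymm
  · refine sup_le le_sup_left (zpowers_le.2 (mul_mem ?_ ?_))
    · exact le_sup_left (b := zpowers y) (pow_mem (mem_zpowers c) i)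
    · exact le_sup_right (a := zpowers c) (mem_zpowers y)
  · refine sup_le le_sup_left (zpowers_le.2 ?_)
    have h1 : c ^ i ∈ zpowers c ⊔ zpowers (c ^ i * y) :=
      le_sup_left (b := zpowers (c ^ i * y)) (pow_mem (mem_zpowers c) i)
    have h2 : c ^ i * y ∈ zpowers c ⊔ zpowers (c ^ i * y) :=
      le_sup_right (a := zpowers c) (mem_zpowers _)
    have h3 := mul_mem (inv_mem h1) h2
    rwa [inv_mul_cancel_left] at h3

lemma Pr.shift_inj (h : Pr p N c y) (hp2 : p ≠ 2) {i j : ℕ} (hi : i < 3) (hj : j < 3)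
    (he : zpowers (c ^ i * y) = zpowers (c ^ j * y)) : i = j := by
  have h1 : c ^ i * y ∈ zpowers (c ^ j * y) := by rw [← he]; exact mem_zpowers _
  have h2 : c ^ j * y ∈ zpowers (c ^ j * y) := mem_zpowers _
  have h3 : c ^ i * y * (c ^ j * y)⁻¹ ∈ zpowers (c ^ j * y) := mul_mem h1 (inv_mem h2)
  have h4 : c ^ i * y * (c ^ j * y)⁻¹ = c ^ i * (c ^ j)⁻¹ := by group
  have h5 : c ^ i * (c ^ j)⁻¹ ∈ N := N.mul_mem (pow_mem h.c_mem i) (N.inv_mem (pow_mem h.c_mem j))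
  rw [h4] at h3
  obtain ⟨k, hk⟩ := mem_zpowers_iff.1 h3
  have h6 := outer (h.shift j).y_mem (h.shift j).y_pow (j := k) (by rw [hk]; exact h5)
  rw [hk, mul_inv_eq_one] at h6
  have h7 : orderOf c = p := orderOf_eq_prime h.c_pow h.c_ne
  have h8 : 3 ≤ p := by
    have := hp.out.two_le
    omega
  exact pow_injOn_Iio_orderOf (by rw [h7]; exact lt_of_lt_of_le hi h8)
    (by rw [h7]; exact lt_of_lt_of_le hj h8) h6

lemma Pr.mem_Ain (h : Pr p N c y) {H : Subgroup G} (hN : N ≤ H) (hy : y ∈ H) :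
    zpowers c ⊔ zpowers y ∈ Ain p H := by
  refine ⟨⟨fun hb => ?_, h.comm, h.pow⟩, sup_le (zpowers_le.2 (hN h.c_mem)) (zpowers_le.2 hy)⟩
  have h1 : y ∈ (⊥ : Subgroup G) := by
    rw [← hb]
    exact le_sup_right (a := zpowers c) (mem_zpowers y)
  exact h.y_ne (mem_bot.1 h1)

lemma Pr.mem_Ain' (h : Pr p N c y) {H : Subgroup G} (hN : N ≤ H) (hy : y ∈ H) :
    zpowers y ∈ Ain p H := by
  refine ⟨⟨fun hb => h.y_ne (zpowers_eq_bot.1 hb), fun a ha b hb => ?_, fun a ha => ?_⟩,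
    zpowers_le.2 hy⟩
  · exact h.comm a (le_sup_right (a := zpowers c) ha) b (le_sup_right (a := zpowers c) hb)
  · exact h.pow a (le_sup_right (a := zpowers c) ha)

end grp

noncomputable section flags
variable {G : Type u} [Group G] [Finite G] (p : ℕ) (N : Subgroup G) (t : G)

/-- the pairs `(c, y)` with `y ∈ N t` -/
def PR : Finset (G × G) :=
  (Set.toFinite {x : G × G | Pr p N x.1 x.2 ∧ x.2 * t⁻¹ ∈ N}).toFinset

/-- the flags -/
def Fl : Finset (Subgroup G × Subgroup G) :=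
  (PR p N t).image fun x => (zpowers x.1 ⊔ zpowers x.2, zpowers x.2)

variable {p N t}

lemma mem_PR {x : G × G} : x ∈ PR p N t ↔ Pr p N x.1 x.2 ∧ x.2 * t⁻¹ ∈ N :=
  Set.Finite.mem_toFinset _

variable [hp : Fact p.Prime]

lemma card_fst (hp2 : p ≠ 2) : 3 * ((Fl p N t).image Prod.fst).card ≤ (Fl p N t).card := by
  refine Finset.mul_card_image_le_card (Fl p N t) 3 ?_
  intro E hE
  rw [Finset.mem_image] at hE
  obtain ⟨f, hf, rfl⟩ := hE
  obtain ⟨⟨c, y⟩, hx, rfl⟩ := Finset.mem_image.1 hf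
  obtain ⟨h, hy⟩ := mem_PR.1 hx
  simp only at h hy ⊢
  have h1 : ((Finset.range 3).image fun i : ℕ => (zpowers c ⊔ zpowers y, zpowers (c ^ i * y))) ⊆
      (Fl p N t).filter fun f => f.1 = zpowers c ⊔ zpowers y := by
    intro f hf
    obtain ⟨i, -, rfl⟩ := Finset.mem_image.1 hf
    rw [Finset.mem_filter]
    refine ⟨Finset.mem_image.2 ⟨(c, c ^ i * y), mem_PR.2 ⟨h.shift i, ?_⟩, ?_⟩, rfl⟩
    · change c ^ i * y * t⁻¹ ∈ N
      rw [mul_assoc]
      exact N.mul_mem (pow_mem h.c_mem i) hy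
    · simp only
      rw [h.sup_shift i]
  have h2 : ((Finset.range 3).image
      fun i : ℕ => (zpowers c ⊔ zpowers y, zpowers (c ^ i * y))).card = 3 := by
    rw [Finset.card_image_of_injOn, Finset.card_range]
    intro i hi j hj hij
    exact h.shift_inj hp2 (Finset.mem_range.1 hi) (Finset.mem_range.1 hj) (Prod.mk.inj hij).2
  rw [← h2]
  exact Finset.card_le_card h1

lemma card_snd (hB : ∀ y, y * t⁻¹ ∈ N → y ^ p = 1 → ∀ c ∈ N, c ^ p = 1 → c ≠ 1 → c * y = y * c →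
      ∃ c' ∈ N, c' ^ p = 1 ∧ c' * y = y * c' ∧ c' ∉ zpowers c) :
    2 * ((Fl p N t).image Prod.snd).card ≤ (Fl p N t).card := by
  refine Finset.mul_card_image_le_card (Fl p N t) 2 ?_
  intro Z hZ
  rw [Finset.mem_image] at hZ
  obtain ⟨f, hf, rfl⟩ := hZ
  obtain ⟨⟨c, y⟩, hx, rfl⟩ := Finset.mem_image.1 hf
  obtain ⟨h, hy⟩ := mem_PR.1 hx
  simp only at h hy ⊢
  obtain ⟨c', h1, h2, h3, h4⟩ := hB y hy h.y_pow c h.c_mem h.c_pow h.c_ne h.com
  have h' : Pr p N c' y := ⟨h1, h2, fun h0 => h4 (h0 ▸ one_mem _), h.y_mem, h.y_pow, h3⟩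
  have h5 : ({(zpowers c ⊔ zpowers y, zpowers y), (zpowers c' ⊔ zpowers y, zpowers y)} :
      Finset (Subgroup G × Subgroup G)) ⊆ (Fl p N t).filter fun f => f.2 = zpowers y := by
    intro f hf
    rw [Finset.mem_insert, Finset.mem_singleton] at hf
    rw [Finset.mem_filter]
    rcases hf with rfl | rfl
    · exact ⟨Finset.mem_image.2 ⟨(c, y), mem_PR.2 ⟨h, hy⟩, rfl⟩, rfl⟩
    · exact ⟨Finset.mem_image.2 ⟨(c', y), mem_PR.2 ⟨h', hy⟩, rfl⟩, rfl⟩
  have h6 : ({(zpowers c ⊔ zpowers y, zpowers y), (zpowers c' ⊔ zpowers y, zpowers y)} :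
      Finset (Subgroup G × Subgroup G)).card = 2 := by
    rw [Finset.card_pair]
    intro he
    apply h4
    refine h.inter ?_ h1
    rw [(Prod.mk.inj he).1]
    exact le_sup_left (b := zpowers y) (mem_zpowers c')
  rw [← h6]
  exact Finset.card_le_card h5

end flags

/-- OG -/
theorem stmtOG : H687.Odd.StmtOG.{u, v} := by
  intro p hp hp2 𝕜 _ G _ _ N t htp htN _ hA hB
  obtain ⟨c, hcN, hcp, hc1, hct⟩ := hA
  have h0 : ((c, t) : G × G) ∈ PR p N t := mem_PR.2 ⟨⟨hcN, hcp, hc1, htN, htp, hct⟩, by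
    change t * t⁻¹ ∈ N
    rw [mul_inv_cancel]
    exact one_mem N⟩
  have h1 : (zpowers c ⊔ zpowers t, zpowers t) ∈ Fl p N t := Finset.mem_image.2 ⟨_, h0, rfl⟩
  have h2 := card_fst (p := p) (N := N) (t := t) hp2
  have h3 := card_snd (p := p) (N := N) (t := t) hB
  have h4 := card_le_Cy (Fl p N t)
  have h5 : 0 < (Fl p N t).card := Finset.card_pos.2 ⟨_, h1⟩
  have h6 : 0 < Module.finrank ℚ (Cy (Fl p N t)) := by omega
  obtain ⟨c', hc'⟩ := (Module.finrank_pos_iff_exists_ne_zero (R := ℚ)).1 h6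
  have hmem : ∀ x ∈ PR p N t, x.2 ∈ N ⊔ zpowers t := by
    intro x hx
    have h7 := (mem_PR.1 hx).2
    have h8 := mul_mem (le_sup_left (b := zpowers t) h7)
      (le_sup_right (a := N) (mem_zpowers t))
    rwa [inv_mul_cancel_right] at h8
  obtain ⟨B, ⟨x, hx, rfl⟩, α, φ, h7, -⟩ := H945.topCycle_of_rat (p := p) 𝕜 (H := N ⊔ zpowers t)
    (m := 2) (T := {B | ∃ x ∈ PR p N t, B = zpowers x.1 ⊔ zpowers x.2}) (by
      rintro _ ⟨x, hx, rfl⟩
      exact (mem_PR.1 hx).1.card) (c := c'.1) (by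
      refine Sp_mono ?_ c'.2.1
      rintro l ⟨a, ha, rfl⟩
      obtain ⟨x, hx, rfl⟩ := Finset.mem_image.1 ha
      have h8 := (mem_PR.1 hx).1
      refine ⟨⟨⟨?_, ?_⟩, rfl⟩, _, ⟨x, hx, rfl⟩, rfl⟩
      · simpa using h8.lt
      · intro a ha
        rcases List.mem_pair.1 ha with rfl | rfl
        · exact h8.mem_Ain le_sup_left (hmem x hx)
        · exact h8.mem_Ain' le_sup_left (hmem x hx)) c'.2.2 (fun h9 => hc' (Subtype.ext h9))
  obtain ⟨h8, h9⟩ := mem_PR.1 hx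
  exact ⟨x.2, h9, h8.y_pow, x.1, h8.c_mem, h8.c_pow, h8.c_ne, h8.com, α, φ, h7⟩

end Vale.Agent.P240.R2.H281.OG
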