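import Vale.Agent.P240.R2.H687.OddDefs
import Vale.Agent.P240.R2.H401.NL5c

/-!
`StmtOP3`: the outer part of the automorphisms of odd prime order of `PSp_{2m}(K)` is cyclic.
-/

set_option autoImplicit false
set_option linter.unusedSectionVars false

namespace Vale.Agent.P240.R2.H281.OP

open Matrix Subgroup
open Vale.Agent.P240.R2.H715 (Sy Acts)
open Vale.Agent.P240.R2.H687.Odd (PSpHomA StmtOP3)

universe u v

section sim
variable {K : Type u} [Field K] {m : ℕ}

/-- similitudes -/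
structure Sim (M : Matrix (Fin m ⊕ Fin m) (Fin m ⊕ Fin m) K) (μ : K) : Prop where
  ne : μ ≠ 0
  eq : M * J (Fin m) K * Mᵀ = μ • J (Fin m) K

variable {M M' : Matrix (Fin m ⊕ Fin m) (Fin m ⊕ Fin m) K} {μ μ' : K}

lemma Sim.exists_inv (h : Sim M μ) : ∃ A : Matrix (Fin m ⊕ Fin m) (Fin m ⊕ Fin m) K,
    M * A = 1 ∧ A * M = 1 ∧ Sim A μ⁻¹ := by
  have h1 : M * (-(μ⁻¹ • (J (Fin m) K * Mᵀ * J (Fin m) K))) = 1 := by
    calc M * (-(μ⁻¹ • (J (Fin m) K * Mᵀ * J (Fin m) K)))
        = -(μ⁻¹ • ((M * J (Fin m) K * Mᵀ) * J (Fin m) K)) := by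
          simp only [mul_neg, mul_smul_comm, mul_assoc]
      _ = 1 := by
          rw [h.eq, smul_mul_assoc, J_squared, smul_smul, inv_mul_cancel₀ h.ne, one_smul, neg_neg]
  have h2 := mul_eq_one_comm.1 h1
  refine ⟨_, h1, h2, inv_ne_zero h.ne, ?_⟩
  set A := -(μ⁻¹ • (J (Fin m) K * Mᵀ * J (Fin m) K)) with hA
  have h3 : A * (M * J (Fin m) K * Mᵀ) * Aᵀ = J (Fin m) K := by
    calc A * (M * J (Fin m) K * Mᵀ) * Aᵀ = (A * M) * J (Fin m) K * (A * M)ᵀ := by
          rw [transpose_mul]; simp only [mul_assoc]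
      _ = J (Fin m) K := by rw [h2, transpose_one, one_mul, mul_one]
  rw [h.eq, mul_smul_comm, smul_mul_assoc] at h3
  rw [← h3, smul_smul, inv_mul_cancel₀ h.ne, one_smul, h3]

lemma Sim.mul (h : Sim M μ) (h' : Sim M' μ') : Sim (M * M') (μ * μ') := by
  refine ⟨mul_ne_zero h.ne h'.ne, ?_⟩
  calc M * M' * J (Fin m) K * (M * M')ᵀ = M * (M' * J (Fin m) K * M'ᵀ) * Mᵀ := by
        rw [transpose_mul]; simp only [mul_assoc]
    _ = (μ * μ') • J (Fin m) K := by
        rw [h'.eq, mul_smul_comm, smul_mul_assoc, h.eq, smul_smul, mul_comm]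

lemma map_J (σ : K ≃+* K) : (J (Fin m) K).map σ = J (Fin m) K := by
  rw [J, fromBlocks_map]
  congr 1
  · ext i j; simp
  · ext i j
    by_cases hij : i = j
    · subst hij; simp
    · simp [Matrix.one_apply_ne hij]
  · ext i j
    by_cases hij : i = j
    · subst hij; simp
    · simp [Matrix.one_apply_ne hij]
  · ext i j; simp

lemma map_mul' (σ : K ≃+* K) (A B : Matrix (Fin m ⊕ Fin m) (Fin m ⊕ Fin m) K) :
    (A * B).map σ = A.map σ * B.map σ := by
  ext i j
  simp [mul_apply, map_sum]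

lemma Sim.map (h : Sim M μ) (σ : K ≃+* K) : Sim (M.map σ) (σ μ) := by
  refine ⟨by simpa using h.ne, ?_⟩
  have h1 := congrArg (fun A => A.map σ) h.eq
  simp only [map_mul', map_J] at h1
  rw [← transpose_map, h1]
  ext i j
  have h2 : σ (J (Fin m) K i j) = J (Fin m) K i j := congrFun (congrFun (map_J σ) i) j
  simp only [map_apply, Matrix.smul_apply, smul_eq_mul, map_mul, h2]

lemma sim_one : Sim (1 : Matrix (Fin m ⊕ Fin m) (Fin m ⊕ Fin m) K) 1 :=
  ⟨one_ne_zero, by rw [transpose_one, one_mul, mul_one, one_smul]⟩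

lemma sim_sy (h : Sy K m) : Sim h.1 1 :=
  ⟨one_ne_zero, by rw [one_smul]; exact SymplecticGroup.mem_iff.1 h.2⟩

lemma Sim.mem (h : Sim M 1) : M ∈ symplecticGroup (Fin m) K := by
  rw [SymplecticGroup.mem_iff, h.eq, one_smul]

lemma Sim.exists_conj (h : Sim M μ) (σ : K ≃+* K) (g : Sy K m) :
    ∃ g' : Sy K m, g'.1 * M = M * g.1.map σ := by
  obtain ⟨A, h1, h2, h3⟩ := h.exists_inv
  have h4 := (h.mul ((sim_sy g).map σ)).mul h3
  rw [map_one, mul_one, mul_inv_cancel₀ h.ne] at h4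
  refine ⟨⟨_, h4.mem⟩, ?_⟩
  change M * g.1.map σ * A * M = M * g.1.map σ
  rw [mul_assoc, h2, mul_one]

lemma Sim.smul (h : Sim M μ) {c : K} (hc : c ≠ 0) : Sim (c • M) (c * c * μ) := by
  refine ⟨mul_ne_zero (mul_ne_zero hc hc) h.ne, ?_⟩
  rw [transpose_smul, smul_mul_assoc, smul_mul_assoc, mul_smul_comm, h.eq, smul_smul, smul_smul]

/-- transvections -/
lemma up_sim (t : K) : Sim (fromBlocks 1 (t • (1 : Matrix (Fin m) (Fin m) K)) 0 1) 1 := by
  refine ⟨one_ne_zero, ?_⟩
  unfold J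
  rw [fromBlocks_transpose, fromBlocks_multiply, fromBlocks_multiply, one_smul]
  simp

end sim

section acts
variable {K : Type u} [Field K] {m : ℕ} {G : Type v} [Group G] {ε : Sy K m →* G}
  {M M' : Matrix (Fin m ⊕ Fin m) (Fin m ⊕ Fin m) K} {μ μ' : K}

lemma acts_mul {x y : G} {σ σ' : RingAut K} (h : Acts ε x M σ) (h' : Acts ε y M' σ')
    (hM' : Sim M' μ') : Acts ε (x * y) (M * M'.map σ) (σ * σ') := by
  intro g g'' hg
  obtain ⟨g', hg'⟩ := hM'.exists_conj σ' g
  obtain ⟨A, h1, -, -⟩ := (hM'.map σ).exists_inv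
  have h2 : g''.1 * M = M * g'.1.map σ := by
    have h3 : g''.1 * M * M'.map σ = M * g'.1.map σ * M'.map σ := by
      rw [mul_assoc, hg, mul_assoc, mul_assoc, ← map_mul', hg', map_mul']
      rfl
    have h4 := congrArg (fun B => B * A) h3
    simp only [mul_assoc, h1, mul_one] at h4
    exact h4
  rw [← h g' g'' h2, ← h' g g' hg']
  group

lemma acts_one : Acts ε 1 1 (1 : RingAut K) := by
  intro g g' hg
  have h1 : g' = g := by
    apply Subtype.ext
    rw [mul_one, one_mul] at hg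
    rw [hg]
    rfl
  rw [h1]
  group

lemma acts_pow {x : G} {σ : RingAut K} (h : Acts ε x M σ) (hM : Sim M μ) (n : ℕ) :
    ∃ (N : Matrix (Fin m ⊕ Fin m) (Fin m ⊕ Fin m) K) (ν : K), Sim N ν ∧
      Acts ε (x ^ n) N (σ ^ n : RingAut K) := by
  induction n with
  | zero => exact ⟨1, 1, sim_one, by rw [pow_zero, pow_zero]; exact acts_one⟩
  | succ n ih =>
    obtain ⟨N, ν, h1, h2⟩ := ih
    exact ⟨_, _, h1.mul (hM.map (σ ^ n : RingAut K)), by
      rw [pow_succ, pow_succ]; exact acts_mul h2 h hM⟩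

/-- the field automorphism is unique -/
lemma sigma_one (hm : 1 ≤ m)
    (ker : ∀ g : Sy K m, ε g = 1 ↔
      ∃ c : K, g.1 = c • (1 : Matrix (Fin m ⊕ Fin m) (Fin m ⊕ Fin m) K))
    (hM : Sim M μ) {σ : RingAut K} (h : Acts ε 1 M σ) : σ = 1 := by
  obtain ⟨A, hMA, hAM, -⟩ := hM.exists_inv
  let E : Matrix (Fin m ⊕ Fin m) (Fin m ⊕ Fin m) K := fromBlocks 0 1 0 0
  have hE : E * E = 0 := by
    simp only [E]
    rw [fromBlocks_multiply]
    simp
  have hU : ∀ t : K, fromBlocks 1 (t • (1 : Matrix (Fin m) (Fin m) K)) 0 1 = 1 + t • E := by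
    intro t
    simp only [E]
    rw [← fromBlocks_one, fromBlocks_smul, fromBlocks_add]
    simp
  let i0 : Fin m := ⟨0, hm⟩
  have key : ∀ t : K, (t • E) * M = σ t • (M * E) := by
    intro t
    let g : Sy K m := ⟨_, (up_sim t).mem⟩
    obtain ⟨g', hg'⟩ := hM.exists_conj σ g
    have h1 := h g g' hg'
    rw [one_mul, inv_one, mul_one] at h1
    have h2 : ε (g'⁻¹ * g) = 1 := by rw [map_mul, map_inv, h1, inv_mul_cancel]
    obtain ⟨c, hc⟩ := (ker _).1 h2
    have h3 : g.1 = c • g'.1 := by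
      have h4 : g.1 = g'.1 * (g'⁻¹ * g : Sy K m).1 := by
        change g.1 = (g' * (g'⁻¹ * g) : Sy K m).1
        rw [mul_inv_cancel_left]
      rw [h4, hc, mul_smul_comm, mul_one]
    have h5 : g.1 = 1 + t • E := hU t
    have h6 : g.1.map σ = 1 + σ t • E := by
      rw [h5]
      ext i j
      simp only [map_apply, Matrix.add_apply, Matrix.smul_apply, smul_eq_mul, map_add, map_mul]
      have e1 : σ ((1 : Matrix (Fin m ⊕ Fin m) (Fin m ⊕ Fin m) K) i j) =
          (1 : Matrix (Fin m ⊕ Fin m) (Fin m ⊕ Fin m) K) i j := by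
        by_cases hij : i = j
        · subst hij; simp
        · simp [Matrix.one_apply_ne hij]
      have e2 : σ (E i j) = E i j := by
        simp only [E]
        rcases i with i | i <;> rcases j with j | j
        · simp
        · rw [fromBlocks_apply₁₂]
          by_cases hij : i = j
          · subst hij; simp
          · simp [Matrix.one_apply_ne hij]
        · simp
        · simp
      rw [e1, e2]
    have h7 : (1 + t • E) * M = c • (M * (1 + σ t • E)) := by
      rw [← h5, h3, smul_mul_assoc, hg', h6]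
    have h8 : A * (t • E) * M = (c - 1) • (1 : Matrix (Fin m ⊕ Fin m) (Fin m ⊕ Fin m) K) +
        (c * σ t) • E := by
      have h9 : A * ((1 + t • E) * M) = c • (1 + σ t • E) := by
        rw [h7, mul_smul_comm, ← mul_assoc, hAM, one_mul]
      rw [add_mul, one_mul, mul_add, hAM, ← mul_assoc] at h9
      rw [smul_add, smul_smul] at h9
      rw [sub_smul, one_smul]
      have h10 := congrArg (fun B => B - 1) h9
      simp only [add_sub_cancel_left] at h10
      rw [h10]
      abel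
    have h11 : A * (t • E) * M * (A * (t • E) * M) = 0 := by
      calc A * (t • E) * M * (A * (t • E) * M) = A * (t • E) * (M * A) * (t • E) * M := by
            simp only [mul_assoc]
        _ = A * ((t • E) * (t • E)) * M := by rw [hMA, mul_one]; simp only [mul_assoc]
        _ = 0 := by rw [smul_mul_smul_comm, hE, smul_zero, mul_zero, zero_mul]
    rw [h8] at h11
    have h12 : ((c - 1) • (1 : Matrix (Fin m ⊕ Fin m) (Fin m ⊕ Fin m) K) + (c * σ t) • E) *
        ((c - 1) • (1 : Matrix (Fin m ⊕ Fin m) (Fin m ⊕ Fin m) K) + (c * σ t) • E) =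
        ((c - 1) * (c - 1)) • (1 : Matrix (Fin m ⊕ Fin m) (Fin m ⊕ Fin m) K) +
        (2 * ((c - 1) * (c * σ t))) • E := by
      simp only [add_mul, mul_add, smul_mul_smul_comm, hE, smul_zero, mul_one, one_mul, add_zero]
      rw [add_assoc, ← add_smul]
      congr 2
      ring
    rw [h12] at h11
    have h13 := congrFun (congrFun h11 (Sum.inl i0)) (Sum.inl i0)
    simp only [Matrix.add_apply, Matrix.smul_apply, Matrix.one_apply_eq, smul_eq_mul, mul_one, E,
      fromBlocks_apply₁₁, Matrix.zero_apply, mul_zero, add_zero] at h13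
    have hc1 : c = 1 := by
      rcases mul_eq_zero.1 h13 with h | h <;> exact sub_eq_zero.1 h
    rw [hc1, one_smul, add_mul, one_mul, mul_add, mul_one, mul_smul_comm] at h7
    exact add_left_cancel h7
  have k1 := key 1
  rw [one_smul, map_one, one_smul] at k1
  apply RingEquiv.ext
  intro t
  have k2 := key t
  rw [smul_mul_assoc, k1] at k2
  have k3 : A * (t • (M * E)) = A * (σ t • (M * E)) := by rw [k2]
  rw [mul_smul_comm, mul_smul_comm, ← mul_assoc, hAM, one_mul] at k3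
  have k4 := congrFun (congrFun k3 (Sum.inl i0)) (Sum.inr i0)
  simp only [Matrix.smul_apply, E, fromBlocks_apply₁₂, Matrix.one_apply_eq, smul_eq_mul,
    mul_one] at k4
  rw [← k4]
  rfl

/-- elements of odd order which act linearly are inner -/
lemma inner {L : Subgroup G} (hr : ε.range = L) {p : ℕ} (hp : Odd p) {x : G} (hx : x ^ p = 1)
    (hM : Sim M μ) (h : Acts ε x M (1 : RingAut K)) :
    x ∈ L ⊔ centralizer (L : Set G) := by
  obtain ⟨k, rfl⟩ := hp
  obtain ⟨N, ν, h1, h2⟩ := acts_pow h hM (k + 1)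
  rw [one_pow] at h2
  have h3 := acts_mul h2 h2 h1
  have h4 : x ^ (k + 1) * x ^ (k + 1) = x := by
    rw [← pow_add, show k + 1 + (k + 1) = (2 * k + 1) + 1 by ring, pow_succ, hx, one_mul]
  have e1 : N.map (1 : RingAut K) = N := by
    ext i j
    rfl
  rw [h4, e1, mul_one] at h3
  have h5 := (h1.mul h1).smul (inv_ne_zero h1.ne)
  have h6 : ν⁻¹ * ν⁻¹ * (ν * ν) = 1 := by
    have := h1.ne
    field_simp
  rw [h6] at h5
  let s : Sy K m := ⟨_, h5.mem⟩
  have h7 : ∀ g : Sy K m, x * ε g * x⁻¹ = ε s * ε g * (ε s)⁻¹ := by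
    intro g
    rw [← map_inv, ← map_mul, ← map_mul]
    refine h3 g _ ?_
    have h8 : (s * g * s⁻¹ : Sy K m).1 * s.1 = s.1 * g.1 := by
      change (s * g * s⁻¹ * s : Sy K m).1 = (s * g : Sy K m).1
      rw [inv_mul_cancel_right]
    have e2 : s.1 = ν⁻¹ • (N * N) := rfl
    rw [e2, mul_smul_comm, smul_mul_assoc] at h8
    have h9 := congrArg (fun B => ν • B) h8
    simp only [smul_smul, mul_inv_cancel₀ h1.ne, one_smul] at h9
    rw [h9]
    congr 1
  have h10 : (ε s)⁻¹ * x ∈ centralizer (L : Set G) := by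
    rw [mem_centralizer_iff]
    intro y hy
    rw [← hr] at hy
    obtain ⟨g, rfl⟩ := hy
    have h11 := h7 g
    rw [mul_inv_eq_iff_eq_mul] at h11
    calc ε g * ((ε s)⁻¹ * x) = (ε s)⁻¹ * (ε s * ε g * (ε s)⁻¹ * x) := by group
      _ = (ε s)⁻¹ * (x * ε g) := by rw [← h11]
      _ = (ε s)⁻¹ * x * ε g := by group
  have h12 : ε s ∈ L := by rw [← hr]; exact ⟨s, rfl⟩
  have h13 := mul_mem (le_sup_left (b := centralizer (L : Set G)) h12)
    (le_sup_right (a := L) h10)
  rwa [mul_inv_cancel_left] at h13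

end acts

/-- OP3 -/
theorem stmtOP3 : StmtOP3.{u, v} := by
  intro K _ _ m p hp hp2 hm G _ L ε hε t ht x hx htp hxp htx htL
  have hodd : Odd p := hp.out.odd_of_ne_two hp2
  obtain ⟨M, μ, σ, h1, h2, h3⟩ := hε.sem t ht
  obtain ⟨M', μ', σ', h1', h2', h3'⟩ := hε.sem x hx
  have hM : Sim M μ := ⟨h1, h2⟩
  have hM' : Sim M' μ' := ⟨h1', h2'⟩
  have e1 : (σ : RingAut K) ^ p = 1 := by
    obtain ⟨N, ν, h4, h5⟩ := acts_pow (σ := σ) h3 hM p
    rw [htp] at h5
    exact sigma_one hm hε.ker h4 h5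
  have e2 : (σ' : RingAut K) ^ p = 1 := by
    obtain ⟨N, ν, h4, h5⟩ := acts_pow (σ := σ') h3' hM' p
    rw [hxp] at h5
    exact sigma_one hm hε.ker h4 h5
  have e3 : (σ : RingAut K) ≠ 1 := by
    intro h
    exact htL (inner hε.range hodd htp hM (h ▸ h3))
  obtain ⟨k, hk, hk'⟩ := H401.aut_pow hp.out σ σ' e1 e2 e3
  obtain ⟨N, ν, h4, h5⟩ := acts_pow (σ := σ) h3 hM (p - k)
  have h6 := acts_mul (σ := σ') h3' h5 h4
  have e4 : (σ' : RingAut K) * (σ : RingAut K) ^ (p - k) = 1 := by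
    rw [hk', ← pow_add, Nat.add_sub_cancel' hk.le, e1]
  rw [e4] at h6
  refine ⟨p - k, inner hε.range hodd ?_ (hM'.mul (h4.map σ')) h6⟩
  have hc : Commute x (t ^ (p - k)) := (Commute.pow_right (show Commute x t from htx.symm) _)
  rw [hc.mul_pow, hxp, ← pow_mul, mul_comm, pow_mul, htp, one_pow, one_mul]

end Vale.Agent.P240.R2.H281.OP
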