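import Vale.Agent.P240.R2.AS.Defs
import Vale.Agent.P240.R2.H281.Six

/-!
S2, the field `six` of `Good (Fr K n) n`, for any star, from the statement on vectors, and for the
trivial star.
-/

set_option autoImplicit false

namespace Vale.Agent.P240.R2.H281

open Finset Matrix
open Vale.Agent.P240.R2.AS (Ln Fr Orth mem_Fr)
open scoped Classical

universe u

noncomputable section

variable (K : Type u) [Field K] [Fintype K] [StarRing K]

/-- six ordered pairs of orthogonal unit lines in each plane -/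
def Six (n : ℕ) : Prop := ∀ x y : Fin n → K, star x ⬝ᵥ x = 1 → star y ⬝ᵥ y = 1 → star x ⬝ᵥ y = 0 →
  ∃ S : Finset (Matrix (Fin n) (Fin n) K × Matrix (Fin n) (Fin n) K), 6 ≤ S.card ∧
    ∀ p ∈ S, ∃ x' y' : Fin n → K, star x' ⬝ᵥ x' = 1 ∧ star y' ⬝ᵥ y' = 1 ∧ star x' ⬝ᵥ y' = 0 ∧
      p.1 = vecMulVec x' (star x') ∧ p.2 = vecMulVec y' (star y') ∧
      vecMulVec x' (star x') + vecMulVec y' (star y') =
        vecMulVec x (star x) + vecMulVec y (star y)

variable {K}

omit [Fintype K] in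
lemma vv_mul {n : ℕ} (x y : Fin n → K) :
    vecMulVec x (star x) * vecMulVec y (star y) = (star x ⬝ᵥ y) • vecMulVec x (star y) := by
  rw [vecMulVec_mul_vecMulVec]
  ext i j
  simp [vecMulVec_apply, Matrix.smul_apply]
  ring

omit [Fintype K] in
lemma dot_symm {n : ℕ} {x y : Fin n → K} (h : star x ⬝ᵥ y = 0) : star y ⬝ᵥ x = 0 := by
  rw [Matrix.star_dotProduct, h, star_zero]

omit [Fintype K] in
lemma dot_of_mul {n : ℕ} {x y : Fin n → K} (hx : star x ⬝ᵥ x = 1) (hy : star y ⬝ᵥ y = 1)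
    (h : vecMulVec x (star x) * vecMulVec y (star y) = 0) : star x ⬝ᵥ y = 0 := by
  rw [vv_mul] at h
  have hx0 : ∃ i, x i ≠ 0 := by
    by_contra hc
    push Not at hc
    have : x = 0 := funext hc
    rw [this, dotProduct_zero] at hx
    exact zero_ne_one hx
  have hy0 : ∃ i, star y i ≠ 0 := by
    by_contra hc
    push Not at hc
    have : star y = 0 := funext hc
    rw [this, zero_dotProduct] at hy
    exact zero_ne_one hy
  obtain ⟨i, hi⟩ := hx0
  obtain ⟨j, hj⟩ := hy0
  have h1 := congrFun (congrFun h i) j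
  simp only [Matrix.smul_apply, vecMulVec_apply, smul_eq_mul, Matrix.zero_apply] at h1
  rcases mul_eq_zero.mp h1 with h1 | h1
  · exact h1
  · exact absurd h1 (mul_ne_zero hi hj)

/-- the field `six` of `Good`, from `Six` -/
theorem six_Fr {n : ℕ} (h : Six K n) (u : List (Ln K n)) (a b : Ln K n)
    (hab : u ++ [a, b] ∈ Fr K n) :
    6 ≤ (Finset.univ.filter (fun x : Ln K n × Ln K n => u ++ [x.1, x.2] ∈ Fr K n)).card := by
  rw [mem_Fr, Orth, List.pairwise_append] at hab
  obtain ⟨hl, h1, h2, h3⟩ := hab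
  obtain ⟨x, hx, hax⟩ := a.2
  obtain ⟨y, hy, hby⟩ := b.2
  have h4 : a.1 * b.1 = 0 := by simpa using h2
  have hxy : star x ⬝ᵥ y = 0 := dot_of_mul hx hy (by rw [← hax, ← hby]; exact h4)
  obtain ⟨S, hS, hS'⟩ := h x y hx hy hxy
  refine hS.trans ?_
  refine (Finset.card_le_card (t := (Finset.univ.filter (fun x : Ln K n × Ln K n =>
    u ++ [x.1, x.2] ∈ Fr K n)).image fun x => (x.1.1, x.2.1)) ?_).trans Finset.card_image_le
  intro p hp
  obtain ⟨x', y', hx', hy', hxy', e1, e2, e3⟩ := hS' p hp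
  obtain ⟨P, hP⟩ : ∃ P : Ln K n, P.1 = p.1 := ⟨⟨p.1, x', hx', e1⟩, rfl⟩
  obtain ⟨Q, hQ⟩ : ∃ Q : Ln K n, Q.1 = p.2 := ⟨⟨p.2, y', hy', e2⟩, rfl⟩
  have hPQ : vecMulVec x' (star x') * vecMulVec y' (star y') = 0 := by
    rw [vv_mul, hxy', zero_smul]
  have hQP : vecMulVec y' (star y') * vecMulVec x' (star x') = 0 := by
    rw [vv_mul, dot_symm hxy', zero_smul]
  have hPP : vecMulVec x' (star x') * vecMulVec x' (star x') = vecMulVec x' (star x') := by
    rw [vv_mul, hx', one_smul]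
  have hQQ : vecMulVec y' (star y') * vecMulVec y' (star y') = vecMulVec y' (star y') := by
    rw [vv_mul, hy', one_smul]
  rw [Finset.mem_image]
  refine ⟨(P, Q), ?_, by simp [hP, hQ]⟩
  rw [Finset.mem_filter]
  refine ⟨Finset.mem_univ _, ?_⟩
  rw [mem_Fr, Orth, List.pairwise_append]
  refine ⟨by simpa using hl, h1, ?_, ?_⟩
  · rw [List.pairwise_cons]
    refine ⟨?_, List.pairwise_singleton _ _⟩
    intro s hs
    rw [List.mem_singleton] at hs
    change P.1 * s.1 = 0
    rw [hs, hP, hQ, e1, e2]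
    exact hPQ
  · intro r hr s hs
    have h5 : r.1 * (vecMulVec x' (star x') + vecMulVec y' (star y')) = 0 := by
      rw [e3, ← hax, ← hby, mul_add, h3 r hr a (by simp), h3 r hr b (by simp), add_zero]
    simp only [List.mem_cons, List.not_mem_nil, or_false] at hs
    rcases hs with rfl | rfl
    · rw [hP, e1]
      have h6 := congrArg (fun M => M * vecMulVec x' (star x')) h5
      simp only [zero_mul, mul_assoc, add_mul, hPP, hQP, add_zero] at h6
      exact h6
    · rw [hQ, e2]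
      have h6 := congrArg (fun M => M * vecMulVec y' (star y')) h5
      simp only [zero_mul, mul_assoc, add_mul, hQQ, hPQ, zero_add] at h6
      exact h6

/-- S2, for the trivial star -/
theorem six_triv (hs : ∀ a : K, star a = a) (h2 : (2 : K) ≠ 0) (hq : 11 ≤ Nat.card K) (n : ℕ) :
    Six K n := by
  have hv : ∀ x : Fin n → K, star x = x := fun x => funext fun i => hs (x i)
  intro x y hx hy hxy
  rw [hv] at hx hy hxy
  obtain ⟨h3, h4⟩ := six_vec h2 hq hx hy hxy
  refine ⟨prs K x y, h3, ?_⟩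
  intro p hp
  obtain ⟨x', y', e1, e2, e3, e4, e5, e6⟩ := h4 p hp
  refine ⟨x', y', ?_⟩
  simp only [hv]
  exact ⟨e1, e2, e3, e4, e5, e6⟩

/-- S2, the field `six` of `Good (Fr K n) n`, for the trivial star -/
theorem six_Fr_triv (hs : ∀ a : K, star a = a) (h2 : (2 : K) ≠ 0) (hq : 11 ≤ Nat.card K) {n : ℕ}
    (u : List (Ln K n)) (a b : Ln K n) (hab : u ++ [a, b] ∈ Fr K n) :
    6 ≤ (Finset.univ.filter (fun x : Ln K n × Ln K n => u ++ [x.1, x.2] ∈ Fr K n)).card :=
  six_Fr (six_triv hs h2 hq n) u a b hab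

end

end Vale.Agent.P240.R2.H281
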