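import Vale.Agent.P240.R2.H387.Good
import Vale.Agent.P240.R2.H281.Six

/-!
S2 in the form of `good_of_six`: the trivial star, lines of square value (`T = {1}`, `|K| ≥ 11`)
and all nondegenerate lines (`T = univ`, `|K| ≥ 7`).
-/

set_option autoImplicit false

namespace Vale.Agent.P240.R2.H281

open Matrix
open Vale.Agent.P240.R2.H387
open Vale.Agent.P240.R2.H775 (Good)

variable {K : Type*} [Field K] [StarRing K] [Fintype K] [DecidableEq K]
  {ι : Type*} [Fintype ι] [DecidableEq ι]

/-- S2: six ordered pairs of orthogonal letters in a plane, trivial star, `T = {1}` -/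
theorem six_pairs (hs : ∀ a : K, star a = a) (h2 : (2 : K) ≠ 0) (hq : 11 ≤ Nat.card K)
    (a b : Ln ({1} : Set K) ι) (hab : a.1 * b.1 = 0) : 6 ≤ (pairs a b).card := by
  have hv : ∀ x : ι → K, star x = x := fun x => funext fun i => hs (x i)
  obtain ⟨x, hx, hax⟩ := isLn_one_iff.1 a.2
  obtain ⟨y, hy, hby⟩ := isLn_one_iff.1 b.2
  have hpx : a.1 = H387.pr x := by rw [H387.pr, hx, inv_one, one_smul]; exact hax
  have hpy : b.1 = H387.pr y := by rw [H387.pr, hy, inv_one, one_smul]; exact hby
  have hxy : hf x y = 0 := by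
    rw [hpx, hpy, pr_mul_eq_zero (by rw [hx]; exact one_ne_zero) (by rw [hy]; exact one_ne_zero)]
      at hab
    exact hab
  rw [hv] at hax hby
  rw [hf, hv] at hx hy hxy
  obtain ⟨h3, h4⟩ := six_vec h2 hq hx hy hxy
  refine h3.trans ?_
  classical
  refine (Finset.card_le_card (t := (pairs a b).image fun p => (p.1.1, p.2.1)) ?_).trans
    Finset.card_image_le
  intro p hp
  obtain ⟨x', y', e1, e2, e3, e4, e5, e6⟩ := h4 p hp
  have hx' : IsLn ({1} : Set K) p.1 := isLn_one_iff.2 ⟨x', by rw [hf, hv]; exact e1, by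
    rw [hv]; exact e4⟩
  have hy' : IsLn ({1} : Set K) p.2 := isLn_one_iff.2 ⟨y', by rw [hf, hv]; exact e2, by
    rw [hv]; exact e5⟩
  rw [Finset.mem_image]
  refine ⟨(⟨p.1, hx'⟩, ⟨p.2, hy'⟩), ?_, rfl⟩
  rw [mem_pairs]
  refine ⟨?_, ?_⟩
  · change p.1 * p.2 = 0
    rw [e4, e5, vecMulVec_mul_vecMulVec, e3]
    simp
  · change p.1 + p.2 = a.1 + b.1
    rw [e4, e5, hax, hby]
    exact e6

/-- S2: the frames of the standard symmetric space, letters of square value, `|K| ≥ 11` odd -/
theorem good_triv (hs : ∀ a : K, star a = a) (h2 : (2 : K) ≠ 0) (hq : 11 ≤ Nat.card K) :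
    Good (Fintype.card ι) (Fr ({1} : Set K) ι) :=
  good_of_six (six_pairs hs h2 hq)

/-- six ordered pairs of orthogonal letters in a plane, trivial star, `T = univ` -/
theorem six_pairs_univ (hs : ∀ a : K, star a = a) (hq : 7 ≤ Nat.card K)
    (a b : Ln (Set.univ : Set K) ι) (hab : a.1 * b.1 = 0) : 6 ≤ (pairs a b).card := by
  classical
  obtain ⟨a, x, ha1, hx, rfl⟩ := a
  obtain ⟨b, y, hb1, hy, rfl⟩ := b
  have hxy : hf x y = 0 := (pr_mul_eq_zero hx hy).1 hab
  have hC := card_pairs (T := (Set.univ : Set K)) hx hy hxy ⟨x, ha1, hx, rfl⟩ ⟨y, hb1, hy, rfl⟩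
    (Finset.univ.filter fun c : K => ¬ (hf x x + c * c * hf y y = 0)) (by
      intro c hc
      have hc : hf x x + star c * c * hf y y ≠ 0 := by
        rw [hs]; simpa using hc
      obtain ⟨f1, f2, f3⟩ := pair_facts hxy c
      refine ⟨hc, ⟨_, Set.mem_univ _, by rw [f1]; exact hc, rfl⟩,
        ⟨_, Set.mem_univ _, by rw [f2]; exact mul_ne_zero (mul_ne_zero hx hy) hc, rfl⟩⟩)
  refine le_trans ?_ hC
  have h7 := Finset.card_filter_add_card_filter_not (s := (Finset.univ : Finset K))
    (fun c : K => hf x x + c * c * hf y y = 0)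
  rw [Finset.card_univ, ← Nat.card_eq_fintype_card] at h7
  have h8 : (Finset.univ.filter fun c : K => hf x x + c * c * hf y y = 0).card ≤ 2 := by
    by_cases h : ∃ t : K, hf x x + t * t * hf y y = 0
    · obtain ⟨t, ht⟩ := h
      refine (Finset.card_le_card (t := {t, -t}) ?_).trans Finset.card_le_two
      intro s hs'
      simp only [Finset.mem_filter, Finset.mem_univ, true_and] at hs'
      have h1 : (s - t) * (s + t) = 0 := by
        apply mul_right_cancel₀ hy
        linear_combination hs' - ht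
      simp only [Finset.mem_insert, Finset.mem_singleton]
      rcases mul_eq_zero.mp h1 with h1 | h1
      · left; exact sub_eq_zero.mp h1
      · right; exact eq_neg_of_add_eq_zero_left h1
    · rw [Finset.filter_false_of_mem]
      · simp
      · intro t _ ht
        exact h ⟨t, ht⟩
  omega

/-- the frames of the standard symmetric space, all nondegenerate letters, `|K| ≥ 7` -/
theorem good_triv_univ (hs : ∀ a : K, star a = a) (hq : 7 ≤ Nat.card K) :
    Good (Fintype.card ι) (Fr (Set.univ : Set K) ι) :=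
  good_of_six (six_pairs_univ hs hq)

end Vale.Agent.P240.R2.H281
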