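import Vale.Agent.P240.R2.H715.SpStmts
import Vale.Agent.P240.R2.H775.Top1
import Vale.Agent.P240.R2.H275.M4cB
import Vale.Agent.P240.R2.H296.Cen
import Vale.Agent.P240.R2.H281.T4

/-!
`StmtTX`: a cycle of rank `m - 1` in `PO_m(q)`, `q ≥ 7` odd.
-/

set_option autoImplicit false

namespace Vale.Agent.P240.R2.H281

open Finset Matrix Subgroup Vale.Agent.P240.K
open scoped Classical

universe u v w

/-- injective homomorphisms preserve the combinatorial hypotheses -/
theorem comb_map {G G' L : Type*} [Group G] [Group G'] {p n : ℕ} {F : Finset (List L)}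
    {e : List L → G} (h : AS.Comb p n F e) (f : G →* G') (hf : Function.Injective f) :
    AS.Comb p n F (fun w => f (e w)) where
  len := h.len
  nodup := h.nodup
  perm := h.perm
  plane := fun u a b c d v w h1 h2 => congrArg f (h.plane u a b c d v w h1 h2)
  comm := fun u v w h1 => by
    rw [← map_mul, h.comm u v w h1, map_mul]
  pow := fun u v h1 => by
    rw [← map_pow, h.pow u v h1, map_one]
  nil := by
    rw [h.nil, map_one]
  full := fun w hw => by
    rw [h.full w hw, map_one]
  card := fun w hw => by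
    have hset : {y | ∃ u v, w = u ++ v ∧ y = f (e u)} = f '' {y | ∃ u v, w = u ++ v ∧ y = e u} := by
      ext y
      constructor
      · rintro ⟨u, v, hw, rfl⟩
        exact ⟨_, ⟨u, v, hw, rfl⟩, rfl⟩
      · rintro ⟨_, ⟨u, v, hw, rfl⟩, rfl⟩
        exact ⟨u, v, hw, rfl⟩
    rw [← h.card w hw, ← Subgroup.card_map_of_injective hf, MonoidHom.map_closure, ← hset]
  sep := fun A u v B l g h1 h2 hu hv => by
    have e1 : ∀ w : List L, AS.SS (fun w => f (e w)) w = (AS.SS e w).map f := by
      intro w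
      rw [AS.SS, AS.SS, MonoidHom.map_closure]
      congr 1
      ext y
      constructor
      · rintro ⟨x, hx, rfl⟩
        exact ⟨_, ⟨x, hx, rfl⟩, rfl⟩
      · rintro ⟨_, ⟨x, hx, rfl⟩, rfl⟩
        exact ⟨x, hx, rfl⟩
    rw [e1, ← MonoidHom.map_zpowers, ← MonoidHom.map_zpowers, ← Subgroup.map_sup,
      ← Subgroup.map_sup, (Subgroup.map_injective hf).eq_iff]
    exact h.sep A u v B l g h1 h2 hu hv

/-- the elements `e W` in any group which is the image of `U_n(K)` modulo scalars -/
theorem comb_hom {K : Type u} [Field K] [Fintype K] [StarRing K] {G : Type v} [Group G] {p n : ℕ}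
    {ζ : K} (hc : AS.Comb p n (AS.Fr K n) (AS.eW ζ))
    (hz : ∀ g : AS.GU K n, g ∈ Subgroup.center (AS.GU K n) ↔
      ∃ c : K, g.1 = c • (1 : Matrix (Fin n) (Fin n) K)) (i : AS.GU K n →* G)
    (hi : ∀ g, i g = 1 ↔ ∃ c : K, g.1 = c • (1 : Matrix (Fin n) (Fin n) K)) :
    AS.Comb p n (AS.Fr K n) (fun w => i (AS.eU ζ (AS.sm w))) := by
  have hk : ∀ g ∈ Subgroup.center (AS.GU K n), i g = 1 := fun g hg => (hi g).2 ((hz g).1 hg)
  have h1 := comb_map hc (QuotientGroup.lift (Subgroup.center (AS.GU K n)) i hk) (by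
    rw [injective_iff_map_eq_one]
    intro x
    obtain ⟨g, rfl⟩ := QuotientGroup.mk_surjective x
    intro hg
    have hg' : i g = 1 := hg
    exact (QuotientGroup.eq_one_iff g).2 ((hz g).2 ((hi g).1 hg')))
  exact h1

attribute [local instance] H715.ts

/-- TX -/
theorem stmtTX : H715.StmtTX.{u, v, w} := by
  intro K _ _ h2 hq m hm G _ _ i hi
  have hs : ∀ a : K, star a = a := fun _ => rfl
  have ho : Odd (Nat.card K) := by
    have hc : ringChar K ≠ 2 := by
      intro h
      apply h2
      have := ringChar.Nat.cast_ringChar (R := K)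
      rw [h] at this
      exact_mod_cast this
    rw [Nat.card_eq_fintype_card, Nat.odd_iff]
    exact FiniteField.odd_card_of_char_ne_two hc
  have h0 : (-1 : K) ≠ 1 := by
    intro h
    apply h2
    linear_combination -h
  have hc : AS.Comb 2 m (AS.Fr K m) (fun w => i (AS.eU (-1 : K) (AS.sm w))) :=
    comb_hom (H275.stmtB2 K hs ho m (by omega))
      (fun g => H296.mem_center_iff (ζ := (-1 : K)) h0 (by rw [hs]; ring) g) i hi
  refine ⟨fun w hw => hc.card w hw, ?_⟩
  intro 𝕜 _
  obtain ⟨w, hw, α, φ, h⟩ := H775.top_of_comb (by omega) hc (t_pos_triv hs h2 hq hm) 𝕜 i.range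
    (fun u v _ => ⟨_, rfl⟩)
  exact ⟨w, hw, α, φ, h⟩

end Vale.Agent.P240.R2.H281
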